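import Mathlib

/-!
Core of the quadratic stabilization bound for the Foulkes-Howe map.
Everything happens in an arbitrary commutative algebra `R` over the complex numbers.
-/

namespace Vale.Agent.P181

open Polynomial Submodule Equiv

section Coeff

variable {R : Type*} [CommRing R] [Algebra ℂ R]

theorem coeff_mem_of_eval_mem (W : Submodule ℂ R) (f : R[X])
    (h : ∀ s : ℂ, f.eval (algebraMap ℂ R s) ∈ W) (j : ℕ) : f.coeff j ∈ W := by
  by_contra hj
  obtain ⟨φ, hφ, hW⟩ := Submodule.exists_dual_map_eq_bot_of_notMem hj inferInstance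
  have hW' : ∀ x ∈ W, φ x = 0 := by
    intro x hx
    have : φ x ∈ W.map φ := Submodule.mem_map_of_mem hx
    rwa [hW, Submodule.mem_bot] at this
  let g : ℂ[X] := ∑ i ∈ Finset.range (f.natDegree + 1), monomial i (φ (f.coeff i))
  have hg : g = 0 := by
    apply Polynomial.funext
    intro s
    have := hW' _ (h s)
    rw [Polynomial.eval_eq_sum_range, map_sum] at this
    simp only [g, eval_finsetSum, eval_monomial, eval_zero]
    rw [← this]
    refine Finset.sum_congr rfl fun i _ => ?_
    rw [← map_pow, mul_comm (f.coeff i), ← Algebra.smul_def, map_smul, smul_eq_mul, mul_comm]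
  have hc := congrArg (fun p => p.coeff j) hg
  simp only [g, finsetSum_coeff, coeff_monomial, coeff_zero] at hc
  rw [Finset.sum_ite_eq'] at hc
  split_ifs at hc with hj'
  · exact hφ hc
  · apply hφ
    rw [Finset.mem_range, not_lt] at hj'
    rw [Polynomial.coeff_eq_zero_of_natDegree_lt (by omega), map_zero]

omit [Algebra ℂ R] in
theorem coeff_lin_pow (x y : R) (m i : ℕ) :
    ((C x + C y * X) ^ m).coeff i = (m.choose i : R) * y ^ i * x ^ (m - i) := by
  rw [add_comm, add_pow, finsetSum_coeff]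
  have : ∀ k ∈ Finset.range (m + 1),
      ((C y * X) ^ k * C x ^ (m - k) * (m.choose k : R[X])).coeff i
        = if k = i then (m.choose i : R) * y ^ i * x ^ (m - i) else 0 := by
    intro k _
    have : (C y * X) ^ k * C x ^ (m - k) * (m.choose k : R[X])
        = monomial k ((m.choose k : R) * y ^ k * x ^ (m - k)) := by
      rw [← C_mul_X_pow_eq_monomial]
      simp only [map_mul, map_pow, map_natCast]
      ring
    rw [this, coeff_monomial]
    split_ifs with h
    · rw [h]
    · rfl
  rw [Finset.sum_congr rfl this, Finset.sum_ite_eq']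
  split_ifs with h
  · rfl
  · rw [Finset.mem_range, not_lt] at h
    rw [Nat.choose_eq_zero_of_lt (by omega)]
    simp

end Coeff

section LemmaS

variable {V R : Type*} [AddCommGroup V] [Module ℂ V] [CommRing R] [Algebra ℂ R]

theorem eval_lin (ψ : V →ₗ[ℂ] R) (w u : V) (s : ℂ) :
    (C (ψ w) + C (ψ u) * X).eval (algebraMap ℂ R s) = ψ (w + s • u) := by
  rw [eval_add, eval_mul, eval_C, eval_C, eval_X, map_add, map_smul, Algebra.smul_def, mul_comm]

/-- span of the `n`-th powers -/
def Pw (ψ : V →ₗ[ℂ] R) (n : ℕ) : Submodule ℂ R := span ℂ (Set.range fun w => ψ w ^ n)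

theorem mul_Pw_le (ψ : V →ₗ[ℂ] R) (n : ℕ) : LinearMap.range ψ * Pw ψ n ≤ Pw ψ (n + 1) := by
  rw [Submodule.mul_le]
  rintro _ ⟨v, rfl⟩ y hy
  induction hy using Submodule.span_induction with
  | mem y hy =>
    obtain ⟨w, rfl⟩ := hy
    have h1 := coeff_mem_of_eval_mem (Pw ψ (n + 1)) ((C (ψ w) + C (ψ v) * X) ^ (n + 1))
      (fun s => by
        rw [eval_pow, eval_lin]
        exact subset_span ⟨_, rfl⟩) 1
    rw [coeff_lin_pow] at h1
    have h2 := (Pw ψ (n + 1)).smul_mem ((n + 1 : ℂ)⁻¹) h1
    have hn : (n + 1 : ℂ) ≠ 0 := by exact_mod_cast Nat.succ_ne_zero n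
    convert h2 using 1
    rw [Nat.choose_one_right, pow_one, Nat.add_sub_cancel, mul_assoc,
      ← nsmul_eq_mul, ← Nat.cast_smul_eq_nsmul ℂ, smul_smul]
    push_cast
    rw [inv_mul_cancel₀ hn, one_smul]
  | zero => simp
  | add y z _ _ hy hz => rw [mul_add]; exact add_mem hy hz
  | smul c y _ hy => rw [mul_smul_comm]; exact smul_mem _ _ hy

theorem pow_le_Pw (ψ : V →ₗ[ℂ] R) (n : ℕ) : LinearMap.range ψ ^ n ≤ Pw ψ n := by
  induction n with
  | zero =>
    rw [pow_zero, Submodule.one_le]
    exact subset_span ⟨0, by simp⟩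
  | succ n ih =>
    rw [pow_succ']
    exact (mul_le_mul' le_rfl ih).trans (mul_Pw_le ψ n)

/-- The elementary form of the `sl₂` surjectivity. -/
theorem lemmaS (P : V → R) (p : ℕ) (PP : V → V → R[X])
    (hev : ∀ w u (s : ℂ), (PP w u).eval (algebraMap ℂ R s) = P (w + s • u))
    (htop : ∀ w u, (PP w u).coeff p = P u)
    (ψ : V →ₗ[ℂ] R) (m q : ℕ) (hpq : p ≤ q) :
    span ℂ (Set.range P) * LinearMap.range ψ ^ (q + m)
      ≤ span ℂ (Set.range fun l => P l * ψ l ^ m) * LinearMap.range ψ ^ q := by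
  set W := span ℂ (Set.range fun l => P l * ψ l ^ m) * LinearMap.range ψ ^ q with hW
  have key : ∀ w u j r, j + r ≤ q →
      (PP w u).coeff j * (ψ u ^ r * ψ w ^ (q + m - r)) ∈ W := by
    intro w u j
    induction j using Nat.strong_induction_on with
    | _ j ih =>
      intro r hr
      have hc : (PP w u * (C (ψ w) + C (ψ u) * X) ^ m).coeff j
          ∈ span ℂ (Set.range fun l => P l * ψ l ^ m) := by
        apply coeff_mem_of_eval_mem
        intro s
        rw [eval_mul, eval_pow, eval_lin, hev]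
        exact subset_span ⟨_, rfl⟩
      have hg : ψ u ^ r * ψ w ^ (q - r) ∈ LinearMap.range ψ ^ q := by
        have : LinearMap.range ψ ^ q = LinearMap.range ψ ^ r * LinearMap.range ψ ^ (q - r) := by
          rw [← pow_add]; congr 1; omega
        rw [this]
        exact mul_mem_mul (pow_mem_pow _ (LinearMap.mem_range_self ψ u) _)
          (pow_mem_pow _ (LinearMap.mem_range_self ψ w) _)
      have hm := mul_mem_mul hc hg
      rw [← hW, coeff_mul, Finset.Nat.sum_antidiagonal_eq_sum_range_succ_mk,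
        Finset.sum_range_succ, add_mul, Finset.sum_mul] at hm
      have hrest : ∑ i ∈ Finset.range j,
          (PP w u).coeff i * ((C (ψ w) + C (ψ u) * X) ^ m).coeff (j - i)
            * (ψ u ^ r * ψ w ^ (q - r)) ∈ W := by
        apply Submodule.sum_mem
        intro i hi
        rw [Finset.mem_range] at hi
        rw [coeff_lin_pow]
        by_cases hle : j - i ≤ m
        · have h1 := ih i hi (r + (j - i)) (by omega)
          have h2 := W.smul_mem (m.choose (j - i) : ℂ) h1
          convert h2 using 1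
          have : q + m - (r + (j - i)) = (m - (j - i)) + (q - r) := by omega
          rw [this, Nat.cast_smul_eq_nsmul, nsmul_eq_mul]
          ring
        · rw [Nat.choose_eq_zero_of_lt (by omega)]
          simp
      have h3 := W.sub_mem hm hrest
      rw [add_sub_cancel_left, coeff_lin_pow] at h3
      convert h3 using 1
      have : q + m - r = m + (q - r) := by omega
      rw [this]
      simp
      ring
  refine (mul_le_mul' le_rfl (pow_le_Pw ψ (q + m))).trans ?_
  rw [Pw, span_mul_span, span_le]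
  rintro _ ⟨_, ⟨u, rfl⟩, _, ⟨w, rfl⟩, rfl⟩
  have := key w u p 0 (by omega)
  simpa [htop] using this

variable {ι : Type*}

/-- span of the products `∏ i ∈ S, φ i l ^ e` -/
def Sp (φ : ι → V →ₗ[ℂ] R) (S : Finset ι) (e : ℕ) : Submodule ℂ R :=
  span ℂ (Set.range fun l => ∏ i ∈ S, φ i l ^ e)

theorem lemmaS' (φ : ι → V →ₗ[ℂ] R) (S : Finset ι) (e : ℕ) (ψ : V →ₗ[ℂ] R) (m q : ℕ)
    (h : S.card * e ≤ q) :
    Sp φ S e * LinearMap.range ψ ^ (q + m)
      ≤ span ℂ (Set.range fun l => (∏ i ∈ S, φ i l ^ e) * ψ l ^ m) * LinearMap.range ψ ^ q := by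
  refine lemmaS _ (S.card * e) (fun w u => ∏ i ∈ S, (C (φ i w) + C (φ i u) * X) ^ e)
    ?_ ?_ ψ m q h
  · intro w u s
    simp only [eval_prod, eval_pow, eval_lin]
  · intro w u
    rw [coeff_prod_of_natDegree_le]
    · refine Finset.prod_congr rfl fun i _ => ?_
      rw [coeff_lin_pow]
      simp
    · intro i _
      refine natDegree_pow_le.trans ?_
      have : (C (φ i w) + C (φ i u) * X).natDegree ≤ 1 := by compute_degree
      nlinarith

theorem step_one [DecidableEq ι] (φ : ι → V →ₗ[ℂ] R) (S : Finset ι) (k q : ℕ)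
    (h : (S.card - 1) * k ≤ q) :
    ∏ i ∈ S, LinearMap.range (φ i) ^ (q + k)
      ≤ Sp φ S k * ∏ i ∈ S, LinearMap.range (φ i) ^ q := by
  induction S using Finset.induction_on with
  | empty =>
    simp only [Finset.prod_empty, mul_one, Submodule.one_le]
    exact subset_span ⟨0, by simp⟩
  | insert i S hi ih =>
    rw [Finset.card_insert_of_notMem hi, Nat.add_sub_cancel] at h
    have ih' := ih (le_trans (Nat.mul_le_mul_right _ (Nat.sub_le _ _)) h)
    rw [Finset.prod_insert hi, Finset.prod_insert hi]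
    refine (mul_le_mul' le_rfl ih').trans ?_
    rw [← mul_assoc, mul_comm _ (Sp φ S k), ← mul_assoc]
    refine mul_le_mul' ?_ le_rfl
    refine (lemmaS' φ S k (φ i) k q h).trans (le_of_eq ?_)
    congr 3
    ext l
    rw [Finset.prod_insert hi, mul_comm]

theorem step_two (φ : ι → V →ₗ[ℂ] R) (S : Finset ι) (ψ : V →ₗ[ℂ] R) (k j : ℕ)
    (h : S.card ≤ k) :
    LinearMap.range ψ ^ (j + k) * Sp φ S 1 ^ j
      ≤ LinearMap.range ψ ^ k *
        span ℂ (Set.range fun l => (∏ i ∈ S, φ i l ^ 1) * ψ l ^ 1) ^ j := by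
  induction j with
  | zero => simp
  | succ j ih =>
    have h1 := lemmaS' φ S 1 ψ 1 (j + k) (by omega)
    have : j + 1 + k = j + k + 1 := by omega
    rw [this, pow_succ' (Sp φ S 1), ← mul_assoc, mul_comm _ (Sp φ S 1)]
    refine (mul_le_mul' h1 le_rfl).trans ?_
    rw [mul_assoc]
    refine (mul_le_mul' le_rfl ih).trans (le_of_eq ?_)
    ring

end LemmaS

section Newton

variable {V R : Type*} [AddCommGroup V] [Module ℂ V] [CommRing R] [Algebra ℂ R]
variable {ι : Type*} [Fintype ι] [DecidableEq ι]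

omit [Algebra ℂ R] in
theorem prod_prod_erase (x : ι → R) (T : Finset ι) (hT : T.Nonempty) :
    ∏ t ∈ T, ∏ i ∈ Finset.univ.erase t, x i
      = (∏ i, x i) ^ (T.card - 1) * ∏ i ∈ Finset.univ \ T, x i := by
  induction hT using Finset.Nonempty.cons_induction with
  | singleton a => simp [Finset.sdiff_singleton_eq_erase]
  | cons a T ha hT ih =>
    rw [Finset.prod_cons, ih, Finset.card_cons, Nat.add_sub_cancel]
    have h1 : T.card = (T.card - 1) + 1 := by
      have := hT.card_pos
      omega
    have h2 : ∏ i ∈ Finset.univ \ T, x i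
        = x a * ∏ i ∈ Finset.univ \ Finset.cons a T ha, x i := by
      have h3 : Finset.univ \ T = insert a (Finset.univ \ Finset.cons a T ha) := by
        ext i
        simp only [Finset.mem_sdiff, Finset.mem_univ, true_and, Finset.mem_insert,
          Finset.mem_cons, not_or]
        by_cases hia : i = a
        · subst hia; simp [ha]
        · simp [hia]
      rw [h3, Finset.prod_insert (by simp)]
    rw [h2]
    conv_rhs => rw [h1, pow_succ, ← Finset.mul_prod_erase Finset.univ x (Finset.mem_univ a)]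
    rw [← Finset.mul_prod_erase Finset.univ x (Finset.mem_univ a)]
    ring

theorem esymm_coeff_mem (φ : ι → V →ₗ[ℂ] R) (l m : V) (j : ℕ) :
    ∑ T ∈ Finset.powersetCard j Finset.univ,
      (∏ t ∈ T, φ t m) * ∏ i ∈ Finset.univ \ T, φ i l ∈ Sp φ Finset.univ 1 := by
  have h := coeff_mem_of_eval_mem (Sp φ Finset.univ 1)
    (∏ i, (C (φ i l) + C (φ i m) * X)) (fun s => by
      simp only [eval_prod, eval_lin]
      exact subset_span ⟨l + s • m, by simp⟩) j
  convert h using 1
  simp only [add_comm (C _), Finset.prod_add, finsetSum_coeff]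
  rw [Finset.powersetCard_eq_filter, Finset.sum_filter]
  refine Finset.sum_congr rfl fun T _ => ?_
  rw [Finset.prod_mul_distrib, Finset.prod_const, ← map_prod, ← map_prod, mul_right_comm,
    ← map_mul, C_mul_X_pow_eq_monomial, coeff_monomial]

theorem newton_mem (φ : ι → V →ₗ[ℂ] R) (l m : V) (k : ℕ) :
    ∑ t, (φ t m * ∏ i ∈ Finset.univ.erase t, φ i l) ^ k ∈ Sp φ Finset.univ 1 ^ k := by
  set u : ι → R := fun t => φ t m * ∏ i ∈ Finset.univ.erase t, φ i l with hu
  set A := Sp φ Finset.univ 1 with hA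
  have hN : ∏ i, φ i l ∈ A := subset_span ⟨l, by simp⟩
  have he : ∀ j, 0 < j → MvPolynomial.aeval u (MvPolynomial.esymm ι ℂ j) ∈ A ^ j := by
    intro j hj
    have : MvPolynomial.aeval u (MvPolynomial.esymm ι ℂ j)
        = (∏ i, φ i l) ^ (j - 1) * ∑ T ∈ Finset.powersetCard j Finset.univ,
          (∏ t ∈ T, φ t m) * ∏ i ∈ Finset.univ \ T, φ i l := by
      rw [MvPolynomial.esymm, map_sum, Finset.mul_sum]
      refine Finset.sum_congr rfl fun T hT => ?_
      have hc : T.card = j := (Finset.mem_powersetCard.mp hT).2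
      simp only [map_prod, MvPolynomial.aeval_X, hu]
      rw [Finset.prod_mul_distrib, prod_prod_erase _ T (Finset.card_pos.mp (by omega)), hc]
      ring
    rw [this]
    have h2 : A ^ j = A ^ (j - 1) * A := by rw [← pow_succ]; congr 1; omega
    rw [h2]
    exact mul_mem_mul (pow_mem_pow _ hN _) (esymm_coeff_mem φ l m j)
  have hp : ∀ k, MvPolynomial.aeval u (MvPolynomial.psum ι ℂ k) ∈ A ^ k := by
    intro k
    induction k using Nat.strong_induction_on with
    | _ k ih =>
      rcases Nat.eq_zero_or_pos k with rfl | hk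
      · rw [MvPolynomial.psum_zero, pow_zero, map_natCast, ← nsmul_one]
        exact nsmul_mem (Submodule.one_le.mp le_rfl) _
      · rw [MvPolynomial.psum_eq_mul_esymm_sub_sum ι ℂ k hk, map_sub, map_sum]
        refine sub_mem ?_ (Submodule.sum_mem _ fun a ha => ?_)
        · have := (A ^ k).smul_mem ((-1) ^ (k + 1) * k : ℂ) (he k hk)
          convert this using 1
          simp [Algebra.smul_def]
        · rw [Finset.mem_filter, Finset.HasAntidiagonal.mem_antidiagonal, Set.mem_Ioo] at ha
          have h1 := mul_mem_mul (he a.1 ha.2.1) (ih a.2 (by omega))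
          rw [← pow_add, ha.1] at h1
          have := (A ^ k).smul_mem ((-1) ^ a.1 : ℂ) h1
          convert this using 1
          simp [Algebra.smul_def, mul_assoc]
  have := hp k
  simpa [MvPolynomial.psum] using this

end Newton

section Main

variable {V : Type*} [AddCommGroup V] [Module ℂ V]

/-- summation of a family -/
def sumL (κ : Type*) [Fintype κ] (R : Type*) [CommRing R] [Algebra ℂ R] : (κ → R) →ₗ[ℂ] R :=
  ∑ t : κ, LinearMap.proj t

theorem sumL_apply {κ : Type*} [Fintype κ] {R : Type*} [CommRing R] [Algebra ℂ R] (x : κ → R) :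
    sumL κ R x = ∑ t, x t := by
  simp [sumL]

theorem map_sumL_mul {κ : Type*} [Fintype κ] {R : Type*} [CommRing R] [Algebra ℂ R]
    (Y Z : Submodule ℂ (κ → R)) (Z₀ : Submodule ℂ R)
    (h : Z ≤ Z₀.map (Pi.constAlgHom ℂ κ R).toLinearMap) :
    (Z * Y).map (sumL κ R) ≤ Z₀ * Y.map (sumL κ R) := by
  rw [Submodule.map_le_iff_le_comap, Submodule.mul_le]
  intro z hz y hy
  obtain ⟨z₀, hz₀, rfl⟩ := h hz
  rw [Submodule.mem_comap]
  have : sumL κ R ((Pi.constAlgHom ℂ κ R).toLinearMap z₀ * y) = z₀ * sumL κ R y := by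
    simp [sumL_apply, Finset.mul_sum]
  rw [this]
  exact mul_mem_mul hz₀ (mem_map_of_mem hy)

/-- twisting a family of linear maps by a family of permutations -/
def tw {ι κ R : Type*} [CommRing R] [Algebra ℂ R] (φ : ι → V →ₗ[ℂ] R) (g : κ → Perm ι) (i : ι) :
    V →ₗ[ℂ] (κ → R) := LinearMap.pi fun t => φ (g t i)

theorem Sp_tw_le {ι κ R : Type*} [Fintype ι] [CommRing R] [Algebra ℂ R] (φ : ι → V →ₗ[ℂ] R)
    (g : κ → Perm ι) (e : ℕ) :
    Sp (tw φ g) Finset.univ e ≤ (Sp φ Finset.univ e).map (Pi.constAlgHom ℂ κ R).toLinearMap := by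
  rw [Sp, span_le]
  rintro _ ⟨l, rfl⟩
  refine ⟨∏ i, φ i l ^ e, subset_span ⟨l, rfl⟩, ?_⟩
  ext t
  simp only [AlgHom.toLinearMap_apply, Pi.constAlgHom_apply, Function.const_apply,
    Finset.prod_apply, Pi.pow_apply, tw, LinearMap.pi_apply]
  exact (Equiv.prod_comp (g t) fun i => φ i l ^ e).symm

theorem prod_pow_le_span {ι R : Type*} [Fintype ι] [DecidableEq ι] [CommRing R] [Algebra ℂ R]
    (φ : ι → V →ₗ[ℂ] R) (b : ℕ) :
    ∏ i, LinearMap.range (φ i) ^ b ≤ span ℂ (Set.range fun w : ι → V => ∏ i, φ i (w i) ^ b) := by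
  refine (Finset.prod_le_prod' fun i _ => pow_le_Pw (φ i) b).trans ?_
  simp only [Pw]
  rw [Submodule.prod_span]
  refine span_mono ?_
  intro x hx
  rw [Set.mem_fintype_prod] at hx
  obtain ⟨g, hg, rfl⟩ := hx
  choose w hw using hg
  exact ⟨w, Finset.prod_congr rfl fun i _ => hw i⟩

theorem prod_mem_prod_submodule {ι R : Type*} [CommRing R] [Algebra ℂ R] (S : Finset ι)
    (M : ι → Submodule ℂ R) (x : ι → R) (h : ∀ i ∈ S, x i ∈ M i) :
    ∏ i ∈ S, x i ∈ ∏ i ∈ S, M i := by
  classical
  induction S using Finset.induction_on with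
  | empty => simpa using (Submodule.one_le (R := ℂ) (A := R)).mp le_rfl
  | insert i S hi ih =>
    rw [Finset.prod_insert hi, Finset.prod_insert hi]
    exact mul_mem_mul (h i (Finset.mem_insert_self _ _))
      (ih fun j hj => h j (Finset.mem_insert_of_mem hj))

universe u

theorem main_aux (a : ℕ) : ∀ (b : ℕ), (a - 1) ^ 2 ≤ b →
    ∀ (R : Type u) [CommRing R] [Algebra ℂ R] (φ : Fin a → V →ₗ[ℂ] R),
    (∏ i, LinearMap.range (tw φ (fun σ : Perm (Fin a) => σ) i) ^ b).map (sumL (Perm (Fin a)) R)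
      ≤ Sp φ Finset.univ 1 ^ b := by
  induction a with
  | zero =>
    intro b _ R _ _ φ
    have h1 : (1 : Submodule ℂ R) ≤ Sp φ Finset.univ 1 := by
      rw [Submodule.one_le]
      exact subset_span ⟨0, by simp⟩
    refine le_trans ?_ (one_le_pow_of_one_le' h1 b)
    rw [Finset.univ_eq_empty, Finset.prod_empty, Submodule.map_le_iff_le_comap, Submodule.one_le,
      Submodule.mem_comap, sumL_apply]
    exact Submodule.sum_mem _ fun _ _ => Submodule.one_le.mp le_rfl
  | succ k ih =>
    intro b hb R _ _ φ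
    rw [Nat.add_sub_cancel] at hb
    obtain ⟨q, rfl⟩ : ∃ q, b = q + k := ⟨b - k, by
      have : k ≤ k ^ 2 := Nat.le_self_pow (by norm_num) k
      omega⟩
    have hq1 : (k - 1) * k ≤ q := by
      rcases k with _ | k
      · simp
      · rw [Nat.add_sub_cancel]; nlinarith
    have hq2 : (k - 1) ^ 2 ≤ q := by
      refine le_trans ?_ hq1
      rw [pow_two]
      exact Nat.mul_le_mul_left _ (Nat.sub_le _ _)
    rw [Submodule.map_le_iff_le_comap]
    refine (prod_pow_le_span _ _).trans ?_
    rw [span_le]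
    rintro _ ⟨w, rfl⟩
    rw [SetLike.mem_coe, Submodule.mem_comap, sumL_apply]
    set φ' : Fin (k + 1) → V →ₗ[ℂ] (Fin (k + 1) → R) := tw φ (fun t => swap 0 t) with hφ'
    set ψ : Fin k → V →ₗ[ℂ] (Fin (k + 1) → R) := fun i => φ' i.succ with hψ
    set Xs : Fin (k + 1) → R := ∑ τ : Perm (Fin k), ∏ i, ψ (τ i) (w i.succ) ^ (q + k) with hXs
    have hsum : ∑ σ : Perm (Fin (k + 1)),
        (∏ i, tw φ (fun σ : Perm (Fin (k + 1)) => σ) i (w i) ^ (q + k)) σ
        = sumL _ R (φ' 0 (w 0) ^ (q + k) * Xs) := by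
      rw [sumL_apply, ← Equiv.sum_comp Equiv.Perm.decomposeFin.symm, Fintype.sum_prod_type]
      refine Finset.sum_congr rfl fun t _ => ?_
      simp only [hXs, Pi.mul_apply, Finset.sum_apply, Finset.mul_sum]
      refine Finset.sum_congr rfl fun τ _ => ?_
      simp [Fin.prod_univ_succ, tw, hψ, hφ']
    have hX : Xs ∈ Sp ψ Finset.univ k * Sp ψ Finset.univ 1 ^ q := by
      have h1 : (∏ i, tw ψ (fun σ : Perm (Fin k) => σ) i (w i.succ) ^ (q + k))
          ∈ ∏ i, LinearMap.range (tw ψ (fun σ : Perm (Fin k) => σ) i) ^ (q + k) :=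
        prod_mem_prod_submodule _ _ _ fun i _ => pow_mem_pow _ (LinearMap.mem_range_self _ _) _
      have h2 := step_one (tw ψ (fun σ : Perm (Fin k) => σ)) Finset.univ k q (by simpa using hq1) h1
      have h3 := map_sumL_mul _ _ _ (Sp_tw_le ψ (fun σ : Perm (Fin k) => σ) k) (mem_map_of_mem h2)
      have h4 := mul_le_mul' le_rfl (ih q hq2 _ ψ) h3
      convert h4 using 1
      rw [sumL_apply, hXs]
      refine Finset.sum_congr rfl fun τ _ => ?_
      simp [tw]
    have h5 : φ' 0 (w 0) ^ (q + k) * Xs ∈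
        Sp φ' Finset.univ 1 ^ q * (Sp ψ Finset.univ k * LinearMap.range (φ' 0) ^ k) := by
      have h6 := mul_mem_mul (pow_mem_pow _ (LinearMap.mem_range_self (φ' 0) (w 0)) (q + k)) hX
      have h7 := step_two ψ Finset.univ (φ' 0) k q (by simp)
      have h8 : span ℂ (Set.range fun l => (∏ i, ψ i l ^ 1) * φ' 0 l ^ 1)
          = Sp φ' Finset.univ 1 := by
        rw [Sp]
        congr 2
        ext1 l
        rw [Fin.prod_univ_succ, mul_comm]
      rw [h8] at h7
      rw [mul_left_comm] at h6
      have h9 := mul_le_mul' le_rfl h7 h6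
      convert h9 using 1
      ring
    have h10 : Sp φ' Finset.univ 1 ^ q
        ≤ (Sp φ Finset.univ 1 ^ q).map (Pi.constAlgHom ℂ (Fin (k + 1)) R).toLinearMap := by
      rw [Submodule.map_pow]
      exact pow_le_pow_left' (Sp_tw_le φ _ 1) q
    have h11 := map_sumL_mul _ _ _ h10 (mem_map_of_mem h5)
    have h12 : (Sp ψ Finset.univ k * LinearMap.range (φ' 0) ^ k).map (sumL (Fin (k + 1)) R)
        ≤ Sp φ Finset.univ 1 ^ k := by
      rw [Submodule.map_le_iff_le_comap]
      refine (mul_le_mul' le_rfl (pow_le_Pw _ _)).trans ?_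
      rw [Sp, Pw, span_mul_span, span_le]
      rintro _ ⟨_, ⟨l, rfl⟩, _, ⟨m, rfl⟩, rfl⟩
      rw [SetLike.mem_coe, Submodule.mem_comap, sumL_apply]
      convert newton_mem φ l m k using 2 with t _
      have h13 : φ t l * ∏ i ∈ Finset.univ.erase t, φ i l
          = φ t l * ∏ i : Fin k, φ (swap 0 t i.succ) l := by
        rw [Finset.mul_prod_erase Finset.univ (fun i => φ i l) (Finset.mem_univ t),
          ← Equiv.prod_comp (swap 0 t), Fin.prod_univ_succ, swap_apply_left]
      have h14 : ∏ i ∈ Finset.univ.erase t, φ i l = ∏ i : Fin k, φ (swap 0 t i.succ) l := by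
        symm
        refine Finset.prod_bij (fun i _ => swap 0 t i.succ) ?_ ?_ ?_ ?_
        · intro i _
          rw [Finset.mem_erase]
          refine ⟨fun h => ?_, Finset.mem_univ _⟩
          rw [swap_apply_eq_iff, swap_apply_right] at h
          exact Fin.succ_ne_zero i h
        · intro i _ j _ h
          exact Fin.succ_injective _ ((swap 0 t).injective h)
        · intro j hj
          rw [Finset.mem_erase] at hj
          have h0 : swap 0 t j ≠ 0 := by
            intro h
            rw [swap_apply_eq_iff, swap_apply_left] at h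
            exact hj.1 h
          obtain ⟨i, hi⟩ := Fin.exists_succ_eq.mpr h0
          exact ⟨i, Finset.mem_univ _, by rw [hi, swap_apply_self]⟩
        · intro i _
          rfl
      simp only [Pi.mul_apply, Finset.prod_apply, Pi.pow_apply, hψ, hφ', tw, LinearMap.pi_apply,
        swap_apply_left, h14, mul_pow, Finset.prod_pow]
      ring
    rw [hsum, pow_add]
    exact mul_le_mul' le_rfl h12 h11

/-- The core theorem: symmetrized products lie in the `b`-th power of the span of the norms. -/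
theorem core (a b : ℕ) (hb : (a - 1) ^ 2 ≤ b) {R : Type*} [CommRing R] [Algebra ℂ R]
    (φ : Fin a → V →ₗ[ℂ] R) (v : Fin a → Fin b → V) :
    ∑ σ : Perm (Fin a), ∏ i, ∏ j, φ (σ i) (v i j) ∈ Sp φ Finset.univ 1 ^ b := by
  have h1 : (∏ i, ∏ j, tw φ (fun σ : Perm (Fin a) => σ) i (v i j))
      ∈ ∏ i, LinearMap.range (tw φ (fun σ : Perm (Fin a) => σ) i) ^ b := by
    refine prod_mem_prod_submodule _ _ _ fun i _ => ?_
    have := prod_mem_prod_submodule Finset.univ
      (fun _ : Fin b => LinearMap.range (tw φ (fun σ : Perm (Fin a) => σ) i))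
      (fun j => tw φ (fun σ : Perm (Fin a) => σ) i (v i j))
      (fun j _ => LinearMap.mem_range_self _ _)
    simpa using this
  have h2 := main_aux a b hb R φ (mem_map_of_mem h1)
  convert h2 using 1
  rw [sumL_apply]
  refine Finset.sum_congr rfl fun σ _ => ?_
  simp [tw]

end Main

end Vale.Agent.P181
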