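import Mathlib

/-!
Universal properties of (nested) symmetric powers.
-/

namespace Vale.Agent.P181

open Equiv TensorProduct PiTensorProduct

section Lift

variable {ι : Type} {M : Type*} [AddCommGroup M] [Module ℂ M]
variable {N : Type*} [AddCommGroup N] [Module ℂ N]

theorem exists_symLift (f : MultilinearMap ℂ (fun _ : ι => M) N)
    (hf : ∀ (e : Perm ι) (v : ι → M), f (fun i => v (e i)) = f v) :
    ∃ F : Sym[ℂ] ι M →ₗ[ℂ] N, ∀ v, F (SymmetricPower.tprod ℂ v) = f v := by
  have hle : addConGen (SymmetricPower.Rel ℂ ι M)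
      ≤ AddCon.ker (PiTensorProduct.lift f).toAddMonoidHom := by
    refine AddCon.addConGen_le.mpr ?_
    rintro _ _ ⟨e, v⟩
    rw [AddCon.ker_rel]
    simp [hf]
  let F₀ : Sym[ℂ] ι M →+ N := AddCon.lift _ (PiTensorProduct.lift f).toAddMonoidHom hle
  have hF₀ : ∀ x, F₀ (SymmetricPower.mk ℂ ι M x) = PiTensorProduct.lift f x := fun x => rfl
  refine ⟨{ F₀ with map_smul' := ?_ }, ?_⟩
  · intro c x
    obtain ⟨x, rfl⟩ := LinearMap.range_eq_top.mp (SymmetricPower.range_mk ℂ ι M) x
    change F₀ (c • _) = c • F₀ _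
    rw [← map_smul, hF₀, hF₀, map_smul]
  · intro v
    change F₀ (SymmetricPower.mk ℂ ι M (PiTensorProduct.tprod ℂ v)) = _
    rw [hF₀, PiTensorProduct.lift.tprod]

theorem exists_symMap (f : M →ₗ[ℂ] N) :
    ∃ F : Sym[ℂ] ι M →ₗ[ℂ] Sym[ℂ] ι N,
      ∀ v, F (SymmetricPower.tprod ℂ v) = SymmetricPower.tprod ℂ (fun i => f (v i)) :=
  exists_symLift ((SymmetricPower.tprod ℂ).compLinearMap fun _ => f)
    (fun e v => SymmetricPower.tprod_equiv e (fun i => f (v i)))

theorem exists_section [Fintype ι] [DecidableEq ι] :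
    ∃ s : Sym[ℂ] ι M →ₗ[ℂ] ⨂[ℂ] _ : ι, M, ∀ v, s (SymmetricPower.tprod ℂ v)
      = (Fintype.card (Perm ι) : ℂ)⁻¹ • ∑ e : Perm ι, PiTensorProduct.tprod ℂ (fun i => v (e i)) := by
  obtain ⟨F, hF⟩ := exists_symLift (ι := ι) (M := M) ((Fintype.card (Perm ι) : ℂ)⁻¹ •
    ∑ e : Perm ι, (PiTensorProduct.tprod ℂ).domDomCongr e) (by
      intro e v
      simp only [smul_apply, sum_apply,
        MultilinearMap.domDomCongr_apply]
      congr 1
      exact Equiv.sum_comp (Equiv.mulLeft e)
        (fun e' => PiTensorProduct.tprod ℂ (fun i => v (e' i))))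
  exact ⟨F, fun v => by simpa using hF v⟩

theorem multilinear_ext_of_span [Fintype ι] [DecidableEq ι] {f g : MultilinearMap ℂ (fun _ : ι => M) N}
    (S : Set M) (hS : Submodule.span ℂ S = ⊤)
    (h : ∀ v : ι → M, (∀ i, v i ∈ S) → f v = g v) : f = g := by
  obtain ⟨b, hb, hspan, hli⟩ := exists_linearIndependent ℂ S
  let B : Module.Basis b ℂ M := Module.Basis.mk hli (by rw [Subtype.range_coe, hspan, hS])
  refine Module.Basis.ext_multilinear (fun _ => B) fun v => h _ fun i => ?_
  simp only [B, Module.Basis.mk_apply]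
  exact hb (v i).2

end Lift

section Nested

variable {α β : Type} {V : Type*} [AddCommGroup V] [Module ℂ V]
variable {Y Z : Type*} [AddCommGroup Y] [Module ℂ Y] [AddCommGroup Z] [Module ℂ Z]

/-- nesting of two multilinear maps -/
def nest (g : MultilinearMap ℂ (fun _ : α => Y) Z) (f : MultilinearMap ℂ (fun _ : β => V) Y) :
    MultilinearMap ℂ (fun _ : α × β => V) Z :=
  MultilinearMap.domDomCongr (Equiv.sigmaEquivProd α β)
    (g.compMultilinearMap (N := fun _ _ => V) fun _ => f)

@[simp] theorem nest_apply (g : MultilinearMap ℂ (fun _ : α => Y) Z)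
    (f : MultilinearMap ℂ (fun _ : β => V) Y) (w : α × β → V) :
    nest g f w = g fun i => f fun j => w (i, j) := rfl

variable (α β V) in
/-- the nested symmetric product -/
noncomputable def tt : MultilinearMap ℂ (fun _ : α × β => V) (Sym[ℂ] α (Sym[ℂ] β V)) :=
  nest (SymmetricPower.tprod ℂ) (SymmetricPower.tprod ℂ)

theorem tt_apply (w : α × β → V) :
    tt α β V w = SymmetricPower.tprod ℂ fun i => SymmetricPower.tprod ℂ fun j => w (i, j) := rfl

theorem tt_shear (π : Perm α) (σ : α → Perm β) (w : α × β → V) :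
    tt α β V (fun p => w (π p.1, σ p.1 p.2)) = tt α β V w := by
  rw [tt_apply, tt_apply]
  have : (fun i => SymmetricPower.tprod ℂ fun j => w (π i, σ i j))
      = fun i => (fun i => SymmetricPower.tprod ℂ fun j => w (i, j)) (π i) := by
    ext i
    exact SymmetricPower.tprod_equiv (σ i) (fun j => w (π i, j))
  rw [this]
  exact SymmetricPower.tprod_equiv π (fun i => SymmetricPower.tprod ℂ fun j => w (i, j))

variable [Fintype α] [DecidableEq α] [Fintype β] [DecidableEq β]

omit [Fintype β] [DecidableEq β] in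
theorem tt_ext {F G : Sym[ℂ] α (Sym[ℂ] β V) →ₗ[ℂ] Z} (h : ∀ w, F (tt α β V w) = G (tt α β V w)) :
    F = G := by
  have h1 : F.compMultilinearMap (SymmetricPower.tprod ℂ)
      = G.compMultilinearMap (SymmetricPower.tprod ℂ) := by
    refine multilinear_ext_of_span _ (SymmetricPower.span_tprod_eq_top ℂ β V) fun v hv => ?_
    choose w hw using hv
    have := h fun p => w p.1 p.2
    rw [tt_apply] at this
    simpa [hw] using this
  refine LinearMap.ext_on_range (SymmetricPower.span_tprod_eq_top ℂ α _) fun v => ?_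
  exact congrArg (fun f => f v) h1

omit [Fintype β] [DecidableEq β] in
theorem span_tt : Submodule.span ℂ (Set.range (tt α β V)) = ⊤ := by
  have : (Submodule.span ℂ (Set.range (tt α β V))).mkQ = 0 := by
    refine tt_ext fun w => ?_
    rw [Submodule.mkQ_apply, LinearMap.zero_apply, Submodule.Quotient.mk_eq_zero]
    exact Submodule.subset_span ⟨w, rfl⟩
  rw [← Submodule.ker_mkQ (Submodule.span ℂ (Set.range (tt α β V))), this, LinearMap.ker_zero]

theorem exists_ttLift (μ : MultilinearMap ℂ (fun _ : α × β => V) Z)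
    (hμ : ∀ (π : Perm α) (σ : α → Perm β) (w : α × β → V),
      μ (fun p => w (π p.1, σ p.1 p.2)) = μ w) :
    ∃ F : Sym[ℂ] α (Sym[ℂ] β V) →ₗ[ℂ] Z, ∀ w, F (tt α β V w) = μ w := by
  let e := Module.Basis.ofVectorSpace ℂ V
  let e1 := Basis.piTensorProduct (fun _ : β => e)
  let e2 := Basis.piTensorProduct (fun _ : α => e1)
  let L : (⨂[ℂ] _ : α, ⨂[ℂ] _ : β, V) →ₗ[ℂ] Z := e2.constr ℂ fun p => μ fun q => e (p q.1 q.2)
  have hL : nest (L.compMultilinearMap (PiTensorProduct.tprod ℂ)) (PiTensorProduct.tprod ℂ) = μ := by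
    refine Module.Basis.ext_multilinear (fun _ => e) fun p => ?_
    have := e2.constr_basis ℂ (fun p => μ fun q => e (p q.1 q.2)) (fun i j => p (i, j))
    simpa [e2, e1] using this
  have hL' : ∀ w : α → β → V,
      L (PiTensorProduct.tprod ℂ fun i => PiTensorProduct.tprod ℂ fun j => w i j)
        = μ fun p => w p.1 p.2 := fun w => by
    rw [← hL]; rfl
  obtain ⟨s, hs⟩ := exists_section (ι := β) (M := V)
  let ν : MultilinearMap ℂ (fun _ : α => Sym[ℂ] β V) Z :=
    (L.compMultilinearMap (PiTensorProduct.tprod ℂ)).compLinearMap fun _ => s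
  have hc : (Fintype.card (Perm β) : ℂ) ≠ 0 := by exact_mod_cast Fintype.card_ne_zero
  have hν : ∀ w : α → β → V, ν (fun i => SymmetricPower.tprod ℂ (w i)) = μ fun p => w p.1 p.2 := by
    intro w
    simp only [ν, MultilinearMap.compLinearMap_apply, hs, MultilinearMap.map_smul_univ,
      MultilinearMap.map_sum, LinearMap.compMultilinearMap_apply]
    have : ∀ σ : α → Perm β,
        L (PiTensorProduct.tprod ℂ fun i => PiTensorProduct.tprod ℂ fun j => w i (σ i j))
          = μ fun p => w p.1 p.2 := by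
      intro σ
      rw [hL' fun i j => w i (σ i j)]
      exact hμ 1 σ fun p => w p.1 p.2
    simp only [this, Finset.sum_const, Finset.prod_const, Finset.card_univ, Fintype.card_fun]
    rw [← Nat.cast_smul_eq_nsmul ℂ, smul_smul, Nat.cast_pow, ← mul_pow, inv_mul_cancel₀ hc,
      one_pow, one_smul]
  obtain ⟨F, hF⟩ := exists_symLift ν (by
    intro π x
    have : ν.domDomCongr π = ν := by
      refine multilinear_ext_of_span _ (SymmetricPower.span_tprod_eq_top ℂ β V) fun v hv => ?_
      choose w hw using hv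
      have h1 : v = fun i => SymmetricPower.tprod ℂ (w i) := funext fun i => (hw i).symm
      rw [h1, MultilinearMap.domDomCongr_apply, hν, hν]
      exact hμ π (fun _ => 1) fun p => w p.1 p.2
    exact congrArg (fun f => f x) this)
  exact ⟨F, fun w => by rw [tt_apply, hF, hν]⟩

end Nested

section Proj

variable {β : Type} [Fintype β] [DecidableEq β] {V : Type*} [AddCommGroup V] [Module ℂ V]

theorem exists_perm_of_sum_single_eq {κ : Type*} (f g : β → κ)
    (h : ∑ j, Finsupp.single (f j) (1 : ℕ) = ∑ j, Finsupp.single (g j) 1) :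
    ∃ σ : Perm β, ∀ j, g (σ j) = f j := by
  classical
  have hc : ∀ c, Fintype.card {j // f j = c} = Fintype.card {j // g j = c} := by
    intro c
    have := congrArg (fun x => x c) h
    simp only [Finsupp.coe_finsetSum, Finset.sum_apply, Finsupp.single_apply] at this
    rw [Fintype.card_subtype, Fintype.card_subtype, Finset.card_filter, Finset.card_filter]
    exact this
  exact ⟨Equiv.ofFiberEquiv fun c => Fintype.equivOfCardEq (hc c),
    fun j => Equiv.ofFiberEquiv_map _ j⟩

/-- A commutative algebra, a linear map into it and a projection onto the symmetric power. -/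
theorem exists_proj : ∃ (κ : Set V) (ι : V →ₗ[ℂ] MvPolynomial κ ℂ)
    (π : MvPolynomial κ ℂ →ₗ[ℂ] Sym[ℂ] β V),
    ∀ v : β → V, π (∏ j, ι (v j)) = SymmetricPower.tprod ℂ v := by
  classical
  let e := Module.Basis.ofVectorSpace ℂ V
  let F : (Module.Basis.ofVectorSpaceIndex ℂ V →₀ ℕ) → Sym[ℂ] β V := fun a =>
    if h : ∃ f : β → Module.Basis.ofVectorSpaceIndex ℂ V, ∑ j, Finsupp.single (f j) 1 = a then
      SymmetricPower.tprod ℂ fun j => e (h.choose j) else 0
  refine ⟨_, e.constr ℂ MvPolynomial.X, (MvPolynomial.basisMonomials _ ℂ).constr ℂ F, ?_⟩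
  have : ((MvPolynomial.basisMonomials _ ℂ).constr ℂ F).compMultilinearMap
      ((MultilinearMap.mkPiAlgebra ℂ β _).compLinearMap fun _ => e.constr ℂ MvPolynomial.X)
      = SymmetricPower.tprod ℂ := by
    refine Module.Basis.ext_multilinear (fun _ => e) fun f => ?_
    simp only [LinearMap.compMultilinearMap_apply, MultilinearMap.compLinearMap_apply,
      Module.Basis.constr_basis, MultilinearMap.mkPiAlgebra_apply]
    have h1 : ∏ j, (MvPolynomial.X (f j) : MvPolynomial _ ℂ)
        = MvPolynomial.basisMonomials _ ℂ (∑ j, Finsupp.single (f j) 1) := by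
      rw [MvPolynomial.coe_basisMonomials]
      simp only [MvPolynomial.monomial_sum_one]
      rfl
    have h2 : ∃ f' : β → Module.Basis.ofVectorSpaceIndex ℂ V,
        ∑ j, Finsupp.single (f' j) (1 : ℕ) = ∑ j, Finsupp.single (f j) 1 := ⟨f, rfl⟩
    rw [h1, Module.Basis.constr_basis]
    simp only [F, dif_pos h2]
    obtain ⟨σ, hσ⟩ := exists_perm_of_sum_single_eq _ _ h2.choose_spec
    rw [← SymmetricPower.tprod_equiv σ fun j => e (f j)]
    simp only [hσ]
  intro v
  exact congrArg (fun f => f v) this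

end Proj

end Vale.Agent.P181
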