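import Mathlib
import Vale.Agent.P181.Core
import Vale.Agent.P181.SymUP

/-!
The canonical maps between nested symmetric powers: surjectivity and injectivity in the
quadratic range.
-/

namespace Vale.Agent.P181

open Equiv TensorProduct PiTensorProduct

section Span

variable {V : Type*} [AddCommGroup V] [Module ℂ V]

theorem pow_span_le {R : Type*} [CommRing R] [Algebra ℂ R] {L : Type*} (f : L → R) (b : ℕ) :
    (Submodule.span ℂ (Set.range f)) ^ b
      ≤ Submodule.span ℂ (Set.range fun l : Fin b → L => ∏ j, f (l j)) := by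
  induction b with
  | zero =>
    rw [pow_zero, Submodule.one_le]
    exact Submodule.subset_span ⟨Fin.elim0, by simp⟩
  | succ b ih =>
    rw [pow_succ']
    refine (mul_le_mul' le_rfl ih).trans ?_
    rw [Submodule.span_mul_span, Submodule.span_le]
    rintro _ ⟨_, ⟨x, rfl⟩, _, ⟨l, rfl⟩, rfl⟩
    exact Submodule.subset_span ⟨Fin.cons x l, by simp [Fin.prod_univ_succ]⟩

theorem prod_singleAlgHom {α : Type} [Fintype α] [DecidableEq α] {A : Type*} [CommRing A]
    [Algebra ℂ A] (x : α → A) :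
    ∏ i, singleAlgHom (R := ℂ) (A := fun _ : α => A) i (x i) = PiTensorProduct.tprod ℂ x := by
  have : ∀ i, singleAlgHom (R := ℂ) (A := fun _ : α => A) i (x i)
      = tprodMonoidHom ℂ (Pi.mulSingle i (x i)) := fun i => rfl
  simp only [this]
  rw [← map_prod, Finset.univ_prod_mulSingle]
  rfl

/-- In the quadratic range the products with constant columns span. -/
theorem span_col (a b : ℕ) (hb : (a - 1) ^ 2 ≤ b) :
    Submodule.span ℂ (Set.range fun l : Fin b → V => tt (Fin a) (Fin b) V fun p => l p.2) = ⊤ := by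
  rw [eq_top_iff, ← span_tt, Submodule.span_le]
  rintro _ ⟨w, rfl⟩
  obtain ⟨κ, ι, π, hπ⟩ := exists_proj (β := Fin b) (V := V)
  let φ : Fin a → V →ₗ[ℂ] ⨂[ℂ] _ : Fin a, MvPolynomial κ ℂ := fun i =>
    (singleAlgHom (R := ℂ) (A := fun _ : Fin a => MvPolynomial κ ℂ) i).toLinearMap ∘ₗ ι
  let P : (⨂[ℂ] _ : Fin a, MvPolynomial κ ℂ) →ₗ[ℂ] Sym[ℂ] (Fin a) (Sym[ℂ] (Fin b) V) :=
    SymmetricPower.mk ℂ (Fin a) _ ∘ₗ PiTensorProduct.map fun _ => π
  have hP : ∀ v : Fin a × Fin b → V, P (∏ i, ∏ j, φ i (v (i, j))) = tt _ _ V v := by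
    intro v
    have : ∀ i, ∏ j, φ i (v (i, j)) = singleAlgHom (R := ℂ)
        (A := fun _ : Fin a => MvPolynomial κ ℂ) i (∏ j, ι (v (i, j))) := by
      intro i
      rw [map_prod]
      rfl
    simp only [this]
    rw [prod_singleAlgHom]
    simp only [P, LinearMap.comp_apply, map_tprod, hπ]
    rfl
  have h1 := core a b hb φ fun i j => w (i, j)
  have h2 : P (∑ σ : Perm (Fin a), ∏ i, ∏ j, φ (σ i) (w (i, j)))
      = (Fintype.card (Perm (Fin a)) : ℂ) • tt _ _ V w := by
    rw [map_sum]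
    have : ∀ σ : Perm (Fin a), P (∏ i, ∏ j, φ (σ i) (w (i, j))) = tt _ _ V w := by
      intro σ
      rw [← tt_shear σ⁻¹ (fun _ => 1) w, ← hP]
      congr 1
      rw [← Equiv.prod_comp σ (fun i => ∏ j, φ i (w (σ⁻¹ i, (1 : Perm (Fin b)) j)))]
      simp
    simp only [this, Finset.sum_const, Finset.card_univ]
    rw [Nat.cast_smul_eq_nsmul]
  have hc : (Fintype.card (Perm (Fin a)) : ℂ) ≠ 0 := by exact_mod_cast Fintype.card_ne_zero
  have h3 := Submodule.mem_map_of_mem (f := P) (pow_span_le _ b h1)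
  rw [h2, Submodule.map_span] at h3
  refine (Submodule.smul_mem_iff _ hc).mp (Submodule.span_mono ?_ h3)
  rintro _ ⟨_, ⟨l, rfl⟩, rfl⟩
  refine ⟨l, ?_⟩
  simp only [pow_one]
  rw [Finset.prod_comm]
  exact (hP fun p => l p.2).symm

end Span

section Psi

variable {α β : Type} [Fintype α] [DecidableEq α] [Fintype β] [DecidableEq β]
variable {V : Type*} [AddCommGroup V] [Module ℂ V]
variable {Z : Type*} [AddCommGroup Z] [Module ℂ Z]

/-- The sum over all permutations within the rows of a map invariant under permuting the rows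
is invariant under the wreath product. -/
theorem sum_rows_inv (F : (α × β → V) → Z)
    (hF : ∀ (π : Perm α) (w : α × β → V), F (fun p => w (π p.1, p.2)) = F w)
    (π : Perm α) (σ : α → Perm β) (w : α × β → V) :
    ∑ τ : α → Perm β, F (fun p => w (π p.1, σ p.1 (τ p.1 p.2)))
      = ∑ τ : α → Perm β, F (fun p => w (p.1, τ p.1 p.2)) := by
  rw [← Equiv.sum_comp ((Equiv.mulLeft σ).trans (Equiv.arrowCongr π (Equiv.refl _)))
    (fun τ : α → Perm β => F (fun p => w (p.1, τ p.1 p.2)))]
  refine Finset.sum_congr rfl fun τ _ => ?_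
  rw [← hF π (fun p => w (p.1, ((Equiv.mulLeft σ).trans (Equiv.arrowCongr π (Equiv.refl _)))
    τ p.1 p.2))]
  simp

theorem exists_psi : ∃ Ψ : Sym[ℂ] α (Sym[ℂ] β V) →ₗ[ℂ] Sym[ℂ] β (Sym[ℂ] α V), ∀ w,
    Ψ (tt α β V w) = ∑ σ : α → Perm β, tt β α V fun p => w (p.2, σ p.2 p.1) := by
  obtain ⟨Ψ, hΨ⟩ := exists_ttLift (α := α) (β := β) (V := V)
    (∑ σ : α → Perm β, (tt β α V).domDomCongr
      ((Equiv.prodComm β α).trans (Equiv.prodShear (Equiv.refl α) σ))) (by
      intro π σ w
      simp only [sum_apply, MultilinearMap.domDomCongr_apply]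
      exact sum_rows_inv (fun w => tt β α V fun p => w (p.2, p.1))
        (fun π w => tt_shear 1 (fun _ => π) fun p => w (p.2, p.1)) π σ w)
  exact ⟨Ψ, fun w => by simpa using hΨ w⟩

theorem exists_ttMap {V' : Type*} [AddCommGroup V'] [Module ℂ V'] (f : V →ₗ[ℂ] V') :
    ∃ F : Sym[ℂ] α (Sym[ℂ] β V) →ₗ[ℂ] Sym[ℂ] α (Sym[ℂ] β V'), ∀ w,
      F (tt α β V w) = tt α β V' fun p => f (w p) :=
  exists_ttLift ((tt α β V').compLinearMap fun _ => f)
    fun π σ w => tt_shear π σ fun p => f (w p)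

variable (α β V) in
theorem exists_ttRep : ∃ ρ : Representation ℂ (V ≃ₗ[ℂ] V) (Sym[ℂ] α (Sym[ℂ] β V)), ∀ g w,
    ρ g (tt α β V w) = tt α β V fun p => g (w p) := by
  choose F hF using fun g : V ≃ₗ[ℂ] V => exists_ttMap (α := α) (β := β) g.toLinearMap
  refine ⟨⟨⟨F, tt_ext fun w => ?_⟩, fun g h => tt_ext fun w => ?_⟩, hF⟩
  · rw [hF]; rfl
  · change F (g * h) _ = F g (F h _)
    rw [hF, hF, hF]; rfl

theorem psi_surjective
    (hspan : Submodule.span ℂ (Set.range fun l : β → V => tt α β V fun p => l p.2) = ⊤)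
    (Ψ : Sym[ℂ] β (Sym[ℂ] α V) →ₗ[ℂ] Sym[ℂ] α (Sym[ℂ] β V))
    (hΨ : ∀ w, Ψ (tt β α V w) = ∑ σ : β → Perm α, tt α β V fun p => w (p.2, σ p.2 p.1)) :
    Function.Surjective Ψ := by
  rw [← LinearMap.range_eq_top, eq_top_iff, ← hspan, Submodule.span_le]
  rintro _ ⟨l, rfl⟩
  have hc : (Fintype.card (β → Perm α) : ℂ) ≠ 0 := by exact_mod_cast Fintype.card_ne_zero
  refine (Submodule.smul_mem_iff _ hc).mp ⟨tt β α V fun p => l p.1, ?_⟩
  rw [hΨ]
  simp only [Finset.sum_const, Finset.card_univ]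
  rw [Nat.cast_smul_eq_nsmul]

theorem eq_zero_of_dualDistrib {Ω : Type} [Fintype Ω] (y : ⨂[ℂ] _ : Ω, V)
    (h : ∀ ξ : Ω → Module.Dual ℂ V, dualDistrib (PiTensorProduct.tprod ℂ ξ) y = 0) : y = 0 := by
  let e := Module.Basis.ofVectorSpace ℂ V
  refine (Basis.piTensorProduct fun _ : Ω => e).ext_elem fun p => ?_
  have : (Basis.piTensorProduct fun _ : Ω => e).coord p
      = dualDistrib (PiTensorProduct.tprod ℂ fun ω => e.coord (p ω)) := by
    ext x
    simp [PiTensorProduct.dualDistrib_apply]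
  have h2 := congrArg (fun f => f y) this
  simp only [h] at h2
  simpa using h2

theorem psi_injective
    (hspan : Submodule.span ℂ (Set.range fun l : β → Module.Dual ℂ V =>
      tt α β (Module.Dual ℂ V) fun p => l p.2) = ⊤)
    (Ψ : Sym[ℂ] α (Sym[ℂ] β V) →ₗ[ℂ] Sym[ℂ] β (Sym[ℂ] α V))
    (hΨ : ∀ w, Ψ (tt α β V w) = ∑ σ : α → Perm β, tt β α V fun p => w (p.2, σ p.2 p.1)) :
    Function.Injective Ψ := by
  have hα : (Fintype.card (Perm α) : ℂ) ≠ 0 := by exact_mod_cast Fintype.card_ne_zero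
  have hβ : (Fintype.card (Perm β) : ℂ) ≠ 0 := by exact_mod_cast Fintype.card_ne_zero
  have hαβ : (Fintype.card (α → Perm β) : ℂ) ≠ 0 := by exact_mod_cast Fintype.card_ne_zero
  -- the section
  obtain ⟨s, hs⟩ : ∃ s : Sym[ℂ] α (Sym[ℂ] β V) →ₗ[ℂ] ⨂[ℂ] _ : α × β, V, ∀ w, s (tt α β V w)
      = ∑ σ : α → Perm β, ∑ π : Perm α,
        PiTensorProduct.tprod ℂ fun p : α × β => w (π p.1, σ (π p.1) p.2) := by
    obtain ⟨s, hs⟩ := exists_ttLift (α := α) (β := β) (V := V)
      (∑ σ : α → Perm β, ∑ π : Perm α, (PiTensorProduct.tprod ℂ).domDomCongr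
        (Equiv.prodShear π fun i => σ (π i))) (by
        intro π σ w
        simp only [sum_apply, MultilinearMap.domDomCongr_apply]
        exact sum_rows_inv (fun w : α × β → V => ∑ π : Perm α,
          PiTensorProduct.tprod ℂ fun p : α × β => w (π p.1, p.2))
          (fun π w => Equiv.sum_comp (Equiv.mulLeft π) fun π' : Perm α =>
            PiTensorProduct.tprod ℂ fun p : α × β => w (π' p.1, p.2)) π σ w)
    exact ⟨s, fun w => by simpa using hs w⟩
  have hps : PiTensorProduct.lift (tt α β V) ∘ₗ s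
      = ((Fintype.card (α → Perm β) : ℂ) * Fintype.card (Perm α)) • LinearMap.id := by
    refine tt_ext fun w => ?_
    simp only [LinearMap.comp_apply, hs, map_sum, lift.tprod, LinearMap.smul_apply,
      LinearMap.id_apply]
    have : ∀ (σ : α → Perm β) (π : Perm α),
        tt α β V (fun p : α × β => w (π p.1, σ (π p.1) p.2)) = tt α β V w :=
      fun σ π => tt_shear π (fun i => σ (π i)) w
    simp only [this, Finset.sum_const, Finset.card_univ]
    rw [← Nat.cast_smul_eq_nsmul ℂ, ← Nat.cast_smul_eq_nsmul ℂ, smul_smul]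
  rw [injective_iff_map_eq_zero]
  intro x hx
  have hsx : s x = 0 := by
    refine eq_zero_of_dualDistrib _ fun ξ => ?_
    -- the multilinear form on the dual
    let D : MultilinearMap ℂ (fun _ : α × β => Module.Dual ℂ V)
        (Module.Dual ℂ (Sym[ℂ] α (Sym[ℂ] β V))) :=
      (s.dualMap ∘ₗ dualDistrib).compMultilinearMap (PiTensorProduct.tprod ℂ)
    have hD : ∀ ξ w, D ξ (tt α β V w) = ∑ σ : α → Perm β, ∑ π : Perm α,
        ∏ p : α × β, ξ p (w (π p.1, σ (π p.1) p.2)) := by
      intro ξ w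
      simp [D, hs, PiTensorProduct.dualDistrib_apply]
    obtain ⟨F, hF⟩ := exists_ttLift D (by
      intro π σ ξ
      refine tt_ext fun w => ?_
      rw [hD, hD, Finset.sum_comm, Finset.sum_comm (s := (Finset.univ : Finset (α → Perm β)))]
      rw [← Equiv.sum_comp (Equiv.mulRight π)]
      refine Finset.sum_congr rfl fun π' _ => ?_
      rw [← Equiv.sum_comp (Equiv.mulRight fun i => σ (π⁻¹ (π'⁻¹ i)))]
      refine Finset.sum_congr rfl fun σ' _ => ?_
      rw [← Equiv.prod_comp (Equiv.prodShear π σ)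
        (fun p : α × β => ξ p (w (π' p.1, σ' (π' p.1) p.2)))]
      simp)
    have hl : ∀ l : β → Module.Dual ℂ V, D (fun p => l p.2) x = 0 := by
      intro l
      obtain ⟨L, hL⟩ : ∃ L : Sym[ℂ] β (Sym[ℂ] α V) →ₗ[ℂ] ℂ, ∀ w, L (tt β α V w)
          = ∑ π : Perm β, ∏ p : β × α, l p.1 (w (π p.1, p.2)) := by
        obtain ⟨L, hL⟩ := exists_ttLift (α := β) (β := α) (V := V)
          (∑ π : Perm β, ((dualDistrib (PiTensorProduct.tprod ℂ fun p : β × α =>
            l p.1)).compMultilinearMap (PiTensorProduct.tprod ℂ)).domDomCongr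
              (Equiv.prodShear π fun _ => Equiv.refl α)) (by
            intro π σ w
            simp only [sum_apply, MultilinearMap.domDomCongr_apply,
              LinearMap.compMultilinearMap_apply, PiTensorProduct.dualDistrib_apply]
            rw [← Equiv.sum_comp (Equiv.mulLeft π) (fun π' : Perm β => ∏ p : β × α,
              l p.1 (w ((Equiv.prodShear π' fun _ => Equiv.refl α) p)))]
            refine Finset.sum_congr rfl fun π' _ => ?_
            rw [← Equiv.prod_comp (Equiv.prodShear (Equiv.refl β) fun j => σ (π' j))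
              (fun p : β × α => l p.1 (w ((Equiv.prodShear (Equiv.mulLeft π π')
                fun _ => Equiv.refl α) p)))]
            simp)
        exact ⟨L, fun w => by simpa [PiTensorProduct.dualDistrib_apply] using hL w⟩
      have key : (Fintype.card (Perm β) : ℂ) • D (fun p => l p.2)
          = (Fintype.card (Perm α) : ℂ) • (L ∘ₗ Ψ) := by
        refine tt_ext fun w => ?_
        simp only [LinearMap.smul_apply, LinearMap.comp_apply, hD, hΨ, map_sum, hL]
        have e1 : ∀ π : Perm α, ∑ σ : α → Perm β, ∏ p : α × β, l p.2 (w (π p.1, σ (π p.1) p.2))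
            = ∑ σ : α → Perm β, ∏ p : α × β, l p.2 (w (p.1, σ p.1 p.2)) := by
          intro π
          refine Finset.sum_congr rfl fun σ _ => ?_
          rw [← Equiv.prod_comp (Equiv.prodShear π fun _ => Equiv.refl β)
            (fun p : α × β => l p.2 (w (p.1, σ p.1 p.2)))]
          simp
        have e2 : ∀ π : Perm β, ∑ σ : α → Perm β, ∏ p : β × α, l p.1 (w (p.2, σ p.2 (π p.1)))
            = ∑ σ : α → Perm β, ∏ p : α × β, l p.2 (w (p.1, σ p.1 p.2)) := by
          intro π
          rw [← Equiv.sum_comp (Equiv.mulRight fun _ : α => π)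
            (fun σ : α → Perm β => ∏ p : α × β, l p.2 (w (p.1, σ p.1 p.2)))]
          refine Finset.sum_congr rfl fun σ _ => ?_
          rw [← Equiv.prod_comp (Equiv.prodComm α β)]
          simp
        rw [Finset.sum_comm, Finset.sum_comm (s := (Finset.univ : Finset (α → Perm β)))]
        simp only [e1, e2, Finset.sum_const, Finset.card_univ, smul_eq_mul, nsmul_eq_mul]
        ring
      have := congrArg (fun f => f x) key
      simpa [hx, hβ] using this
    have hF0 : (LinearMap.applyₗ x : Module.Dual ℂ (Sym[ℂ] α (Sym[ℂ] β V)) →ₗ[ℂ] ℂ) ∘ₗ F = 0 := by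
      refine LinearMap.ext_on_range hspan fun l => ?_
      simp only [LinearMap.comp_apply, hF, LinearMap.zero_apply]
      exact hl l
    have := congrArg (fun f => f (tt α β _ ξ)) hF0
    simp only [LinearMap.comp_apply, hF, LinearMap.zero_apply] at this
    exact this
  have := congrArg (fun f => f x) hps
  simp only [LinearMap.comp_apply, hsx, map_zero, LinearMap.smul_apply, LinearMap.id_apply] at this
  exact (smul_eq_zero.mp this.symm).resolve_left (mul_ne_zero hαβ hα)

end Psi

end Vale.Agent.P181
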