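import Mathlib
import Vale.Agent.P181.Defs

/-!
The polynomial model: shapes and weights.
-/

namespace Vale.Agent.P181

open Module MvPolynomial

theorem mo_shp_add (M N : (ℕ × Mon) →₀ ℕ) : shp (M + N) = shp M + shp N := Finsupp.mapDomain_add

theorem mo_wgt_add (M N : (ℕ × Mon) →₀ ℕ) : wgt (M + N) = wgt M + wgt N :=
  Finsupp.sum_add_index' (fun _ => zero_smul _ _) fun _ _ _ => add_smul _ _ _

theorem mo_wgt_single (v : ℕ × Mon) (c : ℕ) : wgt (Finsupp.single v c) = c • v.2 :=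
  Finsupp.sum_single_index (zero_smul _ _)

theorem mo_wgt_zero : wgt 0 = 0 := Finsupp.sum_zero_index

theorem mo_wgt_sum {κ : Type*} (s : Finset κ) (M : κ → (ℕ × Mon) →₀ ℕ) :
    wgt (∑ k ∈ s, M k) = ∑ k ∈ s, wgt (M k) :=
  map_sum (AddMonoidHom.mk ⟨wgt, mo_wgt_zero⟩ mo_wgt_add) M s

theorem mo_le_wgt {M : (ℕ × Mon) →₀ ℕ} {v : ℕ × Mon} (hv : v ∈ M.support) : v.2 ≤ wgt M := by
  have h1 : M v • v.2 ≤ wgt M :=
    Finset.single_le_sum (f := fun v => M v • v.2) (fun _ _ => zero_le) hv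
  refine le_trans ?_ h1
  have h2 : 1 ≤ M v := Nat.one_le_iff_ne_zero.2 (Finsupp.mem_support_iff.1 hv)
  simpa using nsmul_le_nsmul_left (zero_le (a := v.2)) h2

theorem mo_mem_support_mapDomain {α β : Type*} (φ : α → β) {M : α →₀ ℕ} {v : α}
    (hv : v ∈ M.support) : φ v ∈ (M.mapDomain φ).support := by
  classical
  rw [Finsupp.mem_support_iff, Finsupp.mapDomain, Finsupp.sum_apply]
  intro h
  have h1 := (Finset.sum_eq_zero_iff.1 h) v hv
  simp only [Finsupp.single_eq_same] at h1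
  exact Finsupp.mem_support_iff.1 hv h1

theorem finite_shp_wgt (s : (ℕ × ℕ) →₀ ℕ) (μ : Mon) : {M | shp M = s ∧ wgt M = μ}.Finite := by
  classical
  refine (Finset.finsuppAntidiag (s.support.image Prod.fst ×ˢ Finset.Iic μ)
    s.degree).finite_toSet.subset ?_
  rintro M ⟨rfl, rfl⟩
  have h1 : M.support ⊆ (shp M).support.image Prod.fst ×ˢ Finset.Iic (wgt M) := by
    intro v hv
    rw [Finset.mem_product, Finset.mem_Iic]
    exact ⟨Finset.mem_image.2 ⟨_, mo_mem_support_mapDomain _ hv, rfl⟩, mo_le_wgt hv⟩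
  rw [Finset.mem_coe, Finset.mem_finsuppAntidiag]
  refine ⟨?_, h1⟩
  rw [shp, Finsupp.degree_mapDomain, Finsupp.degree_apply]
  exact (Finset.sum_subset h1 fun v _ hv => Finsupp.notMem_support_iff.1 hv).symm

instance pSp_finite (s : (ℕ × ℕ) →₀ ℕ) (μ : Mon) : Module.Finite ℂ (pSp s μ) :=
  haveI := (finite_shp_wgt s μ).to_subtype
  Module.Finite.of_basis (basisRestrictSupport ℂ {M | shp M = s ∧ wgt M = μ})

theorem mo_finrank_pSp (s : (ℕ × ℕ) →₀ ℕ) (μ : Mon) :
    finrank ℂ (pSp s μ) = Nat.card {M // shp M = s ∧ wgt M = μ} :=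
  finrank_eq_nat_card_basis (basisRestrictSupport ℂ {M | shp M = s ∧ wgt M = μ})

theorem mo_mem_pHW {s : (ℕ × ℕ) →₀ ℕ} {μ : Mon} {f : PM} :
    f ∈ pHW s μ ↔ f ∈ pSp s μ ∧ ∀ a b, a < b → pE a b f = 0 := by
  simp [pHW, Submodule.mem_iInf]

instance mo_pHW_finite (s : (ℕ × ℕ) →₀ ℕ) (μ : Mon) : Module.Finite ℂ (pHW s μ) :=
  Submodule.finiteDimensional_of_le (inf_le_left : pHW s μ ≤ pSp s μ)

theorem mo_exists_ne_zero_of_hw {s : (ℕ × ℕ) →₀ ℕ} {μ : Mon} (h : hw s μ ≠ 0) :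
    ∃ f ∈ pHW s μ, f ≠ 0 := by
  refine (Submodule.ne_bot_iff _).1 fun e => h ?_
  rw [hw, e, finrank_bot]

theorem mo_mul_mem_pSp {s s' : (ℕ × ℕ) →₀ ℕ} {μ μ' : Mon} {f g : PM} (hf : f ∈ pSp s μ)
    (hg : g ∈ pSp s' μ') : f * g ∈ pSp (s + s') (μ + μ') := by
  have h := Submodule.mul_mem_mul hf hg
  rw [pSp, pSp, ← restrictSupport_add] at h
  refine restrictSupport_mono ℂ ?_ h
  rintro _ ⟨M, ⟨rfl, rfl⟩, N, ⟨rfl, rfl⟩, rfl⟩
  exact ⟨mo_shp_add M N, mo_wgt_add M N⟩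

/-- multiplication by a nonzero highest weight vector -/
theorem hw_le_hw_add (s s' : (ℕ × ℕ) →₀ ℕ) (μ μ' : Mon) (h : hw s' μ' ≠ 0) :
    hw s μ ≤ hw (s + s') (μ + μ') := by
  obtain ⟨f, hf, hf0⟩ := mo_exists_ne_zero_of_hw h
  have h1 : Function.Injective (LinearMap.mulRight ℂ f) := mul_left_injective₀ hf0
  rw [hw, hw, ((pHW s μ).equivMapOfInjective _ h1).finrank_eq]
  refine Submodule.finrank_mono ?_
  rintro _ ⟨g, hg, rfl⟩
  rw [SetLike.mem_coe, mo_mem_pHW] at hg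
  rw [mo_mem_pHW] at hf ⊢
  refine ⟨mo_mul_mem_pSp hg.1 hf.1, fun a b hab => ?_⟩
  rw [LinearMap.mulRight_apply, Derivation.leibniz, hg.2 a b hab, hf.2 a b hab, smul_zero,
    smul_zero, add_zero]

theorem degree_eq_of_hw_ne_zero {s : (ℕ × ℕ) →₀ ℕ} {μ : Mon} (h : hw s μ ≠ 0) :
    μ.degree = s.sum fun v p => p * v.2 := by
  obtain ⟨f, hf, hf0⟩ := mo_exists_ne_zero_of_hw h
  obtain ⟨M, hM⟩ := support_nonempty.2 hf0
  obtain ⟨rfl, rfl⟩ := (mem_restrictSupport_iff ℂ).1 (mo_mem_pHW.1 hf).1 hM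
  rw [shp, Finsupp.sum_mapDomain_index (fun _ => zero_mul _) fun _ _ _ => add_mul _ _ _, wgt,
    map_finsuppSum]
  simp

/-- enumerating a multiset along a prescribed pattern -/
theorem mo_exists_enum {α β κ : Type*} [Nonempty α] (φ : α → β) (g : κ → β) (s : Finset κ) :
    ∀ M : α →₀ ℕ, M.mapDomain φ = ∑ k ∈ s, Finsupp.single (g k) 1 →
      ∃ v : κ → α, M = ∑ k ∈ s, Finsupp.single (v k) 1 ∧ ∀ k ∈ s, φ (v k) = g k := by
  classical
  induction s using Finset.induction_on with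
  | empty =>
    intro M h
    refine ⟨fun _ => Classical.arbitrary α, ?_, by simp⟩
    have := congrArg Finsupp.degree h
    rw [Finsupp.degree_mapDomain, Finset.sum_empty, map_zero, Finsupp.degree_eq_zero_iff] at this
    simpa using this
  | insert a s ha ih =>
    intro M h
    rw [Finset.sum_insert ha] at h
    have h1 : g a ∈ (M.mapDomain φ).support := by
      rw [h, Finsupp.mem_support_iff]; simp
    obtain ⟨x, hx, hx'⟩ := Finset.mem_image.1 (Finsupp.mapDomain_support h1)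
    have h2 : Finsupp.single x 1 ≤ M := by
      rw [Finsupp.single_le_iff, Nat.one_le_iff_ne_zero]
      exact Finsupp.mem_support_iff.1 hx
    obtain ⟨M', rfl⟩ := exists_add_of_le h2
    rw [Finsupp.mapDomain_add, Finsupp.mapDomain_single, hx', add_right_inj] at h
    obtain ⟨v, hv, hv'⟩ := ih M' h
    refine ⟨Function.update v a x, ?_, fun k hk => ?_⟩
    · rw [Finset.sum_insert ha, Function.update_self, hv]
      congr 1
      refine Finset.sum_congr rfl fun k hk => ?_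
      rw [Function.update_of_ne (ne_of_mem_of_not_mem hk ha)]
    · rcases Finset.mem_insert.1 hk with rfl | hk
      · rw [Function.update_self, hx']
      · rw [Function.update_of_ne (ne_of_mem_of_not_mem hk ha), hv' k hk]

theorem mo_toMon_apply_of_le {n : ℕ} (l : Fin n →₀ ℕ) {b : ℕ} (hb : n ≤ b) : toMon l b = 0 :=
  Finsupp.mapDomain_of_notMem_range _ _ fun ⟨i, hi⟩ => by have := i.2; omega

theorem mo_toMon_apply {n : ℕ} (l : Fin n →₀ ℕ) (a : Fin n) : toMon l a = l a :=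
  Finsupp.mapDomain_apply Fin.val_injective _ _

theorem mo_toMon_injective {n : ℕ} : Function.Injective (toMon (n := n)) :=
  Finsupp.mapDomain_injective Fin.val_injective

theorem mo_exists_toMon (μ : Mon) : ∃ (n : ℕ) (l : Fin n →₀ ℕ), μ = toMon l := by
  refine ⟨μ.support.sup id + 1, μ.comapDomain Fin.val Fin.val_injective.injOn,
    (Finsupp.mapDomain_comapDomain _ Fin.val_injective _ fun k hk => ?_).symm⟩
  exact ⟨⟨k, Nat.lt_succ_of_le (Finset.le_sup (f := id) hk)⟩, rfl⟩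

theorem mo_pE_eq_zero {n : ℕ} {s : (ℕ × ℕ) →₀ ℕ} {l : Fin n →₀ ℕ} {f : PM} (hf : f ∈ pSp s (toMon l))
    (a : ℕ) {b : ℕ} (hb : n ≤ b) : pE a b f = 0 := by
  rw [f.as_sum, map_sum]
  refine Finset.sum_eq_zero fun M hM => ?_
  have h1 := ((mem_restrictSupport_iff ℂ).1 hf hM).2
  rw [pE, mkDerivation_monomial, Finsupp.sum, Finset.sum_eq_zero, smul_zero]
  intro v hv
  have h2 : v.2 b = 0 := by
    have := mo_le_wgt hv b
    rw [h1, mo_toMon_apply_of_le l hb] at this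
    exact Nat.le_zero.1 this
  simp [h2]

theorem mo_deriv_prod {κ : Type*} [DecidableEq κ] (D : Derivation ℂ PM PM) (s : Finset κ)
    (x : κ → PM) : D (∏ k ∈ s, x k) = ∑ k ∈ s, (∏ j ∈ s.erase k, x j) * D (x k) := by
  induction s using Finset.induction_on with
  | empty => simp
  | insert a s ha ih =>
    rw [Finset.prod_insert ha, Finset.sum_insert ha, Derivation.leibniz, ih, Finset.erase_insert ha,
      add_comm, smul_eq_mul, smul_eq_mul, Finset.mul_sum]
    congr 1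
    refine Finset.sum_congr rfl fun k hk => ?_
    rw [Finset.erase_insert_of_ne (ne_of_mem_of_not_mem hk ha).symm,
      Finset.prod_insert fun h => ha (Finset.mem_of_mem_erase h), mul_assoc]

end Vale.Agent.P181
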