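import Mathlib
import Vale.Agent.P181.Defs

/-!
Unitary `gl n`-modules: complete reducibility in the form needed.
-/

namespace Vale.Agent.P181

open Module

variable {n : ℕ} {T : Type*} [NormedAddCommGroup T] [InnerProductSpace ℂ T]
  [FiniteDimensional ℂ T] {E : Fin n → Fin n → T →ₗ[ℂ] T}

section Basic

omit [FiniteDimensional ℂ T]

lemma mem_wtSp {μ : Fin n →₀ ℕ} {x : T} : x ∈ wtSp E μ ↔ ∀ a, E a a x = (μ a : ℂ) • x := by
  simp [wtSp, Submodule.mem_iInf]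

lemma mem_hwSp {W : Submodule ℂ T} {l : Fin n →₀ ℕ} {x : T} :
    x ∈ hwSp E W l ↔ x ∈ W ∧ x ∈ wtSp E l ∧ ∀ a b, a < b → E a b x = 0 := by
  simp [hwSp, Submodule.mem_iInf, and_assoc]

lemma IsUGL.comm_apply (hE : IsUGL E) (a b c d : Fin n) (x : T) :
    E a b (E c d x) = E c d (E a b x) + (if b = c then E a d x else 0) -
      (if d = a then E c b x else 0) := by
  have h := LinearMap.congr_fun (hE.comm a b c d) x
  simp only [LinearMap.sub_apply, Module.End.mul_apply] at h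
  rw [sub_eq_iff_eq_add'] at h
  rw [h, add_sub_assoc]
  split_ifs <;> rfl

lemma IsUGL.diag_apply (hE : IsUGL E) (c a b : Fin n) {x : T} {s : ℂ} (hx : E c c x = s • x) :
    E c c (E a b x) = (s + (if c = a then 1 else 0) - (if b = c then 1 else 0)) • E a b x := by
  rw [hE.comm_apply, hx, map_smul, sub_smul, add_smul]
  congr 1
  · congr 1
    split_ifs with h
    · rw [h, one_smul]
    · rw [zero_smul]
  · split_ifs with h
    · rw [h, one_smul]
    · rw [zero_smul]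

lemma IsUGL.inner_eq_zero (hE : IsUGL E) (a : Fin n) {x y : T} {s t : ℤ}
    (hx : E a a x = (s : ℂ) • x) (hy : E a a y = (t : ℂ) • y) (hst : s ≠ t) :
    inner ℂ x y = 0 := by
  have h := hE.adj a a x y
  rw [hx, hy, inner_smul_left, inner_smul_right, map_intCast, ← sub_eq_zero, ← sub_mul] at h
  refine (mul_eq_zero.1 h).resolve_left fun h' => hst ?_
  exact_mod_cast sub_eq_zero.1 h'

lemma IsUGL.wt_orth (hE : IsUGL E) {μ ν : Fin n →₀ ℕ} (h : μ ≠ ν) {x y : T} (hx : x ∈ wtSp E μ)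
    (hy : y ∈ wtSp E ν) : inner ℂ x y = 0 := by
  obtain ⟨a, ha⟩ := DFunLike.ne_iff.1 h
  exact hE.inner_eq_zero a (s := μ a) (t := ν a) (by simpa using mem_wtSp.1 hx a)
    (by simpa using mem_wtSp.1 hy a) (by exact_mod_cast ha)

lemma IsUGL.induction (hE : IsUGL E) {P : T → Prop} (x : T) (h : ∀ μ, ∀ y ∈ wtSp E μ, P y)
    (h0 : P 0) (hadd : ∀ y z, P y → P z → P (y + z)) : P x :=
  Submodule.iSup_induction (wtSp E) (motive := P) (hE.span ▸ Submodule.mem_top) h h0 hadd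

lemma IsUGL.shift (hE : IsUGL E) (a b : Fin n) {μ : Fin n →₀ ℕ} {x : T}
    (hx : x ∈ wtSp E (μ + Finsupp.single b 1)) : E a b x ∈ wtSp E (μ + Finsupp.single a 1) := by
  refine mem_wtSp.2 fun c => ?_
  rw [hE.diag_apply c a b (mem_wtSp.1 hx c)]
  congr 1
  simp only [Finsupp.add_apply, Finsupp.single_apply, Nat.cast_add, Nat.cast_ite, Nat.cast_one,
    Nat.cast_zero, eq_comm (a := c)]
  ring

lemma IsUGL.kill (hE : IsUGL E) (a b : Fin n) {μ : Fin n →₀ ℕ} {x : T} (hx : x ∈ wtSp E μ)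
    (h : μ b = 0) : E a b x = 0 := by
  have h1 := mem_wtSp.1 hx b
  rw [h, Nat.cast_zero] at h1
  rcases eq_or_ne b a with rfl | hab
  · rw [h1, zero_smul]
  have h2 := hE.diag_apply b a b h1
  rw [if_neg hab, if_pos rfl] at h2
  have h3 : ∀ z, inner ℂ (E a b x) z = 0 := fun z => by
    refine hE.induction (P := fun z => inner ℂ (E a b x) z = 0) z (fun ν y hy => ?_)
      (inner_zero_right _) fun y z hy hz => by rw [inner_add_right, hy, hz, add_zero]
    exact hE.inner_eq_zero b (s := -1) (t := ν b) (by simpa using h2)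
      (by simpa using mem_wtSp.1 hy b) (by omega)
  exact inner_self_eq_zero.1 (h3 _)

lemma exists_eq_add_single {μ : Fin n →₀ ℕ} {b : Fin n} (h : μ b ≠ 0) :
    ∃ ν, μ = ν + Finsupp.single b 1 :=
  ⟨μ - Finsupp.single b 1,
    (tsub_add_cancel_of_le (Finsupp.single_le_iff.2 (Nat.one_le_iff_ne_zero.2 h))).symm⟩

lemma InvSp.inf {W W' : Submodule ℂ T} (h : InvSp E W) (h' : InvSp E W') : InvSp E (W ⊓ W') :=
  fun a b x hx => ⟨h a b x hx.1, h' a b x hx.2⟩

lemma hwSp_mono {W W' : Submodule ℂ T} (h : W ≤ W') (l : Fin n →₀ ℕ) :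
    hwSp E W l ≤ hwSp E W' l := fun _ hx =>
  mem_hwSp.2 ⟨h (mem_hwSp.1 hx).1, (mem_hwSp.1 hx).2⟩

/-- a height function on weights -/
def ht (c : Fin n → ℕ) (μ : Fin n →₀ ℕ) : ℕ := ∑ a, μ a * c a

lemma ht_add (c : Fin n → ℕ) (μ ν : Fin n →₀ ℕ) : ht c (μ + ν) = ht c μ + ht c ν := by
  simp [ht, add_mul, Finset.sum_add_distrib]

lemma ht_single (c : Fin n → ℕ) (a : Fin n) : ht c (Finsupp.single a 1) = c a := by
  simp [ht, Finsupp.single_apply]

lemma InvSp.le_hwSp (hE : IsUGL E) {W : Submodule ℂ T} (hW : InvSp E W) {c : Fin n → ℕ}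
    (hc : StrictAnti c) {ν : Fin n →₀ ℕ} (h : ∀ μ, W ⊓ wtSp E μ ≠ ⊥ → ht c μ ≤ ht c ν) :
    W ⊓ wtSp E ν ≤ hwSp E W ν := by
  intro x hx
  refine mem_hwSp.2 ⟨hx.1, hx.2, fun a b hab => ?_⟩
  by_cases hb : ν b = 0
  · exact hE.kill a b hx.2 hb
  obtain ⟨μ, rfl⟩ := exists_eq_add_single hb
  by_contra h0
  have h1 := h (μ + Finsupp.single a 1) ((Submodule.ne_bot_iff _).2
    ⟨_, ⟨hW a b x hx.1, hE.shift a b hx.2⟩, h0⟩)
  rw [ht_add, ht_add, ht_single, ht_single] at h1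
  have := hc hab
  omega

/-- the vectors obtained from `G` by lowering operators -/
inductive Low (E : Fin n → Fin n → T →ₗ[ℂ] T) (G : (Fin n →₀ ℕ) → Submodule ℂ T) : T → Prop
  | base (l : Fin n →₀ ℕ) (x : T) : x ∈ G l → Low E G x
  | step (a b : Fin n) (x : T) : b < a → Low E G x → Low E G (E a b x)

lemma IsUGL.exists_gen (hE : IsUGL E) [FiniteDimensional ℂ T] (G : (Fin n →₀ ℕ) → Submodule ℂ T)
    (hG : ∀ l, G l ≤ hwSp E ⊤ l) : ∃ M : Submodule ℂ T, InvSp E M ∧ (∀ l, G l ≤ M) ∧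
      (∀ l, hwSp E M l ≤ G l) ∧ ∀ W, InvSp E W → (∀ l, G l ≤ W) → M ≤ W := by
  set M := Submodule.span ℂ {x | Low E G x} with hM
  have h1 : ∀ x, Low E G x → x ∈ M := fun x hx => Submodule.subset_span hx
  have h2 : ∀ a b, b < a → ∀ x ∈ M, E a b x ∈ M := fun a b hab x hx =>
    (Submodule.span_le (p := M.comap (E a b))).2 (fun y hy => h1 _ (Low.step a b y hab hy)) hx
  have h3 : ∀ x, Low E G x → ∀ a b, E a b x ∈ M := by
    intro x hx
    induction hx with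
    | base l x hx =>
      intro a b
      obtain ⟨-, k1, k2⟩ := mem_hwSp.1 (hG l hx)
      rcases lt_trichotomy a b with h | rfl | h
      · rw [k2 a b h]; exact M.zero_mem
      · rw [mem_wtSp.1 k1 a]; exact M.smul_mem _ (h1 _ (Low.base l x hx))
      · exact h1 _ (Low.step a b x h (Low.base l x hx))
    | step c d y hcd _ ih =>
      intro a b
      rw [hE.comm_apply]
      refine M.sub_mem (M.add_mem (h2 c d hcd _ (ih a b)) ?_) ?_
      · split_ifs
        exacts [ih _ _, M.zero_mem]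
      · split_ifs
        exacts [ih _ _, M.zero_mem]
  have h4 : ∀ l, G l ≤ M := fun l x hx => h1 _ (Low.base l x hx)
  refine ⟨M, fun a b x hx => (Submodule.span_le (p := M.comap (E a b))).2
    (fun y hy => h3 y hy a b) hx, h4, fun l u hu => ?_, fun W hW hGW => ?_⟩
  · have k1 := (G l).starProjection_apply_mem u
    have k2 := (G l).sub_starProjection_mem_orthogonal u
    have k3 : u - (G l).starProjection u ∈ hwSp E ⊤ l :=
      Submodule.sub_mem _ (hwSp_mono le_top l hu) (hG l k1)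
    have k4 : u - (G l).starProjection u ∈ M := M.sub_mem (mem_hwSp.1 hu).1 (h4 l k1)
    generalize hf : u - (G l).starProjection u = f at k2 k3 k4
    obtain ⟨-, k5, k6⟩ := mem_hwSp.1 k3
    have k7 : ∀ x, Low E G x → inner ℂ f x = 0 := by
      intro x hx
      cases hx with
      | base l' x hx =>
        rcases eq_or_ne l l' with rfl | hl
        · exact (Submodule.mem_orthogonal' _ _).1 k2 x hx
        · exact hE.wt_orth hl k5 (mem_hwSp.1 (hG l' hx)).2.1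
      | step c d y hcd _ => rw [← hE.adj, k6 d c hcd, inner_zero_left]
    have k8 : f = 0 := inner_self_eq_zero.1
      ((Submodule.span_le (p := LinearMap.ker (innerₛₗ ℂ f))).2 k7 k4)
    rw [k8, sub_eq_zero] at hf
    rw [hf]
    exact k1
  · refine Submodule.span_le.2 fun x hx => ?_
    induction hx with
    | base l x hx => exact hGW l hx
    | step c d y _ _ ih => exact hW c d y ih

end Basic

theorem InvSp.orthogonal (hE : IsUGL E) {W : Submodule ℂ T} (hW : InvSp E W) : InvSp E Wᗮ := by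
  have _ : FiniteDimensional ℂ T := inferInstance
  intro a b x hx u hu
  rw [← hE.adj]
  exact hx _ (hW b a u hu)

/-- the orthogonal projection as a linear map -/
noncomputable def prj (W : Submodule ℂ T) : T →ₗ[ℂ] T := W.starProjection.toLinearMap

lemma prj_mem (W : Submodule ℂ T) (x : T) : prj W x ∈ W := W.starProjection_apply_mem x

lemma sub_prj_mem (W : Submodule ℂ T) (x : T) : x - prj W x ∈ Wᗮ :=
  W.sub_starProjection_mem_orthogonal x

lemma prj_eq_self {W : Submodule ℂ T} {x : T} (hx : x ∈ W) : prj W x = x :=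
  Submodule.starProjection_eq_self_iff.2 hx

lemma IsUGL.prj_comm (hE : IsUGL E) (a b : Fin n) {U V : Submodule ℂ T}
    (h1 : ∀ x ∈ U, E a b x ∈ V) (h2 : ∀ y ∈ V, E b a y ∈ U) (x : T) :
    prj V (E a b x) = E a b (prj U x) := by
  refine Submodule.eq_starProjection_of_mem_orthogonal (h1 _ (prj_mem U x)) fun y hy => ?_
  rw [← map_sub, ← hE.adj]
  exact sub_prj_mem U x _ (h2 y hy)

lemma InvSp.prj_comm (hE : IsUGL E) {W : Submodule ℂ T} (hW : InvSp E W) (a b : Fin n) (x : T) :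
    prj W (E a b x) = E a b (prj W x) := hE.prj_comm a b (hW a b) (hW b a) x

lemma InvSp.prj_mem_wtSp (hE : IsUGL E) {W : Submodule ℂ T} (hW : InvSp E W) {μ : Fin n →₀ ℕ}
    {x : T} (hx : x ∈ wtSp E μ) : prj W x ∈ wtSp E μ :=
  mem_wtSp.2 fun a => by rw [← hW.prj_comm hE, mem_wtSp.1 hx a, map_smul]

theorem InvSp.iSup_inf_wtSp (hE : IsUGL E) {W : Submodule ℂ T} (hW : InvSp E W) :
    ⨆ μ, W ⊓ wtSp E μ = W := by
  refine le_antisymm (iSup_le fun μ => inf_le_left) fun x hx => ?_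
  rw [← prj_eq_self hx]
  refine hE.induction (P := fun z => prj W z ∈ ⨆ μ, W ⊓ wtSp E μ) x (fun μ y hy => ?_) ?_
    fun y z hy hz => ?_
  · exact Submodule.mem_iSup_of_mem μ ⟨prj_mem W y, hW.prj_mem_wtSp hE hy⟩
  · rw [map_zero]; exact Submodule.zero_mem _
  · rw [map_add]; exact Submodule.add_mem _ hy hz

lemma IsUGL.finite_wts (hE : IsUGL E) : {μ | wtSp E μ ≠ ⊥}.Finite := by
  refine Submodule.finite_ne_bot_of_iSupIndep (OrthogonalFamily.independent
    (orthogonalFamily_iff_pairwise.2 fun μ ν h => ?_))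
  exact Submodule.isOrtho_iff_inner_eq.2 fun x hx y hy => hE.wt_orth h hx hy

lemma InvSp.exists_max (hE : IsUGL E) {W : Submodule ℂ T} (hW : InvSp E W) (h : W ≠ ⊥)
    (c : Fin n → ℕ) : ∃ ν, W ⊓ wtSp E ν ≠ ⊥ ∧ ∀ μ, W ⊓ wtSp E μ ≠ ⊥ → ht c μ ≤ ht c ν := by
  have h1 : {μ | W ⊓ wtSp E μ ≠ ⊥}.Finite :=
    hE.finite_wts.subset fun μ hμ h0 => hμ (by rw [h0, inf_bot_eq])
  have h2 : {μ | W ⊓ wtSp E μ ≠ ⊥}.Nonempty := by
    by_contra h3
    refine h ?_
    rw [← hW.iSup_inf_wtSp hE, iSup_eq_bot]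
    exact fun μ => by_contra fun h4 => h3 ⟨μ, h4⟩
  exact Set.exists_max_image _ (ht c) h1 h2

theorem InvSp.exists_hwSp_ne_bot (hE : IsUGL E) {W : Submodule ℂ T} (hW : InvSp E W)
    (h : W ≠ ⊥) : ∃ l, hwSp E W l ≠ ⊥ := by
  obtain ⟨ν, h1, h2⟩ := hW.exists_max hE h fun a => n - a
  refine ⟨ν, fun h3 => h1 (eq_bot_iff.2 (h3 ▸ hW.le_hwSp hE (fun a b hab => ?_) h2))⟩
  have := b.2
  have : (a : ℕ) < b := hab
  omega

lemma InvSp.eq_bot (hE : IsUGL E) {W : Submodule ℂ T} (hW : InvSp E W)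
    (h : ∀ l, ∀ x ∈ hwSp E W l, x = 0) : W = ⊥ := by
  by_contra h0
  obtain ⟨l, hl⟩ := hW.exists_hwSp_ne_bot hE h0
  exact hl ((Submodule.eq_bot_iff _).2 (h l))

theorem antitone_of_hwSp_ne_bot (hE : IsUGL E) {W : Submodule ℂ T} {l : Fin n →₀ ℕ}
    (h : hwSp E W l ≠ ⊥) : Antitone l := by
  have _ : FiniteDimensional ℂ T := inferInstance
  obtain ⟨v, hv, h0⟩ := (Submodule.ne_bot_iff _).1 h
  obtain ⟨-, h1, h2⟩ := mem_hwSp.1 hv
  intro a b hab
  rcases hab.eq_or_lt with rfl | hab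
  · exact le_rfl
  have h3 := hE.adj b a v (E b a v)
  rw [hE.comm_apply, h2 a b hab, map_zero, if_pos rfl, if_pos rfl, mem_wtSp.1 h1 a,
    mem_wtSp.1 h1 b, zero_add, ← sub_smul, inner_smul_right, inner_self_eq_norm_sq_to_K,
    inner_self_eq_norm_sq_to_K] at h3
  have h4 : ‖E b a v‖ ^ 2 = ((l a : ℝ) - l b) * ‖v‖ ^ 2 := by
    apply Complex.ofReal_injective
    push_cast
    exact h3
  have h5 : 0 < ‖v‖ ^ 2 := pow_pos (norm_pos_iff.2 h0) 2
  have h6 : (0 : ℝ) ≤ l a - l b := nonneg_of_mul_nonneg_left (h4 ▸ sq_nonneg _) h5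
  exact_mod_cast sub_nonneg.1 h6

/-- the diagonal action on two copies -/
noncomputable def dbl (E : Fin n → Fin n → T →ₗ[ℂ] T) (a b : Fin n) :
    WithLp 2 (T × T) →ₗ[ℂ] WithLp 2 (T × T) := ((E a b).prodMap (E a b)).withLpMap 2

omit [FiniteDimensional ℂ T] in
lemma dbl_apply (a b : Fin n) (x y : T) :
    dbl E a b (WithLp.toLp 2 (x, y)) = WithLp.toLp 2 (E a b x, E a b y) := rfl

omit [FiniteDimensional ℂ T] in
lemma dbl_mem_wtSp {μ : Fin n →₀ ℕ} {x y : T} (hx : x ∈ wtSp E μ) (hy : y ∈ wtSp E μ) :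
    WithLp.toLp 2 (x, y) ∈ wtSp (dbl E) μ :=
  mem_wtSp.2 fun a => by rw [dbl_apply, mem_wtSp.1 hx a, mem_wtSp.1 hy a]; rfl

omit [FiniteDimensional ℂ T] in
lemma IsUGL.dbl (hE : IsUGL E) : IsUGL (dbl E) where
  comm a b c d := by
    refine LinearMap.ext ?_
    rintro ⟨x, y⟩
    simp only [LinearMap.sub_apply, Module.End.mul_apply, dbl_apply]
    rw [hE.comm_apply a b c d x, hE.comm_apply a b c d y]
    split_ifs <;> simp only [dbl_apply, LinearMap.zero_apply] <;>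
      apply WithLp.ofLp_injective <;> simp <;> constructor <;> abel
  adj a b := by
    rintro ⟨x, y⟩ ⟨x', y'⟩
    simp only [dbl_apply, WithLp.prod_inner_apply, hE.adj]
  span := by
    refine eq_top_iff.2 ?_
    rintro ⟨x, y⟩ -
    have e : ∀ x y x' y' : T, WithLp.toLp 2 (x + x', y + y') =
      WithLp.toLp 2 (x, y) + WithLp.toLp 2 (x', y') := fun _ _ _ _ => rfl
    have h1 : WithLp.toLp 2 (x, (0 : T)) ∈ ⨆ μ, wtSp (P181.dbl E) μ := by
      refine hE.induction (P := fun x => WithLp.toLp 2 (x, (0 : T)) ∈ ⨆ μ, wtSp (P181.dbl E) μ) x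
        (fun μ z hz => Submodule.mem_iSup_of_mem μ (dbl_mem_wtSp hz (zero_mem _)))
        (Submodule.zero_mem _) fun z w hz hw => ?_
      have := Submodule.add_mem _ hz hw
      rwa [← e, add_zero] at this
    have h2 : WithLp.toLp 2 ((0 : T), y) ∈ ⨆ μ, wtSp (P181.dbl E) μ := by
      refine hE.induction (P := fun y => WithLp.toLp 2 ((0 : T), y) ∈ ⨆ μ, wtSp (P181.dbl E) μ) y
        (fun μ z hz => Submodule.mem_iSup_of_mem μ (dbl_mem_wtSp (zero_mem _) hz))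
        (Submodule.zero_mem _) fun z w hz hw => ?_
      have := Submodule.add_mem _ hz hw
      rwa [← e, add_zero] at this
    have := Submodule.add_mem _ h1 h2
    rwa [← e, add_zero, zero_add] at this

theorem exists_inj_of_finrank_hwSp_le (hE : IsUGL E) {W₁ W₂ : Submodule ℂ T}
    (h₁ : InvSp E W₁) (h₂ : InvSp E W₂)
    (h : ∀ l, finrank ℂ (hwSp E W₁ l) ≤ finrank ℂ (hwSp E W₂ l)) :
    ∃ φ : T →ₗ[ℂ] T, (∀ x ∈ W₁, φ x ∈ W₂) ∧ (∀ x ∈ W₁, φ x = 0 → x = 0) ∧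
      ∀ a b, ∀ x ∈ W₁, φ (E a b x) = E a b (φ x) := by
  choose j hj using fun l => finrank_le_iff_exists_linearMap.1 (h l)
  let g : ∀ l, hwSp E W₁ l →ₗ[ℂ] WithLp 2 (T × T) := fun l =>
    (WithLp.linearEquiv 2 ℂ (T × T)).symm.toLinearMap ∘ₗ
      ((hwSp E W₁ l).subtype.prod ((hwSp E W₂ l).subtype ∘ₗ j l))
  have hg : ∀ l v, g l v = WithLp.toLp 2 ((v : T), (j l v : T)) := fun _ _ => rfl
  obtain ⟨M, hM, m1, m2, m3⟩ := hE.dbl.exists_gen (fun l => LinearMap.range (g l)) (by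
    rintro l _ ⟨v, rfl⟩
    obtain ⟨-, k1, k2⟩ := mem_hwSp.1 v.2
    obtain ⟨-, k3, k4⟩ := mem_hwSp.1 (j l v).2
    refine mem_hwSp.2 ⟨trivial, dbl_mem_wtSp k1 k3, fun a b hab => ?_⟩
    rw [hg, dbl_apply, k2 a b hab, k4 a b hab]
    rfl)
  set p := WithLp.fstₗ 2 ℂ T T with hp
  set q := WithLp.sndₗ 2 ℂ T T with hq
  have pE : ∀ a b m, p (dbl E a b m) = E a b (p m) := fun _ _ _ => rfl
  have qE : ∀ a b m, q (dbl E a b m) = E a b (q m) := fun _ _ _ => rfl
  have pg : ∀ l v, p (g l v) = v := fun _ _ => rfl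
  have qg : ∀ l v, q (g l v) = j l v := fun _ _ => rfl
  have a1 : M ≤ W₁.comap p := m3 _ (fun a b m hm => h₁ a b _ hm) (by
    rintro l _ ⟨v, rfl⟩; exact (mem_hwSp.1 v.2).1)
  have a2 : M ≤ W₂.comap q := m3 _ (fun a b m hm => h₂ a b _ hm) (by
    rintro l _ ⟨v, rfl⟩; exact (mem_hwSp.1 (j l v).2).1)
  have b1 : M ⊓ LinearMap.ker p = ⊥ := by
    refine (hM.inf fun a b m hm => ?_).eq_bot hE.dbl fun l x hx => ?_
    · rw [LinearMap.mem_ker, pE, LinearMap.mem_ker.1 hm, map_zero]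
    · obtain ⟨v, rfl⟩ := m2 l (hwSp_mono inf_le_left l hx)
      have k : v = 0 := Subtype.ext ((pg l v).symm.trans (mem_hwSp.1 hx).1.2)
      rw [k, map_zero]
  have b2 : M ⊓ LinearMap.ker q = ⊥ := by
    refine (hM.inf fun a b m hm => ?_).eq_bot hE.dbl fun l x hx => ?_
    · rw [LinearMap.mem_ker, qE, LinearMap.mem_ker.1 hm, map_zero]
    · obtain ⟨v, rfl⟩ := m2 l (hwSp_mono inf_le_left l hx)
      have k : j l v = 0 := Subtype.ext ((qg l v).symm.trans (mem_hwSp.1 hx).1.2)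
      rw [(injective_iff_map_eq_zero _).1 (hj l) v k, map_zero]
  have c1 : InvSp E (M.map p) := by
    rintro a b _ ⟨m, hm, rfl⟩
    exact ⟨_, hM a b m hm, pE a b m⟩
  have c2 : (M.map p)ᗮ ⊓ W₁ = ⊥ := by
    refine ((c1.orthogonal hE).inf h₁).eq_bot hE fun l x hx => ?_
    have k := hwSp_mono inf_le_right l hx
    exact inner_self_eq_zero.1 ((mem_hwSp.1 hx).1.1 x ⟨_, m1 l ⟨⟨x, k⟩, rfl⟩, rfl⟩)
  have c3 : M.map p = W₁ := by
    have := Submodule.sup_orthogonal_inf_of_hasOrthogonalProjection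
      (Submodule.map_le_iff_le_comap.2 a1)
    rwa [c2, sup_bot_eq] at this
  obtain ⟨s, hs⟩ := LinearMap.exists_leftInverse_of_injective (p ∘ₗ M.subtype) (by
    rw [LinearMap.ker_comp, ← Submodule.disjoint_iff_comap_eq_bot, disjoint_iff, b1])
  have key : ∀ m ∈ M, (q ∘ₗ M.subtype ∘ₗ s) (p m) = q m := fun m hm =>
    congrArg (fun y : M => q y) (LinearMap.congr_fun hs ⟨m, hm⟩)
  refine ⟨q ∘ₗ M.subtype ∘ₗ s, ?_, ?_, fun a b => ?_⟩ <;> rw [← c3] <;> rintro _ ⟨m, hm, rfl⟩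
  · rw [key m hm]
    exact a2 hm
  · rw [key m hm]
    intro h0
    rw [(Submodule.eq_bot_iff _).1 b2 m ⟨hm, h0⟩, map_zero]
  · rw [← pE, key _ (hM a b m hm), key m hm, qE]

end Vale.Agent.P181
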