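import Mathlib
import Vale.Agent.P181.Unitary
import Vale.Agent.P181.Model1

/-!
The polynomial model and the tensor space.
-/

namespace Vale.Agent.P181

open Module MvPolynomial

variable {Ω : Type} [Fintype Ω] [DecidableEq Ω] {n : ℕ} {ι : Type} [Fintype ι] [DecidableEq ι]

theorem kr_mul (M N : Ω → Matrix (Fin n) (Fin n) ℂ) : kr (M * N) = kr M * kr N := by
  ext f g
  simp only [kr, Matrix.of_apply, Matrix.mul_apply, Pi.mul_apply]
  rw [Finset.prod_univ_sum, Fintype.piFinset_univ]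
  exact Finset.sum_congr rfl fun h _ => Finset.prod_mul_distrib

theorem kr_one : kr (1 : Ω → Matrix (Fin n) (Fin n) ℂ) = 1 := by
  ext f g
  simp only [kr, Matrix.of_apply, Pi.one_apply, Matrix.one_apply]
  rw [Finset.prod_ite_zero]
  simp [funext_iff]

theorem mo_kr_update (ω : Ω) (M : Matrix (Fin n) (Fin n) ℂ) (f g : Ω → Fin n) :
    kr (Function.update 1 ω M) f g
      = M (f ω) (g ω) * if ∀ x, x ≠ ω → f x = g x then 1 else 0 := by
  rw [kr, Matrix.of_apply, ← Finset.mul_prod_erase _ _ (Finset.mem_univ ω), Function.update_self]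
  congr 1
  rw [Finset.prod_congr rfl (g := fun x => if f x = g x then (1 : ℂ) else 0), Finset.prod_ite_zero]
  · simp
  · intro x hx
    rw [Function.update_of_ne (Finset.ne_of_mem_erase hx), Pi.one_apply, Matrix.one_apply]

/-- a matrix acting in one mo_slot -/
noncomputable def mo_slot (ω : Ω) : Matrix (Fin n) (Fin n) ℂ →ₗ[ℂ] (TT Ω n →ₗ[ℂ] TT Ω n) where
  toFun M := Matrix.toEuclideanLin (kr (Function.update 1 ω M))
  map_add' M N := by
    rw [← map_add]
    congr 1
    ext f g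
    simp only [mo_kr_update, Matrix.add_apply, add_mul]
  map_smul' c M := by
    rw [← map_smulₛₗ]
    congr 1
    ext f g
    simp [mo_kr_update]

theorem mo_slot_apply (ω : Ω) (M : Matrix (Fin n) (Fin n) ℂ) :
    mo_slot ω M = Matrix.toEuclideanLin (kr (Function.update 1 ω M)) := rfl

theorem mo_tE_eq (a b : Fin n) : tE Ω a b = ∑ ω : Ω, mo_slot ω (Matrix.single a b 1) := rfl

theorem mo_slot_mul_slot (ω ω' : Ω) (M N : Matrix (Fin n) (Fin n) ℂ) :
    mo_slot ω M * mo_slot ω' N
      = Matrix.toEuclideanLin (kr (Function.update (1 : Ω → Matrix (Fin n) (Fin n) ℂ) ω M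
        * Function.update (1 : Ω → Matrix (Fin n) (Fin n) ℂ) ω' N)) := by
  rw [kr_mul, Matrix.toLpLin_mul_same]; rfl

theorem mo_slot_mul (ω : Ω) (M N : Matrix (Fin n) (Fin n) ℂ) :
    mo_slot ω M * mo_slot ω N = mo_slot ω (M * N) := by
  rw [mo_slot_mul_slot, mo_slot_apply, ← Function.update_mul, mul_one]

theorem mo_slot_comm {ω ω' : Ω} (h : ω ≠ ω') (M N : Matrix (Fin n) (Fin n) ℂ) :
    mo_slot ω M * mo_slot ω' N = mo_slot ω' N * mo_slot ω M := by
  rw [mo_slot_mul_slot, mo_slot_mul_slot]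
  congr 2
  exact (Pi.mulSingle_commute (f := fun _ : Ω => Matrix (Fin n) (Fin n) ℂ) h M N).eq

/-- basis vectors -/
noncomputable abbrev mo_bv (f : Ω → Fin n) : TT Ω n := EuclideanSpace.basisFun (Ω → Fin n) ℂ f

theorem mo_slot_bv (ω : Ω) (a b : Fin n) (f : Ω → Fin n) :
    mo_slot ω (Matrix.single a b 1) (mo_bv f) = if f ω = b then mo_bv (Function.update f ω a) else 0 := by
  ext g
  rw [mo_slot_apply, mo_bv, EuclideanSpace.basisFun_apply]
  simp only [Matrix.ofLp_toLpLin, PiLp.ofLp_single, Matrix.toLin'_apply, Matrix.mulVec_single_one,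
    Matrix.col_apply, mo_kr_update, Matrix.single_apply]
  by_cases h1 : f ω = b
  · rw [if_pos h1, mo_bv, EuclideanSpace.basisFun_apply, PiLp.ofLp_single, Pi.single_apply]
    by_cases h2 : g = Function.update f ω a
    · subst h2
      simp +contextual [h1, Function.update_of_ne]
    · rw [if_neg h2]
      rw [Function.eq_update_iff, not_and_or] at h2
      rcases h2 with h2 | h2
      · simp [Ne.symm h2]
      · simp [h2]
  · simp [h1, Ne.symm h1]

theorem mo_tE_bv (a b : Fin n) (f : Ω → Fin n) :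
    tE Ω a b (mo_bv f) = ∑ ω ∈ Finset.univ.filter (fun ω => f ω = b), mo_bv (Function.update f ω a) := by
  rw [mo_tE_eq, LinearMap.sum_apply, Finset.sum_filter]
  exact Finset.sum_congr rfl fun ω _ => mo_slot_bv ω a b f

/-- the weight of a colouring -/
noncomputable def mo_wtf (f : Ω → Fin n) : Fin n →₀ ℕ := ∑ ω, Finsupp.single (f ω) 1

theorem mo_wtf_apply (f : Ω → Fin n) (a : Fin n) :
    mo_wtf f a = (Finset.univ.filter fun ω => f ω = a).card := by
  simp [mo_wtf, Finsupp.finsetSum_apply, Finsupp.single_apply]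

theorem mo_tE_bv_self (a : Fin n) (f : Ω → Fin n) : tE Ω a a (mo_bv f) = (mo_wtf f a : ℂ) • mo_bv f := by
  rw [mo_tE_bv, mo_wtf_apply, Nat.cast_smul_eq_nsmul, ← Finset.sum_const]
  refine Finset.sum_congr rfl fun ω hω => ?_
  rw [← (Finset.mem_filter.1 hω).2, Function.update_eq_self]

theorem mo_mem_wtSp_iff {T : Type*} [NormedAddCommGroup T] [InnerProductSpace ℂ T]
    {E : Fin n → Fin n → T →ₗ[ℂ] T} {μ : Fin n →₀ ℕ} {x : T} :
    x ∈ wtSp E μ ↔ ∀ a, E a a x = (μ a : ℂ) • x := by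
  simp [wtSp, Submodule.mem_iInf]

theorem mo_bv_mem_wtSp (f : Ω → Fin n) : mo_bv f ∈ wtSp (tE Ω) (mo_wtf f) :=
  mo_mem_wtSp_iff.2 fun a => mo_tE_bv_self a f

theorem isUGL_tE : IsUGL (tE Ω (n := n)) where
  comm a b c d := by
    have h1 : tE Ω a b * tE Ω c d - tE Ω c d * tE Ω a b = ∑ ω : Ω, mo_slot ω
        (Matrix.single a b 1 * Matrix.single c d 1 - Matrix.single c d 1 * Matrix.single a b 1) := by
      rw [mo_tE_eq, mo_tE_eq, Finset.sum_mul_sum, Finset.sum_mul_sum,
        Finset.sum_comm (f := fun ω ω' => mo_slot ω (Matrix.single c d 1) * _),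
        ← Finset.sum_sub_distrib]
      refine Finset.sum_congr rfl fun ω _ => ?_
      rw [← Finset.sum_sub_distrib, Finset.sum_eq_single ω, mo_slot_mul, mo_slot_mul, map_sub]
      · intro ω' _ h
        rw [mo_slot_comm h, sub_self]
      · simp
    have h2 : ∀ a b c d : Fin n, ∑ ω : Ω, mo_slot ω (Matrix.single a b 1 * Matrix.single c d 1)
        = if b = c then tE Ω a d else 0 := by
      intro a b c d
      split_ifs with h
      · subst h
        rw [Matrix.single_mul_single_same, mul_one, mo_tE_eq]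
      · rw [Matrix.single_mul_single_of_ne _ _ _ _ h]
        simp
    rw [h1, ← h2, ← h2, ← Finset.sum_sub_distrib]
    exact Finset.sum_congr rfl fun ω _ => map_sub _ _ _
  adj a b x y := by
    rw [mo_tE_eq, mo_tE_eq, LinearMap.sum_apply, LinearMap.sum_apply, sum_inner, inner_sum]
    refine Finset.sum_congr rfl fun ω _ => ?_
    rw [← LinearMap.adjoint_inner_right, mo_slot_apply, mo_slot_apply,
      ← Matrix.toEuclideanLin_conjTranspose_eq_adjoint]
    congr 3
    ext f g
    rw [Matrix.conjTranspose_apply, mo_kr_update, mo_kr_update, Matrix.single_apply, Matrix.single_apply]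
    simp only [and_comm, eq_comm (a := f _) (b := g _)]
    split_ifs <;> simp
  span := by
    rw [eq_top_iff, ← (EuclideanSpace.basisFun (Ω → Fin n) ℂ).toBasis.span_eq,
      Submodule.span_le]
    rintro _ ⟨f, rfl⟩
    exact Submodule.mem_iSup_of_mem (mo_wtf f) (mo_bv_mem_wtSp f)

theorem mo_theta_bv (row : Ω → ι) (lab : ι → ℕ) (f : Ω → Fin n) :
    theta n row lab (mo_bv f) = monomial (colMon row lab f) 1 :=
  (EuclideanSpace.basisFun (Ω → Fin n) ℂ).toBasis.constr_basis ℂ _ f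

theorem mo_monomial_colMon (row : Ω → ι) (lab : ι → ℕ) (f : Ω → Fin n) :
    monomial (colMon row lab f) (1 : ℂ) = ∏ i, X (lab i, cont row f i) := by
  rw [colMon, monomial_sum_one]; rfl

theorem mo_cont_apply (row : Ω → ι) (f : Ω → Fin n) (i : ι) (b : Fin n) :
    cont row f i b = (Finset.univ.filter fun ω => f ω = b ∧ row ω = i).card := by
  simp [cont, Finsupp.finsetSum_apply, Finsupp.single_apply, Finset.filter_filter, and_comm,
    Fin.val_inj]

theorem mo_cont_update_of_ne (row : Ω → ι) (f : Ω → Fin n) (ω : Ω) (a : Fin n) {i : ι}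
    (h : i ≠ row ω) : cont row (Function.update f ω a) i = cont row f i := by
  refine Finset.sum_congr rfl fun x hx => ?_
  rw [Function.update_of_ne]
  rintro rfl
  exact h (Finset.mem_filter.1 hx).2.symm

theorem mo_cont_update_self (row : Ω → ι) (f : Ω → Fin n) (ω : Ω) (a : Fin n) :
    cont row (Function.update f ω a) (row ω)
      = cont row f (row ω) - Finsupp.single (f ω : ℕ) 1 + Finsupp.single (a : ℕ) 1 := by
  have h : ω ∈ Finset.univ.filter fun x => row x = row ω := by simp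
  rw [cont, cont, ← Finset.sum_erase_add _ _ h, ← Finset.sum_erase_add _ _ h, Function.update_self,
    add_tsub_cancel_right]
  congr 1
  refine Finset.sum_congr rfl fun x hx => ?_
  rw [Function.update_of_ne (Finset.ne_of_mem_erase hx)]

theorem theta_tE (row : Ω → ι) (lab : ι → ℕ) (a b : Fin n) (x : TT Ω n) :
    theta n row lab (tE Ω a b x) = pE a b (theta n row lab x) := by
  have : theta n row lab ∘ₗ tE Ω a b = (pE a b).toLinearMap ∘ₗ theta n row lab := by
    refine (EuclideanSpace.basisFun (Ω → Fin n) ℂ).toBasis.ext fun f => ?_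
    show theta n row lab (tE Ω a b (mo_bv f)) = pE a b (theta n row lab (mo_bv f))
    rw [mo_tE_bv, map_sum, mo_theta_bv, mo_monomial_colMon, mo_deriv_prod,
      ← Finset.sum_fiberwise (g := row)]
    refine Finset.sum_congr rfl fun i _ => ?_
    rw [pE, mkDerivation_X, mo_cont_apply, mul_smul_comm, Nat.cast_smul_eq_nsmul, Finset.filter_filter,
      ← Finset.sum_const]
    refine Finset.sum_congr rfl fun ω hω => ?_
    obtain ⟨rfl, rfl⟩ := (Finset.mem_filter.1 hω).2
    rw [mo_theta_bv, mo_monomial_colMon, ← Finset.prod_erase_mul _ _ (Finset.mem_univ (row ω)),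
      mo_cont_update_self]
    congr 1
    refine Finset.prod_congr rfl fun i hi => ?_
    rw [mo_cont_update_of_ne _ _ _ _ (Finset.ne_of_mem_erase hi)]
  exact DFunLike.congr_fun this x

theorem invSp_theta (row : Ω → ι) (lab : ι → ℕ) :
    InvSp (tE Ω (n := n)) (LinearMap.ker (theta n row lab))ᗮ := by
  refine InvSp.orthogonal isUGL_tE fun a b x hx => ?_
  rw [LinearMap.mem_ker] at hx ⊢
  rw [theta_tE, hx, map_zero]

theorem mo_degree_cont (row : Ω → ι) (f : Ω → Fin n) (i : ι) :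
    (cont row f i).degree = (Finset.univ.filter fun ω => row ω = i).card := by
  simp [cont]

theorem mo_shp_colMon (row : Ω → ι) (lab : ι → ℕ) (f : Ω → Fin n) :
    shp (colMon row lab f) = rowShp row lab := by
  rw [shp, colMon, Finsupp.mapDomain_finsetSum, rowShp]
  refine Finset.sum_congr rfl fun i _ => ?_
  rw [Finsupp.mapDomain_single, mo_degree_cont]

theorem mo_wgt_colMon (row : Ω → ι) (lab : ι → ℕ) (f : Ω → Fin n) :
    wgt (colMon row lab f) = toMon (mo_wtf f) := by
  rw [colMon, mo_wgt_sum, toMon, mo_wtf, Finsupp.mapDomain_finsetSum,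
    ← Finset.sum_fiberwise (g := row)]
  refine Finset.sum_congr rfl fun i _ => ?_
  rw [mo_wgt_single, one_smul, cont]
  exact Finset.sum_congr rfl fun ω _ => Finsupp.mapDomain_single.symm

theorem mo_exists_colMon (row : Ω → ι) (lab : ι → ℕ) (μ : Fin n →₀ ℕ) {M : (ℕ × Mon) →₀ ℕ}
    (h1 : shp M = rowShp row lab) (h2 : wgt M = toMon μ) :
    ∃ f : Ω → Fin n, colMon row lab f = M ∧ mo_wtf f = μ := by
  obtain ⟨v, hv, hv'⟩ := mo_exists_enum (fun v : ℕ × Mon => (v.1, v.2.degree)) _ Finset.univ M h1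
  have h3 : ∀ i, ∃ w : Ω → ℕ, (v i).2 = ∑ ω ∈ Finset.univ.filter (fun ω => row ω = i),
      Finsupp.single (w ω) 1 := by
    intro i
    obtain ⟨w, hw, -⟩ := mo_exists_enum (fun _ : ℕ => ()) (fun _ : Ω => ())
      (Finset.univ.filter fun ω => row ω = i) (v i).2 (by
        ext
        have e1 := Finsupp.degree_eq_sum ((v i).2.mapDomain fun _ => ())
        rw [Finsupp.degree_mapDomain, Fintype.sum_unique] at e1
        have e2 : (v i).2.degree = _ := (Prod.ext_iff.1 (hv' i (Finset.mem_univ i))).2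
        rw [← e1, e2]
        simp [Finsupp.finsetSum_apply])
    exact ⟨w, hw⟩
  choose w hw using h3
  have h4 : ∀ ω, w (row ω) ω < n := by
    intro ω
    by_contra hn
    have e1 : v (row ω) ∈ M.support := by
      rw [hv, Finsupp.mem_support_iff, Finsupp.finsetSum_apply]
      intro h
      simpa using Finset.sum_eq_zero_iff.1 h (row ω) (Finset.mem_univ _)
    have e2 := mo_le_wgt e1 (w (row ω) ω)
    rw [h2, mo_toMon_apply_of_le μ (not_lt.1 hn), hw, Finsupp.finsetSum_apply, Nat.le_zero] at e2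
    simpa using Finset.sum_eq_zero_iff.1 e2 ω (by simp)
  have h5 : colMon row lab (fun ω => (⟨w (row ω) ω, h4 ω⟩ : Fin n)) = M := by
    rw [hv, colMon]
    refine Finset.sum_congr rfl fun i _ => ?_
    congr 1
    refine Prod.ext (Prod.ext_iff.1 (hv' i (Finset.mem_univ i))).1.symm ?_
    rw [hw]
    refine Finset.sum_congr rfl fun ω hω => ?_
    rw [← (Finset.mem_filter.1 hω).2]
  refine ⟨_, h5, mo_toMon_injective ?_⟩
  rw [← mo_wgt_colMon row lab, h5, h2]

theorem mo_theta_mem_pSp (row : Ω → ι) (lab : ι → ℕ) {μ : Fin n →₀ ℕ} {x : TT Ω n}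
    (hx : x ∈ wtSp (tE Ω) μ) : theta n row lab x ∈ pSp (rowShp row lab) (toMon μ) := by
  rw [← (EuclideanSpace.basisFun (Ω → Fin n) ℂ).sum_repr' x, map_sum]
  refine Submodule.sum_mem _ fun f _ => ?_
  by_cases h : mo_wtf f = μ
  · rw [map_smul]
    refine Submodule.smul_mem _ _ ?_
    rw [mo_theta_bv, pSp, monomial_mem_restrictSupport]
    exact Or.inl ⟨mo_shp_colMon row lab f, by rw [mo_wgt_colMon, h]⟩
  · obtain ⟨a, ha⟩ := not_forall.1 fun h' => h (Finsupp.ext h')
    have h1 := isUGL_tE.adj a a (mo_bv f) x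
    rw [mo_tE_bv_self, mo_mem_wtSp_iff.1 hx a, inner_smul_left, inner_smul_right, map_natCast] at h1
    have h2 : inner ℂ (mo_bv f) x = 0 := by
      by_contra h2
      exact ha (by exact_mod_cast mul_right_cancel₀ h2 h1)
    rw [h2, zero_smul, map_zero]
    exact Submodule.zero_mem _

theorem mo_eq_zero_of_theta {row : Ω → ι} {lab : ι → ℕ} {x : TT Ω n}
    (hx : x ∈ (LinearMap.ker (theta n row lab))ᗮ) (h : theta n row lab x = 0) : x = 0 :=
  Submodule.disjoint_def.1 (Submodule.orthogonal_disjoint _) x h hx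

theorem mo_map_theta_wtSp (row : Ω → ι) (lab : ι → ℕ) (μ : Fin n →₀ ℕ) :
    ((LinearMap.ker (theta n row lab))ᗮ ⊓ wtSp (tE Ω) μ : Submodule ℂ (TT Ω n)).map
      (theta n row lab) = pSp (rowShp row lab) (toMon μ) := by
  apply le_antisymm
  · rintro _ ⟨x, hx, rfl⟩
    exact mo_theta_mem_pSp row lab hx.2
  · rw [pSp, restrictSupport_eq_span, Submodule.span_le]
    rintro _ ⟨M, ⟨h1, h2⟩, rfl⟩
    obtain ⟨f, rfl, rfl⟩ := mo_exists_colMon row lab μ h1 h2
    obtain ⟨u, hu, y, hy, h⟩ :=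
      (LinearMap.ker (theta n row lab)).exists_add_mem_mem_orthogonal (mo_bv f)
    have h3 : theta n row lab y = theta n row lab (mo_bv f) := by
      rw [h, map_add, LinearMap.mem_ker.1 hu, zero_add]
    refine ⟨y, ⟨hy, mo_mem_wtSp_iff.2 fun a => ?_⟩, h3.trans (mo_theta_bv row lab f)⟩
    rw [← sub_eq_zero]
    refine mo_eq_zero_of_theta (sub_mem (invSp_theta row lab a a y hy) (Submodule.smul_mem _ _ hy)) ?_
    rw [map_sub, theta_tE, map_smul, h3, ← theta_tE, mo_tE_bv_self, map_smul, sub_self]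

theorem mo_finrank_map_theta (row : Ω → ι) (lab : ι → ℕ) {W : Submodule ℂ (TT Ω n)}
    (h : W ≤ (LinearMap.ker (theta n row lab))ᗮ) :
    finrank ℂ (W.map (theta n row lab)) = finrank ℂ W := by
  rw [← LinearMap.range_domRestrict]
  refine LinearMap.finrank_range_of_inj ((injective_iff_map_eq_zero _).2 fun x hx => ?_)
  exact Subtype.ext (mo_eq_zero_of_theta (h x.2) hx)

theorem finrank_wtSp_theta (row : Ω → ι) (lab : ι → ℕ) (μ : Fin n →₀ ℕ) :
    finrank ℂ ((LinearMap.ker (theta n row lab))ᗮ ⊓ wtSp (tE Ω) μ : Submodule ℂ (TT Ω n))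
      = Nat.card {M // shp M = rowShp row lab ∧ wgt M = toMon μ} := by
  rw [← mo_finrank_map_theta row lab inf_le_left, mo_map_theta_wtSp, mo_finrank_pSp]

theorem mo_mem_hwSp_iff {T : Type*} [NormedAddCommGroup T] [InnerProductSpace ℂ T]
    {E : Fin n → Fin n → T →ₗ[ℂ] T} {W : Submodule ℂ T} {μ : Fin n →₀ ℕ} {x : T} :
    x ∈ hwSp E W μ ↔ x ∈ W ⊓ wtSp E μ ∧ ∀ a b, a < b → E a b x = 0 := by
  simp [hwSp, Submodule.mem_iInf]

theorem finrank_hwSp_theta (row : Ω → ι) (lab : ι → ℕ) (l : Fin n →₀ ℕ) :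
    finrank ℂ (hwSp (tE Ω) (LinearMap.ker (theta n row lab))ᗮ l)
      = hw (rowShp row lab) (toMon l) := by
  rw [← mo_finrank_map_theta row lab fun x hx => (mo_mem_hwSp_iff.1 hx).1.1, hw]
  refine congrArg (fun W : Submodule ℂ PM => finrank ℂ W) ?_
  ext P
  constructor
  · rintro ⟨x, hx, rfl⟩
    obtain ⟨h1, h2⟩ := mo_mem_hwSp_iff.1 hx
    have h3 := mo_theta_mem_pSp row lab h1.2
    refine mo_mem_pHW.2 ⟨h3, fun a b hab => ?_⟩
    by_cases hb : b < n
    · have := theta_tE row lab ⟨a, hab.trans hb⟩ ⟨b, hb⟩ x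
      rw [h2 _ _ (Fin.mk_lt_mk.2 hab), map_zero] at this
      exact this.symm
    · exact mo_pE_eq_zero h3 a (not_lt.1 hb)
  · intro hP
    obtain ⟨h1, h2⟩ := mo_mem_pHW.1 hP
    rw [← mo_map_theta_wtSp] at h1
    obtain ⟨x, hx, rfl⟩ := h1
    refine ⟨x, mo_mem_hwSp_iff.2 ⟨hx, fun a b hab => ?_⟩, rfl⟩
    refine mo_eq_zero_of_theta (invSp_theta row lab a b x hx.1) ?_
    rw [theta_tE, h2 _ _ hab]

theorem mo_theta_comp (row : Ω → ι) (lab : ι → ℕ) (ψ : ℕ → ℕ) (x : TT Ω n) :
    theta n row (ψ ∘ lab) x = rename (Prod.map ψ id) (theta n row lab x) := by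
  have : theta n row (ψ ∘ lab) = (rename (Prod.map ψ id)).toLinearMap ∘ₗ theta n row lab := by
    refine (EuclideanSpace.basisFun (Ω → Fin n) ℂ).toBasis.ext fun f => ?_
    show theta n row (ψ ∘ lab) (mo_bv f) = rename (Prod.map ψ id) (theta n row lab (mo_bv f))
    rw [mo_theta_bv, mo_theta_bv, mo_monomial_colMon, mo_monomial_colMon, map_prod]
    simp
  exact DFunLike.congr_fun this x

/-- refining the labels can only increase multiplicities -/
theorem hw_rowShp_comp_le (row : Ω → ι) (lab : ι → ℕ) (ψ : ℕ → ℕ) (μ : Mon) :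
    hw (rowShp row (ψ ∘ lab)) μ ≤ hw (rowShp row lab) μ := by
  obtain ⟨n, l, rfl⟩ := mo_exists_toMon μ
  rw [← finrank_hwSp_theta, ← finrank_hwSp_theta]
  refine Submodule.finrank_mono fun x hx => ?_
  rw [mo_mem_hwSp_iff] at hx ⊢
  refine ⟨⟨Submodule.orthogonal_le (fun y hy => ?_) hx.1.1, hx.1.2⟩, hx.2⟩
  rw [LinearMap.mem_ker] at hy ⊢
  rw [mo_theta_comp, hy, map_zero]

end Vale.Agent.P181
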