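import Mathlib
import Vale.Agent.P181.Canon
import Vale.Agent.P181.Model

/-!
From multiplicity inequalities to an equivariant injection.
-/

namespace Vale.Agent.P181

open Module TensorProduct

section Schur

variable {Ω : Type} [Fintype Ω] [DecidableEq Ω] {n : ℕ}

omit [DecidableEq Ω] in
theorem esymm_mem_of_psum_mem (S : Subalgebra ℂ (MvPolynomial Ω ℂ))
    (h : ∀ k, MvPolynomial.psum Ω ℂ k ∈ S) (k : ℕ) : MvPolynomial.esymm Ω ℂ k ∈ S := by
  induction k using Nat.strong_induction_on with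
  | _ k ih =>
    rcases Nat.eq_zero_or_pos k with rfl | hk
    · rw [MvPolynomial.esymm_zero]
      exact S.one_mem
    have h1 : (k : MvPolynomial Ω ℂ) * MvPolynomial.esymm Ω ℂ k ∈ S := by
      rw [MvPolynomial.mul_esymm_eq_sum]
      refine S.mul_mem (S.pow_mem (S.neg_mem S.one_mem) _) (S.sum_mem fun a ha => ?_)
      exact S.mul_mem (S.mul_mem (S.pow_mem (S.neg_mem S.one_mem) _)
        (ih _ (Finset.mem_filter.mp ha).2)) (h _)
    have h2 := S.smul_mem h1 (k : ℂ)⁻¹
    have hk' : (k : ℂ) ≠ 0 := by exact_mod_cast hk.ne'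
    rwa [← nsmul_eq_mul, ← Nat.cast_smul_eq_nsmul ℂ, smul_smul, inv_mul_cancel₀ hk',
      one_smul] at h2

theorem kr_update_eq_sum (ω : Ω) (A : Matrix (Fin n) (Fin n) ℂ) :
    kr (Function.update 1 ω A)
      = ∑ a, ∑ b, A a b • kr (Function.update 1 ω (Matrix.single a b (1 : ℂ))) := by
  have key : ∀ (B : Matrix (Fin n) (Fin n) ℂ) (f g : Ω → Fin n),
      kr (Function.update 1 ω B) f g = B (f ω) (g ω) *
        ∏ ω' ∈ Finset.univ.erase ω, (1 : Matrix (Fin n) (Fin n) ℂ) (f ω') (g ω') := by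
    intro B f g
    simp only [kr, Matrix.of_apply]
    rw [← Finset.mul_prod_erase _ _ (Finset.mem_univ ω), Function.update_self]
    congr 1
    refine Finset.prod_congr rfl fun ω' h => ?_
    rw [Function.update_of_ne (Finset.ne_of_mem_erase h)]
    rfl
  ext f g
  simp only [Matrix.sum_apply, Matrix.smul_apply, key, smul_eq_mul, ← mul_assoc,
    ← Finset.sum_mul]
  congr 1
  conv_lhs => rw [Matrix.matrix_eq_sum_single A]
  simp [Matrix.sum_apply, Matrix.single_apply]

/-- every diagonal Kronecker power lies in the algebra generated by the `tE a b` -/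
theorem kr_const_mem (S : Subalgebra ℂ (Module.End ℂ (TT Ω n))) (hS : ∀ a b, tE Ω a b ∈ S)
    (M : Matrix (Fin n) (Fin n) ℂ) : Matrix.toEuclideanLin (kr fun _ : Ω => M) ∈ S := by
  let F : Multiplicative (Ω →₀ ℕ) →* Module.End ℂ (TT Ω n) :=
    { toFun := fun m => Matrix.toEuclideanLin (kr fun ω => M ^ (m.toAdd ω))
      map_one' := by
        have : (fun ω : Ω => M ^ ((1 : Multiplicative (Ω →₀ ℕ)).toAdd ω)) = 1 := by
          funext ω; simp
        rw [this, kr_one]
        exact Matrix.toLpLin_one 2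
      map_mul' := fun m m' => by
        have : (fun ω : Ω => M ^ ((m * m').toAdd ω))
            = (fun ω : Ω => M ^ (m.toAdd ω)) * fun ω : Ω => M ^ (m'.toAdd ω) := by
          funext ω; simp [pow_add]
        rw [this, kr_mul]
        exact Matrix.toLpLin_mul_same 2 _ _ }
  let Ψ : MvPolynomial Ω ℂ →ₐ[ℂ] Module.End ℂ (TT Ω n) := AddMonoidAlgebra.lift ℂ _ _ F
  have hΨ : ∀ m : Ω →₀ ℕ, Ψ (MvPolynomial.monomial m 1)
      = Matrix.toEuclideanLin (kr fun ω => M ^ (m ω)) := by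
    intro m
    have := AddMonoidAlgebra.lift_single (R := ℂ) F m 1
    rw [one_smul] at this
    exact this
  have h1 : ∀ k, MvPolynomial.psum Ω ℂ k ∈ S.comap Ψ := by
    intro k
    rw [Subalgebra.mem_comap, MvPolynomial.psum, map_sum]
    have : ∀ ω : Ω, Ψ (MvPolynomial.X ω ^ k) = ∑ a, ∑ b, (M ^ k) a b •
        Matrix.toEuclideanLin (kr (Function.update 1 ω (Matrix.single a b (1 : ℂ)))) := by
      intro ω
      rw [MvPolynomial.X_pow_eq_monomial, hΨ]
      have : (fun ω' => M ^ (Finsupp.single ω k ω'))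
          = Function.update (1 : Ω → Matrix (Fin n) (Fin n) ℂ) ω (M ^ k) := by
        funext ω'
        by_cases h : ω' = ω
        · subst h; simp
        · simp [Function.update_of_ne h, Finsupp.single_eq_of_ne h]
      rw [this, kr_update_eq_sum]
      simp only [map_sum, map_smul]
    simp only [this]
    rw [Finset.sum_comm]
    refine S.sum_mem fun a _ => ?_
    rw [Finset.sum_comm]
    refine S.sum_mem fun b _ => ?_
    rw [← Finset.smul_sum]
    exact S.smul_mem (hS a b) _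
  have h2 := esymm_mem_of_psum_mem _ h1 (Fintype.card Ω)
  rw [Subalgebra.mem_comap, MvPolynomial.esymm, ← Finset.card_univ, Finset.powersetCard_self,
    Finset.sum_singleton] at h2
  have h3 : ∏ ω : Ω, (MvPolynomial.X ω : MvPolynomial Ω ℂ)
      = MvPolynomial.monomial (∑ ω, Finsupp.single ω 1) 1 := by
    rw [MvPolynomial.monomial_sum_one]
    rfl
  rw [h3, hΨ] at h2
  have h4 : (fun ω : Ω => M ^ ((∑ ω' : Ω, Finsupp.single ω' 1 : Ω →₀ ℕ) ω)) = fun _ => M := by
    funext ω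
    rw [Finsupp.finsetSum_apply, Finset.sum_eq_single ω]
    · simp
    · intro ω' _ h
      exact Finsupp.single_eq_of_ne h.symm
    · simp
  rwa [h4] at h2

end Schur

section Proj

variable {Ω : Type} [Fintype Ω] [DecidableEq Ω] {n : ℕ}
variable {α β : Type} [Fintype α] [DecidableEq α] [Fintype β] [DecidableEq β]
variable {V : Type*} [AddCommGroup V] [Module ℂ V]

omit [DecidableEq Ω] [DecidableEq β] in
theorem cont_equiv (ε : α × β ≃ Ω) (f : Ω → Fin n) (i : α) :
    cont (fun ω => (ε.symm ω).1) f i = ∑ j, Finsupp.single (f (ε (i, j)) : ℕ) 1 := by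
  unfold cont
  rw [Finset.sum_filter, ← Equiv.sum_comp ε, Fintype.sum_prod_type, Finset.sum_eq_single i]
  · simp
  · intro i' _ h
    simp [h]
  · simp

omit [DecidableEq Ω] [DecidableEq β] in
theorem rowShp_equiv (ε : α × β ≃ Ω) :
    rowShp (fun ω => (ε.symm ω).1) (fun _ => 0)
      = Finsupp.single (0, Fintype.card β) (Fintype.card α) := by
  unfold rowShp
  have : ∀ i : α, (Finset.univ.filter fun ω : Ω => (ε.symm ω).1 = i).card = Fintype.card β := by
    intro i
    rw [Finset.card_filter, ← Equiv.sum_comp ε, Fintype.sum_prod_type, Finset.sum_eq_single i]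
    · simp
    · intro i' _ h
      simp [h]
    · simp
  simp only [this]
  rw [Finset.sum_const, Finset.card_univ, Finsupp.smul_single, smul_eq_mul, mul_one]

omit [DecidableEq Ω] [DecidableEq β] in
theorem colMon_shear (ε : α × β ≃ Ω) (f f' : Ω → Fin n) (π : Equiv.Perm α)
    (σ : α → Equiv.Perm β) (h : ∀ i j, f' (ε (i, j)) = f (ε (π i, σ i j))) :
    colMon (fun ω => (ε.symm ω).1) (fun _ => 0) f' = colMon (fun ω => (ε.symm ω).1) (fun _ => 0) f := by
  unfold colMon
  rw [← Equiv.sum_comp π (fun i => Finsupp.single (0, cont (fun ω => (ε.symm ω).1) f i) 1)]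
  refine Finset.sum_congr rfl fun i _ => ?_
  rw [cont_equiv, cont_equiv, ← Equiv.sum_comp (σ i)
    (fun j => Finsupp.single (f (ε (π i, j)) : ℕ) 1)]
  simp only [h]

omit [DecidableEq Ω] in
theorem exists_shear_of_colMon_eq (ε : α × β ≃ Ω) (f f' : Ω → Fin n)
    (h : colMon (fun ω => (ε.symm ω).1) (fun _ => 0) f'
      = colMon (fun ω => (ε.symm ω).1) (fun _ => 0) f) :
    ∃ (π : Equiv.Perm α) (σ : α → Equiv.Perm β), ∀ i j, f' (ε (i, j)) = f (ε (π i, σ i j)) := by
  obtain ⟨π, hπ⟩ := exists_perm_of_sum_single_eq _ _ h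
  have h2 : ∀ i, ∃ σ : Equiv.Perm β, ∀ j, (f (ε (π i, σ j)) : ℕ) = f' (ε (i, j)) := by
    intro i
    have := congrArg Prod.snd (hπ i)
    simp only [cont_equiv] at this
    exact exists_perm_of_sum_single_eq (fun j => (f' (ε (i, j)) : ℕ))
      (fun j => (f (ε (π i, j)) : ℕ)) this.symm
  choose σ hσ using h2
  exact ⟨π, σ, fun i j => Fin.ext (hσ i j).symm⟩

theorem exists_tensor_proj (ε : α × β ≃ Ω) (e : Basis (Fin n) ℂ V) :
    ∃ p : TT Ω n →ₗ[ℂ] Sym[ℂ] α (Sym[ℂ] β V), Function.Surjective p ∧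
      LinearMap.ker p = LinearMap.ker (theta n (fun ω => (ε.symm ω).1) fun _ => 0) ∧
      ∀ (g : V →ₗ[ℂ] V) (G : Sym[ℂ] α (Sym[ℂ] β V) →ₗ[ℂ] Sym[ℂ] α (Sym[ℂ] β V)),
        (∀ w, G (tt α β V w) = tt α β V fun x => g (w x)) →
        ∀ x, p (Matrix.toEuclideanLin (kr fun _ : Ω => LinearMap.toMatrix e e g) x) = G (p x) := by
  classical
  let B : Basis (Ω → Fin n) ℂ (TT Ω n) := (EuclideanSpace.basisFun (Ω → Fin n) ℂ).toBasis
  let p : TT Ω n →ₗ[ℂ] Sym[ℂ] α (Sym[ℂ] β V) := B.constr ℂ fun f => tt α β V fun x => e (f (ε x))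
  have hp : ∀ f, p (B f) = tt α β V fun x => e (f (ε x)) := fun f => B.constr_basis ℂ _ f
  let τ : MultilinearMap ℂ (fun _ : α × β => V) (TT Ω n) :=
    ∑ f : Ω → Fin n, ((MultilinearMap.mkPiAlgebra ℂ (α × β) ℂ).compLinearMap
      fun x => e.coord (f (ε x))).smulRight (B f)
  have hτ : ∀ w, τ w = ∑ f : Ω → Fin n, (∏ x, e.repr (w x) (f (ε x))) • B f := by
    intro w
    simp [τ]
  have hτe : ∀ u : α × β → Fin n, τ (fun x => e (u x)) = B fun ω => u (ε.symm ω) := by
    intro u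
    rw [hτ, Finset.sum_eq_single (fun ω => u (ε.symm ω))]
    · simp
    · intro f _ hf
      have : ∃ x, f (ε x) ≠ u x := by
        by_contra hcon
        push Not at hcon
        exact hf (funext fun ω => by rw [← hcon, Equiv.apply_symm_apply])
      obtain ⟨x, hx⟩ := this
      rw [Finset.prod_eq_zero (Finset.mem_univ x), zero_smul]
      rw [Basis.repr_self, Finsupp.single_eq_of_ne hx]
    · simp
  have hpτ : ∀ w, p (τ w) = tt α β V w := by
    have : p.compMultilinearMap τ = tt α β V := by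
      refine Basis.ext_multilinear (fun _ => e) fun u => ?_
      rw [LinearMap.compMultilinearMap_apply, hτe, hp]
      simp
    exact fun w => congrArg (fun f => f w) this
  have hθ : ∀ f, theta n (fun ω => (ε.symm ω).1) (fun _ => 0) (B f)
      = MvPolynomial.monomial (colMon (fun ω => (ε.symm ω).1) (fun _ => 0) f) 1 :=
    fun f => B.constr_basis ℂ _ f
  refine ⟨p, ?_, le_antisymm ?_ ?_, ?_⟩
  · rw [← LinearMap.range_eq_top, eq_top_iff, ← span_tt, Submodule.span_le]
    rintro _ ⟨w, rfl⟩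
    exact ⟨τ w, hpτ w⟩
  · obtain ⟨F, hF⟩ := exists_ttLift
      ((theta n (fun ω => (ε.symm ω).1) fun _ => 0).compMultilinearMap τ) (by
        intro π σ w
        have : ((theta n (fun ω => (ε.symm ω).1) fun _ => 0).compMultilinearMap τ).domDomCongr
            (Equiv.prodShear π σ)
            = (theta n (fun ω => (ε.symm ω).1) fun _ => 0).compMultilinearMap τ := by
          refine Basis.ext_multilinear (fun _ => e) fun u => ?_
          rw [MultilinearMap.domDomCongr_apply, LinearMap.compMultilinearMap_apply,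
            LinearMap.compMultilinearMap_apply, hτe, hτe,
            hθ, hθ, colMon_shear ε (fun ω => u (ε.symm ω)) _ π σ]
          intro i j
          simp
        exact congrArg (fun f => f w) this)
    have : theta n (fun ω => (ε.symm ω).1) (fun _ => 0) = F ∘ₗ p := by
      refine B.ext fun f => ?_
      rw [LinearMap.comp_apply, hp, hF, LinearMap.compMultilinearMap_apply, hτe]
      simp
    rw [this]
    exact LinearMap.ker_le_ker_comp _ _
  · let H : ((ℕ × Mon) →₀ ℕ) → Sym[ℂ] α (Sym[ℂ] β V) := fun M =>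
      if h : ∃ f : Ω → Fin n, colMon (fun ω => (ε.symm ω).1) (fun _ => 0) f = M
        then p (B h.choose) else 0
    have : p = (MvPolynomial.basisMonomials _ ℂ).constr ℂ H ∘ₗ
        theta n (fun ω => (ε.symm ω).1) (fun _ => 0) := by
      refine B.ext fun f => ?_
      have h1 : MvPolynomial.monomial (colMon (fun ω => (ε.symm ω).1) (fun _ => 0) f) (1 : ℂ)
          = MvPolynomial.basisMonomials _ ℂ (colMon (fun ω => (ε.symm ω).1) (fun _ => 0) f) := by
        rw [MvPolynomial.coe_basisMonomials]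
      have h2 : ∃ f' : Ω → Fin n, colMon (fun ω => (ε.symm ω).1) (fun _ => 0) f'
          = colMon (fun ω => (ε.symm ω).1) (fun _ => 0) f := ⟨f, rfl⟩
      rw [LinearMap.comp_apply, hθ, h1, (MvPolynomial.basisMonomials _ ℂ).constr_basis]
      simp only [H, dif_pos h2]
      obtain ⟨π, σ, hσ⟩ := exists_shear_of_colMon_eq ε _ _ h2.choose_spec
      rw [hp, hp, ← tt_shear π σ fun x => e (f (ε x))]
      congr 1
      funext x
      rw [← hσ]
    rw [this]
    exact LinearMap.ker_le_ker_comp _ _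
  · intro g G hG
    have : p ∘ₗ Matrix.toEuclideanLin (kr fun _ : Ω => LinearMap.toMatrix e e g) = G ∘ₗ p := by
      refine B.ext fun f => ?_
      rw [LinearMap.comp_apply, LinearMap.comp_apply, hp, hG, ← hpτ]
      congr 1
      rw [hτ]
      refine B.ext_elem fun f' => ?_
      rw [B.repr_sum_self]
      have h1 : B f = EuclideanSpace.single f 1 := by simp [B]
      have h2 : ∀ y, B.repr y f' = y f' := by intro y; simp [B]
      rw [h2, h1, ← Equiv.prod_comp ε.symm]
      simp [kr, LinearMap.toMatrix_apply, Matrix.toLpLin_apply]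
    exact fun x => congrArg (fun f => f x) this

end Proj

theorem exists_inj_of_hw_le (a b : ℕ)
    (h : ∀ μ : Mon, hw (Finsupp.single (0, b) a) μ ≤ hw (Finsupp.single (0, a) b) μ)
    (V : Type*) [AddCommGroup V] [Module ℂ V] [FiniteDimensional ℂ V]
    (ρ₁ : Representation ℂ (V ≃ₗ[ℂ] V) (Sym[ℂ] (Fin a) (Sym[ℂ] (Fin b) V)))
    (ρ₂ : Representation ℂ (V ≃ₗ[ℂ] V) (Sym[ℂ] (Fin b) (Sym[ℂ] (Fin a) V)))
    (h₁ : ∀ g w, ρ₁ g (tt (Fin a) (Fin b) V w) = tt (Fin a) (Fin b) V fun p => g (w p))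
    (h₂ : ∀ g w, ρ₂ g (tt (Fin b) (Fin a) V w) = tt (Fin b) (Fin a) V fun p => g (w p)) :
    ∃ Φ : Sym[ℂ] (Fin a) (Sym[ℂ] (Fin b) V) →ₗ[ℂ] Sym[ℂ] (Fin b) (Sym[ℂ] (Fin a) V),
      Function.Injective Φ ∧ ∀ g x, Φ (ρ₁ g x) = ρ₂ g (Φ x) := by
  let n := finrank ℂ V
  let e : Basis (Fin n) ℂ V := Module.finBasis ℂ V
  let ε₁ : Fin a × Fin b ≃ Fin a × Fin b := Equiv.refl _
  let ε₂ : Fin b × Fin a ≃ Fin a × Fin b := Equiv.prodComm _ _
  obtain ⟨p₁, hs₁, hk₁, hg₁⟩ := exists_tensor_proj ε₁ e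
  obtain ⟨p₂, -, hk₂, hg₂⟩ := exists_tensor_proj ε₂ e
  have hW₁ : InvSp (tE (Fin a × Fin b) (n := n)) (LinearMap.ker p₁)ᗮ := by
    rw [hk₁]; exact invSp_theta _ _
  have hW₂ : InvSp (tE (Fin a × Fin b) (n := n)) (LinearMap.ker p₂)ᗮ := by
    rw [hk₂]; exact invSp_theta _ _
  obtain ⟨φ, hφ₁, hφ₂, hφ₃⟩ := exists_inj_of_finrank_hwSp_le isUGL_tE hW₁ hW₂ (by
    intro l
    rw [hk₁, hk₂, finrank_hwSp_theta, finrank_hwSp_theta, rowShp_equiv, rowShp_equiv]
    simp only [Fintype.card_fin]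
    exact h _)
  let S : Subalgebra ℂ (Module.End ℂ (TT (Fin a × Fin b) n)) :=
    { carrier := {R | ∀ x ∈ (LinearMap.ker p₁)ᗮ, R x ∈ (LinearMap.ker p₁)ᗮ ∧ φ (R x) = R (φ x)}
      mul_mem' := by
        intro R R' hR hR' x hx
        refine ⟨(hR _ (hR' x hx).1).1, ?_⟩
        rw [Module.End.mul_apply, Module.End.mul_apply, (hR _ (hR' x hx).1).2, (hR' x hx).2]
      add_mem' := by
        intro R R' hR hR' x hx
        refine ⟨Submodule.add_mem _ (hR x hx).1 (hR' x hx).1, ?_⟩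
        rw [LinearMap.add_apply, LinearMap.add_apply, map_add, (hR x hx).2, (hR' x hx).2]
      algebraMap_mem' := by
        intro c x hx
        refine ⟨Submodule.smul_mem _ c hx, ?_⟩
        rw [Module.algebraMap_end_apply, Module.algebraMap_end_apply, map_smul] }
  have hS : ∀ M : Matrix (Fin n) (Fin n) ℂ,
      Matrix.toEuclideanLin (kr fun _ : Fin a × Fin b => M) ∈ S :=
    kr_const_mem S fun c d x hx => ⟨hW₁ c d x hx, hφ₃ c d x hx⟩
  have hinj : ∀ {Z : Type _} [AddCommGroup Z] [Module ℂ Z] (p : TT (Fin a × Fin b) n →ₗ[ℂ] Z),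
      ∀ x ∈ (LinearMap.ker p)ᗮ, p x = 0 → x = 0 := by
    intro Z _ _ p x hx h0
    exact inner_self_eq_zero.mp (Submodule.inner_right_of_mem_orthogonal
      (LinearMap.mem_ker.mpr h0) hx)
  have hbij : Function.Bijective (p₁.domRestrict (LinearMap.ker p₁)ᗮ) := by
    constructor
    · rw [injective_iff_map_eq_zero]
      intro x hx
      exact Subtype.ext (hinj p₁ x x.2 hx)
    · intro y
      obtain ⟨x, rfl⟩ := hs₁ y
      obtain ⟨u, hu, v, hv, rfl⟩ := (LinearMap.ker p₁).exists_add_mem_mem_orthogonal x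
      exact ⟨⟨v, hv⟩, by simp [LinearMap.mem_ker.mp hu]⟩
  let s := (LinearEquiv.ofBijective _ hbij).symm
  have hs : ∀ y, p₁ (s y) = y := fun y => (LinearEquiv.ofBijective _ hbij).apply_symm_apply y
  refine ⟨p₂ ∘ₗ φ ∘ₗ (LinearMap.ker p₁)ᗮ.subtype ∘ₗ s.toLinearMap, ?_, ?_⟩
  · rw [injective_iff_map_eq_zero]
    intro y hy
    have h1 : φ (s y) = 0 := hinj p₂ _ (hφ₁ _ (s y).2) hy
    rw [← hs y, hφ₂ _ (s y).2 h1, map_zero]
  · intro g y
    obtain ⟨h1, h2⟩ := hS (LinearMap.toMatrix e e g.toLinearMap) (s y) (s y).2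
    have h3 : (s (ρ₁ g y) : TT (Fin a × Fin b) n) = Matrix.toEuclideanLin
        (kr fun _ : Fin a × Fin b => LinearMap.toMatrix e e g.toLinearMap) (s y) := by
      rw [← sub_eq_zero]
      refine hinj p₁ _ (Submodule.sub_mem _ (s _).2 h1) ?_
      rw [map_sub, hs, hg₁ g.toLinearMap (ρ₁ g) (h₁ g), hs, sub_self]
    change p₂ (φ (s (ρ₁ g y))) = ρ₂ g (p₂ (φ (s y)))
    rw [h3, h2, hg₂ g.toLinearMap (ρ₂ g) (h₂ g)]

end Vale.Agent.P181
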