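import Vale.Agent.P181.Eng

/-!
Bounds, the Pieri rule on packed tables, and the final comparison.
-/

namespace Vale.Agent.P181.K

noncomputable section

def allN (f : Nat → Bool) (n : Nat) : Bool :=
  @Nat.rec (fun _ => Bool) true (fun i ih => @Bool.rec (fun _ => Bool) false (f i) ih) n

def len {α : Type} (L : List α) : Nat :=
  @List.rec α (fun _ => Nat) 0 (fun _ _ ih => Nat.add ih 1) L

def get3 (dat : Dat) (d6 d5 d4 : Nat) : List Nat := nth [] (nth [] (nth [] dat d6) d5) d4

/-! ### Bounds -/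

/-- all the lanes of all the rows are at most `X`, and all the rows are there -/
def fullRows (Y H n e : Nat) (rows : List Nat) : Bool :=
  @Bool.rec (fun _ => Bool) true
    (and (Nat.blt n (Nat.add e (Nat.mul 3 (len rows))))
      (allL (fun _ row => Nat.beq (Nat.land (Nat.add row Y) H) 0) rows 0))
    (Nat.ble e n)

def cut (p i n : Nat) : Nat := @Bool.rec (fun _ => Nat) 1 (Nat.add n 1) (Nat.ble i p)

/-- the table of level `p` and degree `n` is complete and bounded by `X` -/
def fullChk (p n X : Nat) (dat : Dat) : Bool :=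
  and (and (Nat.blt X 549755813887) (Nat.blt n 160))
    (frc (rep 40 (Nat.sub 549755813887 X) 80) fun Y => frc (rep 40 549755813888 80) fun H =>
      allN (fun d6 => allN (fun d5 => allN (fun d4 =>
        fullRows Y H n (Nat.add (Nat.add (Nat.mul 4 d4) (Nat.mul 5 d5)) (Nat.mul 6 d6))
          (get3 dat d6 d5 d4))
        (cut p 4 (Nat.div n 4))) (cut p 5 (Nat.div n 5))) (cut p 6 (Nat.div n 6)))

def c5 (q : Nat) : Nat := (q + 1) * (q + 2) * (q + 3) * (q + 4) * (q + 5) / 120

def c4 (q : Nat) : Nat := (q + 1) * (q + 2) * (q + 3) * (q + 4) / 24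

def sumTo (B : List Nat) (p : Nat) : Nat :=
  @Nat.rec (fun _ => Nat) 0 (fun i acc => Nat.add acc (nth 0 B i)) p

/-- the a priori bound for level `p` -/
def apri (q : Nat) (B : List Nat) (p : Nat) : Nat := Nat.div (Nat.mul (c5 q) (sumTo B p)) p

def isNil {α : Type} (L : List α) : Bool := @List.rec α (fun _ => Bool) true (fun _ _ _ => false) L

/-- the side conditions for level `p`, the bounds up to level `m` being known -/
def chkB1 (w S q m : Nat) (B : List Nat) (p : Nat) (dat : Dat) : Bool :=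
  and
    (or (isNil dat) (and (Nat.ble (Nat.add (Nat.mul p q) 6) S)
      (Nat.blt (@Bool.rec (fun _ => Nat) (apri q B p) (nth 0 B p) (Nat.ble p m))
        (pw (Nat.sub w 1)))))
    (or (Nat.ble p m) (or (Nat.ble (apri q B p) (nth 0 B p))
      (fullChk p (Nat.mul p q) (nth 0 B p) dat)))

def chkB (w S q m : Nat) (R B : List Nat) (dats : List Dat) : Bool :=
  and (and (and (Nat.ble 1 w) (Nat.ble (len dats) 26))
      (allN (fun i => Nat.ble (nth 0 R (Nat.add i 1)) (nth 0 R i)) (len R)))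
    (allL (chkB1 w S q m B) dats 0)

/-! ### The Pieri rule -/

structure Fn where
  run : Nat → Nat

def ay (a : Nat → Nat → Nat) (l5 d5 t : Nat) : Fn :=
  @Bool.rec (fun _ => Fn) ⟨fun _ => 0⟩
    (frc (Nat.sub l5 (Nat.add t 1)) fun y => ⟨fun x => Nat.mod (a y x) 0⟩) (Nat.blt t d5)

def g4B (a : Nat → Nat → Nat) (l5 x : Nat) : Nat := Nat.mod (a l5 x) 0

def g4S (a : Nat → Nat → Nat) (sh l5 d5 t : Nat) (ih : Nat → Nat) (x : Nat) : Nat :=
  @Bool.rec (fun _ => Nat) ((ay a l5 d5 t).1 x)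
    (@Nat.rec (fun _ => Nat) 0
      (fun x' _ => add0 ((ay a l5 d5 t).1 x) (Nat.shiftRight (ih x') sh)) x)
    (Nat.blt l5 x)

/-- the valid lanes -/
def vm (sh c : Nat) : Nat :=
  asm sh (fun r => msk (Nat.mul 40 (Nat.add (Nat.div (Nat.sub c (Nat.mul 3 r)) 2) 1)))
    (Nat.add (Nat.div c 3) 1)

def vm' (sh c m : Nat) : Nat := frc (Nat.sub c m) fun c' => Nat.mod (vm sh c') 0

def pl2 (ih : Nat → Nat → Nat → Nat) (x3 acc x2 : Nat) : Nat := ih x3 x2 (Nat.add x2 acc)

def pl3 (V : Nat) (ih : Nat → Nat → Nat → Nat) (x2 acc x3 : Nat) : Nat :=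
  pl2 ih x3 acc (Nat.land (Nat.add x3 (Nat.shiftLeft x2 40)) V)

def plS (G : Nat → Nat → Nat) (V : Nat → Nat) (M s1 q x m : Nat) (ih : Nat → Nat → Nat → Nat)
    (x3 x2 acc : Nat) : Nat :=
  frc (Nat.sub q m) fun t =>
    pl3 (V m) ih x2 acc (Nat.add (G t x) (Nat.shiftLeft (Nat.land x3 M) s1))

def plB (_ _ acc : Nat) : Nat := Nat.mod acc 0

def g4 (a : Nat → Nat → Nat) (sh l5 d5 : Nat) : Nat → Nat → Nat :=
  @Nat.rec (fun _ => Nat → Nat) (g4B a l5) (g4S a sh l5 d5)

/-- the product with `h_q` of a table `a` of shapes of degree `n - q` with at most five rows;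
`sh` is the length in bits of a row, `s1 = sh - 40` and `M` masks the first lane of each row -/
def pieri (a : Nat → Nat → Nat) (sh s1 M q n l6 l5 l4 : Nat) : Nat :=
  @Bool.rec (fun _ => Nat) 0
    (frc (Nat.sub n (Nat.add (Nat.add (Nat.mul 4 l4) l5) l6)) fun c =>
      frc (Nat.sub q l6) fun q' => frc (Nat.sub l5 l6) fun d5 =>
        @Nat.rec (fun _ => Nat → Nat → Nat → Nat) plB
          (plS (@Nat.rec (fun _ => Nat → Nat) (g4B a l5) (g4S a sh l5 d5)) (vm' sh c) M s1 q' l4)
          (Nat.add (mn q' c) 1) 0 0 0)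
    (and (Nat.ble (Nat.add (Nat.add (Nat.mul 4 l4) l5) l6) n) (Nat.ble l6 q))

/-- a list of rows as one number -/
def vec (sh : Nat) (rows : List Nat) : Nat :=
  @List.rec Nat (fun _ => Nat) 0 (fun x _ ih => Nat.add x (Nat.shiftLeft ih sh)) rows

def a4 (sh : Nat) (f : Dat) (y x : Nat) : Nat :=
  @Bool.rec (fun _ => Nat) 0 (vec sh (get3 f 0 0 x)) (Nat.beq y 0)

/-- the table of `h_4[h_b] h_b h_b` -/
def u4 (sh s1 M b n5 n6 : Nat) (f : Dat) : Nat → Nat → Nat → Nat :=
  pieri (pieri (a4 sh f) sh s1 M b n5 0) sh s1 M b n6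

/-! ### The comparison -/

def dg40 (x i : Nat) : Nat := Nat.mod (Nat.shiftRight x (Nat.mul 40 i)) 1099511627776

def fld (h i : Nat) : Nat := Nat.mod (Nat.shiftRight h i) 256

/-- the shape coded in the hint has positive multiplicity -/
def muok (Src : List (List Dat)) (h : Nat) : Bool :=
  frc (fld h 0) fun b1 => frc (fld h 8) fun m6 => frc (fld h 16) fun m5 => frc (fld h 24) fun m4 =>
    frc (fld h 32) fun m3 =>
      and (Nat.ble b1 100)
        (Nat.blt 0 (dg40 (nth 0 (get3 (nth [] (nth [] Src 0) b1) m6 m5 m4) m3) (fld h 40)))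

def muoff (sh h : Nat) : Nat := Nat.add (Nat.mul 40 (fld h 40)) (Nat.mul sh (fld h 32))

/-- the source vector with a given code -/
def sv (Src : List (List Dat)) (sh k : Nat) : Nat :=
  frc (fld k 0) fun b0 => frc (fld k 8) fun a6 => frc (fld k 16) fun a5 => frc (fld k 24) fun a4 =>
    frc (Nat.shiftRight k 32) fun id =>
      @Bool.rec (fun _ => Nat) 0 (vec sh (get3 (nth [] (nth [] Src id) b0) a6 a5 a4))
        (Nat.ble b0 100)

def svm (Src : List (List Dat)) (sh k : Nat) : Nat := Nat.mod (sv Src sh k) 0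

def hstep (Src : List (List Dat)) (sh tc HU h : Nat) (_ : List Nat) (acc : Nat) : Nat :=
  @Bool.rec (fun _ => Nat) acc
    (Nat.lor (Nat.add (Nat.shiftLeft
      (frc (Nat.add (Nat.sub tc (Nat.mod h 4294967296))
        (Nat.mul (Nat.shiftRight h 48) 4294967296)) (svm Src sh)) (muoff sh h)) HU) acc)
    (and (muok Src h) (Nat.ble (Nat.mod h 4294967296) tc))

def cmp2 (Src : List (List Dat)) (sh tc H HU : Nat) (hs : List Nat) : Bool :=
  Nat.beq (Nat.land (@List.rec Nat (fun _ => Nat) HU (hstep Src sh tc HU) hs) H) H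

def cmp1 (Src : List (List Dat)) (sh tc L U : Nat) (hs : List Nat) : Bool :=
  and (Nat.beq (Nat.land U (rep 40 824633720832 L)) 0)
    (cmp2 Src sh tc (rep 40 549755813888 L) (Nat.sub (rep 40 549755813888 L) U) hs)

/-- exact rows where they are known, the upper bound elsewhere -/
def ub (sh R U : Nat) (rows : List Nat) : Nat :=
  @Bool.rec (fun _ => Nat)
    (@Bool.rec (fun _ => Nat)
      (Nat.add (vec sh rows)
        (Nat.shiftLeft (Nat.shiftRight U (Nat.mul sh (len rows))) (Nat.mul sh (len rows))))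
      (vec sh rows) (Nat.ble R (len rows)))
    (Nat.mod U 0) (isNil rows)

def chkIdx (Src : List (List Dat)) (S sh b n : Nat) (U : Nat → Nat → Nat → Nat) (c1 : Dat)
    (d6 d5 d4 : Nat) (hs : List Nat) : Bool :=
  frc (Nat.add d5 d6) fun l5 => frc (Nat.add d4 l5) fun l4 =>
    @Bool.rec (fun _ => Bool) true
      (frc (Nat.add (Nat.div (Nat.sub n (Nat.add (Nat.add (Nat.mul 4 l4) l5) d6)) 3) 1) fun R =>
        frc (Nat.mul S R) fun L =>
          frc (Nat.add (Nat.add (Nat.add b (Nat.mul 256 d6)) (Nat.mul 65536 d5))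
              (Nat.mul 16777216 d4)) fun tc =>
            cmp1 Src sh tc L (ub sh R (U d6 l5 l4) (get3 c1 d6 d5 d4)) hs)
      (Nat.ble (Nat.add (Nat.add (Nat.mul 4 l4) l5) d6) n)

def chk6 (f : Nat → Nat → Nat → List Nat → Bool) (n d6 : Nat) (x : List (List (List Nat))) : Bool :=
  and (Nat.blt n (Nat.add (Nat.mul 6 d6) (Nat.mul 5 (len x))))
    (allL (fun d5 y =>
      and (Nat.blt n (Nat.add (Nat.add (Nat.mul 6 d6) (Nat.mul 5 d5)) (Nat.mul 4 (len y))))
        (allL (f d6 d5) y 0)) x 0)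

/-- the comparison at level `b` for the shapes whose last row is in `[lo, lo + len hints)` -/
def chkLev (Src : List (List Dat)) (b : Nat) (f c1 : Dat) (lo : Nat) (hints : Dat) : Bool :=
  frc (Nat.add (Nat.mul 3 b) 2) fun S => frc (Nat.mul 40 S) fun sh => frc (Nat.sub sh 40) fun s1 =>
    frc (Nat.mul 5 b) fun n5 => frc (Nat.mul 6 b) fun n =>
      allL (chk6 (chkIdx Src S sh b n
        (u4 sh s1 (rep sh (Nat.sub (msk sh) (msk 40)) (Nat.add (Nat.mul 2 b) 1)) b n5 n f) c1) n)
        hints lo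

end

end Vale.Agent.P181.K
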