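import Mathlib
import Vale.Agent.P181.Defs

/-!
Symmetric polynomial facts: plethysm recurrence, counting, antisymmetry, the Pieri rule.
-/

namespace Vale.Agent.P181

open MvPolynomial

section General

variable {σ : Type*} [Fintype σ] [DecidableEq σ]

omit [Fintype σ] in
theorem prod_map_X_eq (s : Multiset σ) :
    (s.map (X : σ → MvPolynomial σ ℤ)).prod = monomial (Multiset.toFinsupp s) 1 := by
  induction s using Multiset.induction_on with
  | empty => simp
  | cons a s ih =>
    rw [Multiset.map_cons, Multiset.prod_cons, ih, ← Multiset.singleton_add, map_add,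
      Multiset.toFinsupp_singleton, X, monomial_mul, one_mul]

theorem mem_antidiag_univ {p : ℕ} {M : σ →₀ ℕ} :
    M ∈ Finset.finsuppAntidiag (Finset.univ : Finset σ) p ↔ M.degree = p := by
  rw [Finset.mem_finsuppAntidiag, Finsupp.degree_eq_sum]
  simp

omit [Fintype σ] in
theorem degree_toFinsupp (s : Multiset σ) : (Multiset.toFinsupp s).degree = s.card := by
  induction s using Multiset.induction_on with
  | empty => simp
  | cons a s ih =>
    rw [← Multiset.singleton_add, map_add, map_add, ih, Multiset.toFinsupp_singleton]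
    simp [add_comm]

theorem hsymm_eq_sum (p : ℕ) :
    hsymm σ ℤ p = ∑ M ∈ Finset.finsuppAntidiag (Finset.univ : Finset σ) p, monomial M 1 := by
  rw [hsymm]
  refine Finset.sum_bij (fun s _ => Multiset.toFinsupp s.1) ?_ ?_ ?_ ?_
  · intro s _
    rw [mem_antidiag_univ, degree_toFinsupp, s.2]
  · intro s _ t _ h
    exact Subtype.ext (Multiset.toFinsupp.injective h)
  · intro M hM
    rw [mem_antidiag_univ] at hM
    refine ⟨⟨Multiset.toFinsupp.symm M, ?_⟩, Finset.mem_univ _, ?_⟩
    · rw [← degree_toFinsupp, AddEquiv.apply_symm_apply, hM]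
    · exact AddEquiv.apply_symm_apply _ _
  · intro s _
    exact prod_map_X_eq _

theorem coeff_hsymm (p : ℕ) (ν : σ →₀ ℕ) :
    coeff ν (hsymm σ ℤ p) = if ν.degree = p then 1 else 0 := by
  rw [hsymm_eq_sum, coeff_sum]
  simp only [coeff_monomial]
  rw [Finset.sum_ite_eq']
  simp only [mem_antidiag_univ]

theorem hsymm_isHomogeneous (p : ℕ) : (hsymm σ ℤ p).IsHomogeneous p := by
  rw [hsymm_eq_sum]
  refine IsHomogeneous.sum _ _ _ fun M hM => ?_
  exact isHomogeneous_monomial _ (mem_antidiag_univ.1 hM)

theorem newton_hsymm (p : ℕ) :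
    (p : MvPolynomial σ ℤ) * hsymm σ ℤ p
      = ∑ k ∈ Finset.range p, psum σ ℤ (k + 1) * hsymm σ ℤ (p - 1 - k) := by
  ext M
  have h1 : (p : MvPolynomial σ ℤ) = C (p : ℤ) := by simp
  rw [h1, coeff_C_mul, coeff_hsymm, coeff_sum]
  have h2 : ∀ k ∈ Finset.range p, coeff M (psum σ ℤ (k + 1) * hsymm σ ℤ (p - 1 - k))
      = ∑ i, if M.degree = p then (if k < M i then (1 : ℤ) else 0) else 0 := by
    intro k hk
    rw [Finset.mem_range] at hk
    rw [psum, Finset.sum_mul, coeff_sum]
    refine Finset.sum_congr rfl fun i _ => ?_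
    rw [X_pow_eq_monomial, coeff_monomial_mul', one_mul, coeff_hsymm]
    by_cases hi : k < M i
    · have hle : Finsupp.single i (k + 1) ≤ M := Finsupp.single_le_iff.2 hi
      have hd : (M - Finsupp.single i (k + 1)).degree + (k + 1) = M.degree := by
        conv_rhs => rw [← tsub_add_cancel_of_le hle]
        rw [map_add, Finsupp.degree_single]
      rw [if_pos hle, if_pos hi]
      by_cases hM : M.degree = p
      · rw [if_pos hM, if_pos (by omega)]
      · rw [if_neg hM, if_neg (by omega)]
    · have hle : ¬ Finsupp.single i (k + 1) ≤ M := fun h => hi (Finsupp.single_le_iff.1 h)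
      rw [if_neg hle, if_neg hi, ite_self]
  rw [Finset.sum_congr rfl h2]
  by_cases hM : M.degree = p
  · simp only [hM, if_true, mul_one]
    rw [Finset.sum_comm]
    have h3 : ∀ i, ∑ k ∈ Finset.range p, (if k < M i then (1 : ℤ) else 0) = M i := by
      intro i
      have hi : M i ≤ p := hM ▸ Finsupp.le_degree i M
      rw [Finset.sum_boole]
      have : (Finset.range p).filter (fun k => k < M i) = Finset.range (M i) := by
        ext k
        simp only [Finset.mem_filter, Finset.mem_range]
        omega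
      rw [this, Finset.card_range]
    simp only [h3]
    rw [← hM, Finsupp.degree_eq_sum]
    push_cast
    rfl
  · simp [hM]

end General

section Blocks

variable {α β : Type*} [DecidableEq α] [DecidableEq β]

omit [DecidableEq α] [DecidableEq β] in
theorem le_mapDomain_apply (κ : α → β) (M : α →₀ ℕ) (a : α) : M a ≤ M.mapDomain κ (κ a) := by
  by_cases ha : a ∈ M.support
  · rw [Finsupp.mapDomain, Finsupp.sum_apply, Finsupp.sum]
    have := Finset.single_le_sum (f := fun a' => (Finsupp.single (κ a') (M a') : β →₀ ℕ) (κ a))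
      (fun _ _ => Nat.zero_le _) ha
    simpa using this
  · rw [Finsupp.notMem_support_iff.1 ha]
    exact Nat.zero_le _

omit [DecidableEq α] [DecidableEq β] in
theorem mapDomain_eq_single (κ : α → β) (M : α →₀ ℕ) (b : β) (h : ∀ a ∈ M.support, κ a = b) :
    M.mapDomain κ = Finsupp.single b (M.sum fun _ c => c) := by
  rw [Finsupp.mapDomain, Finsupp.sum, Finsupp.sum, Finsupp.single_finsetSum]
  exact Finset.sum_congr rfl fun a ha => by rw [h a ha]

theorem exists_block_sum {R : Type*} [CommSemiring R] (κ : α → β) (good : α → Prop)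
    (T : β → Finset α) (hT : ∀ a b, a ∈ T b ↔ κ a = b ∧ good a) (x : α → R) (s : β →₀ ℕ) :
    ∃ F : Finset (α →₀ ℕ), (∀ M, M ∈ F ↔ M.mapDomain κ = s ∧ ∀ a ∈ M.support, good a) ∧
      (s.prod fun b p => ∑ M ∈ (T b).finsuppAntidiag p, M.prod fun a c => x a ^ c)
        = ∑ M ∈ F, M.prod fun a c => x a ^ c := by
  induction s using Finsupp.induction with
  | zero =>
    refine ⟨{0}, fun M => ?_, by simp⟩
    rw [Finset.mem_singleton]
    constructor
    · rintro rfl
      simp
    · rintro ⟨h, -⟩
      ext a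
      have := le_mapDomain_apply κ M a
      rw [h] at this
      simpa using this
  | single_add b p s hb hp ih =>
    obtain ⟨F, hF, hsum⟩ := ih
    have hsb : s b = 0 := Finsupp.notMem_support_iff.1 hb
    have hne : ∀ M ∈ F, ∀ a, κ a = b → M a = 0 := by
      intro M hM a ha
      have := le_mapDomain_apply κ M a
      rw [((hF M).1 hM).1, ha, hsb] at this
      omega
    have hz : ∀ M ∈ (T b).finsuppAntidiag p, ∀ a, κ a ≠ b → M a = 0 := by
      intro M hM a ha
      by_contra h
      exact ha ((hT a b).1 ((Finset.mem_finsuppAntidiag.1 hM).2 (Finsupp.mem_support_iff.2 h))).1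
    have hinj : Set.InjOn (fun y : (α →₀ ℕ) × (α →₀ ℕ) => y.1 + y.2)
        (((T b).finsuppAntidiag p ×ˢ F : Finset _) : Set _) := by
      rintro ⟨M₁, M₂⟩ h ⟨N₁, N₂⟩ h' he
      rw [Finset.mem_coe, Finset.mem_product] at h h'
      have he' : ∀ a, M₁ a + M₂ a = N₁ a + N₂ a := fun a => DFunLike.congr_fun he a
      have : ∀ a, M₁ a = N₁ a ∧ M₂ a = N₂ a := by
        intro a
        have e := he' a
        by_cases ha : κ a = b
        · have e1 : M₂ a = 0 := hne _ h.2 a ha
          have e2 : N₂ a = 0 := hne _ h'.2 a ha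
          omega
        · have e1 : M₁ a = 0 := hz _ h.1 a ha
          have e2 : N₁ a = 0 := hz _ h'.1 a ha
          omega
      exact Prod.ext (Finsupp.ext fun a => (this a).1) (Finsupp.ext fun a => (this a).2)
    refine ⟨((T b).finsuppAntidiag p ×ˢ F).image (fun y => y.1 + y.2), fun M => ?_, ?_⟩
    · rw [Finset.mem_image]
      constructor
      · rintro ⟨⟨M₁, M₂⟩, h, rfl⟩
        rw [Finset.mem_product] at h
        obtain ⟨h₁, h₂⟩ := h
        obtain ⟨h11, h12⟩ := Finset.mem_finsuppAntidiag'.1 h₁
        obtain ⟨h21, h22⟩ := (hF _).1 h₂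
        refine ⟨?_, fun a ha => ?_⟩
        · rw [Finsupp.mapDomain_add, h21,
            mapDomain_eq_single κ M₁ b fun a ha => ((hT a b).1 (h12 ha)).1, h11]
        · rcases Finset.mem_union.1 (Finsupp.support_add ha) with h | h
          · exact ((hT a b).1 (h12 h)).2
          · exact h22 a h
      · rintro ⟨h, hg⟩
        have hsplit : M.filter (fun a => κ a = b) + M.filter (fun a => ¬ κ a = b) = M :=
          Finsupp.filter_add_filter_not _ _
        have h1 : (M.filter (fun a => κ a = b)).mapDomain κ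
            = Finsupp.single b ((M.filter (fun a => κ a = b)).sum fun _ c => c) :=
          mapDomain_eq_single κ _ b fun a ha => by
            rw [Finsupp.support_filter, Finset.mem_filter] at ha
            exact ha.2
        have h2 : (M.filter (fun a => ¬ κ a = b)).mapDomain κ b = 0 := by
          by_contra hc
          have := Finsupp.mapDomain_support (Finsupp.mem_support_iff.2 hc)
          obtain ⟨a, ha, hab⟩ := Finset.mem_image.1 this
          rw [Finsupp.support_filter, Finset.mem_filter] at ha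
          exact ha.2 hab
        have h3 : Finsupp.single b ((M.filter (fun a => κ a = b)).sum fun _ c => c)
            + (M.filter (fun a => ¬ κ a = b)).mapDomain κ = Finsupp.single b p + s := by
          rw [← h1, ← Finsupp.mapDomain_add, hsplit, h]
        have h4 : ((M.filter (fun a => κ a = b)).sum fun _ c => c) = p := by
          have := DFunLike.congr_fun h3 b
          simpa [h2, hsb] using this
        rw [h4] at h3
        refine ⟨(M.filter (fun a => κ a = b), M.filter (fun a => ¬ κ a = b)), ?_, hsplit⟩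
        rw [Finset.mem_product]
        refine ⟨Finset.mem_finsuppAntidiag'.2 ⟨h4, fun a ha => ?_⟩,
          (hF _).2 ⟨add_left_cancel h3, fun a ha => ?_⟩⟩
        · rw [Finsupp.support_filter, Finset.mem_filter] at ha
          exact (hT a b).2 ⟨ha.2, hg a ha.1⟩
        · rw [Finsupp.support_filter, Finset.mem_filter] at ha
          exact hg a ha.1
    · rw [Finsupp.prod_add_index_of_disjoint, Finsupp.prod_single_index, hsum,
        Finset.sum_image hinj, Finset.sum_product, Finset.sum_mul_sum]
      · refine Finset.sum_congr rfl fun M₁ _ => Finset.sum_congr rfl fun M₂ _ => ?_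
        rw [Finsupp.prod_add_index']
        · simp
        · intro a c d
          rw [pow_add]
      · simp
      · rw [Finsupp.support_single _ hp]
        simpa using hsb

theorem sum_antidiag_map {σ R : Type*} [Fintype σ] [DecidableEq σ] [AddCommMonoid R]
    (e : σ ↪ α) (p : ℕ) (G : (α →₀ ℕ) → R) :
    ∑ M ∈ (Finset.univ.map e).finsuppAntidiag p, G M
      = ∑ M ∈ (Finset.univ : Finset σ).finsuppAntidiag p, G (M.mapDomain e) := by
  symm
  refine Finset.sum_bij (fun M _ => M.mapDomain e) ?_ ?_ ?_ ?_
  · intro M hM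
    rw [Finset.mem_finsuppAntidiag'] at hM ⊢
    refine ⟨?_, fun a ha => ?_⟩
    · rw [Finsupp.sum_mapDomain_index (fun _ => rfl) (fun _ _ _ => rfl), hM.1]
    · obtain ⟨i, -, rfl⟩ := Finset.mem_image.1 (Finsupp.mapDomain_support ha)
      simp
  · intro M _ N _ h
    exact Finsupp.mapDomain_injective e.injective h
  · intro M hM
    rw [Finset.mem_finsuppAntidiag'] at hM
    have hr : (M.support : Set α) ⊆ Set.range e := by
      intro a ha
      obtain ⟨i, -, rfl⟩ := Finset.mem_map.1 (hM.2 ha)
      exact ⟨i, rfl⟩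
    have hm := Finsupp.mapDomain_comapDomain e e.injective M hr
    refine ⟨M.comapDomain e e.injective.injOn, ?_, hm⟩
    rw [Finset.mem_finsuppAntidiag']
    refine ⟨?_, Finset.subset_univ _⟩
    rw [← hM.1]
    conv_rhs => rw [← hm]
    rw [Finsupp.sum_mapDomain_index (fun _ => rfl) (fun _ _ _ => rfl)]
  · intro M _
    rfl

end Blocks

variable {n : ℕ}

theorem coeff_HH (q : ℕ) (ν : Fin n →₀ ℕ) : coeff ν (HH n q) = if ν.degree = q then 1 else 0 :=
  coeff_hsymm q ν

theorem GG_zero (q : ℕ) : GG n q 0 = 1 := by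
  simp [GG]

theorem GG_one (q : ℕ) : GG n q 1 = HH n q := by
  rw [GG, hsymm_one, map_sum]
  simp only [aeval_X]
  rfl

theorem expand_prod_map_X (k : ℕ) (s : Multiset (Fin n)) :
    expand k (s.map (X : Fin n → MvPolynomial (Fin n) ℤ)).prod
      = (s.map (X : Fin n → MvPolynomial (Fin n) ℤ)).prod ^ k := by
  induction s using Multiset.induction_on with
  | empty => simp
  | cons a s ih => rw [Multiset.map_cons, Multiset.prod_cons, map_mul, ih, expand_X, mul_pow]

theorem GG_rec (q p : ℕ) :
    (p : MvPolynomial (Fin n) ℤ) * GG n q p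
      = ∑ k ∈ Finset.range p, expand (k + 1) (HH n q) * GG n q (p - 1 - k) := by
  have h := congrArg
    (aeval (fun m : Sym (Fin n) q => (m.1.map (X : Fin n → MvPolynomial (Fin n) ℤ)).prod))
    (newton_hsymm (σ := Sym (Fin n) q) p)
  rw [map_mul, map_natCast, map_sum] at h
  rw [GG, h]
  refine Finset.sum_congr rfl fun k _ => ?_
  rw [map_mul, GG]
  congr 1
  rw [psum, map_sum, HH, hsymm, map_sum]
  refine Finset.sum_congr rfl fun m _ => ?_
  rw [map_pow, aeval_X, expand_prod_map_X]

theorem GG_isSymmetric (q p : ℕ) : (GG n q p).IsSymmetric := by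
  intro e
  rw [GG]
  conv_rhs => rw [← rename_hsymm (Sym (Fin n) q) ℤ p (Sym.equivCongr e)]
  rw [aeval_rename, ← AlgHom.comp_apply, comp_aeval]
  congr 2
  funext m
  rw [← Multiset.prod_hom']
  simp [Sym.equivCongr, Multiset.map_map]

theorem GG_isHomogeneous (q p : ℕ) : (GG n q p).IsHomogeneous (p * q) := by
  rw [GG, mul_comm]
  refine IsHomogeneous.aeval (hsymm_isHomogeneous p) _ fun m => ?_
  rw [prod_map_X_eq]
  exact isHomogeneous_monomial _ (by rw [degree_toFinsupp, m.2])

/-- restriction of a monomial to the first `n` variables -/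
noncomputable def resMon (n : ℕ) : Mon →+ (Fin n →₀ ℕ) :=
  Finsupp.comapDomain.addMonoidHom Fin.val_injective

theorem resMon_apply (ν : Mon) (i : Fin n) : resMon n ν i = ν i := rfl

theorem toMon_apply (μ : Fin n →₀ ℕ) (i : Fin n) : toMon μ i = μ i :=
  Finsupp.mapDomain_apply Fin.val_injective μ i

theorem resMon_toMon (μ : Fin n →₀ ℕ) : resMon n (toMon μ) = μ := by
  ext i
  rw [resMon_apply, toMon_apply]

theorem toMon_apply_of_le (μ : Fin n →₀ ℕ) {i : ℕ} (hi : n ≤ i) : toMon μ i = 0 := by
  refine Finsupp.mapDomain_of_notMem_range _ _ ?_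
  rintro ⟨j, rfl⟩
  exact absurd j.2 (not_lt.2 hi)

theorem toMon_resMon (ν : Mon) (h : ∀ i, n ≤ i → ν i = 0) : toMon (resMon n ν) = ν := by
  ext i
  rcases lt_or_ge i n with hi | hi
  · exact toMon_apply _ ⟨i, hi⟩
  · rw [toMon_apply_of_le _ hi, h i hi]

theorem degree_toMon (μ : Fin n →₀ ℕ) : (toMon μ).degree = μ.degree :=
  Finsupp.degree_mapDomain _ _

/-- the variables with label `k` and degree `q` -/
noncomputable def blockEmb (n k q : ℕ) : Sym (Fin n) q ↪ ℕ × Mon where
  toFun m := (k, toMon (Multiset.toFinsupp m.1))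
  inj' := by
    intro m m' h
    have h2 : toMon (Multiset.toFinsupp m.1) = toMon (Multiset.toFinsupp m'.1) :=
      congrArg Prod.snd h
    have h3 := congrArg (resMon n) h2
    rw [resMon_toMon, resMon_toMon] at h3
    exact Subtype.ext (Multiset.toFinsupp.injective h3)

theorem blockEmb_apply (k q : ℕ) (m : Sym (Fin n) q) :
    blockEmb n k q m = (k, toMon (Multiset.toFinsupp m.1)) := rfl

theorem mem_block (a : ℕ × Mon) (b : ℕ × ℕ) :
    a ∈ Finset.univ.map (blockEmb n b.1 b.2)
      ↔ (a.1, a.2.degree) = b ∧ ∀ i, n ≤ i → a.2 i = 0 := by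
  rw [Finset.mem_map]
  constructor
  · rintro ⟨m, -, rfl⟩
    rw [blockEmb_apply]
    refine ⟨?_, fun i hi => toMon_apply_of_le _ hi⟩
    simp only
    rw [degree_toMon, degree_toFinsupp, m.2]
  · rintro ⟨rfl, h⟩
    refine ⟨⟨Multiset.toFinsupp.symm (resMon n a.2), ?_⟩, Finset.mem_univ _, ?_⟩
    · rw [← degree_toFinsupp, AddEquiv.apply_symm_apply, ← degree_toMon, toMon_resMon _ h]
    · change (a.1, toMon (Multiset.toFinsupp (Multiset.toFinsupp.symm (resMon n a.2)))) = a
      rw [AddEquiv.apply_symm_apply, toMon_resMon _ h]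

theorem GG_eq_block (k q p : ℕ) :
    GG n q p = ∑ M ∈ (Finset.univ.map (blockEmb n k q)).finsuppAntidiag p,
      M.prod fun a c => (monomial (resMon n a.2) (1 : ℤ)) ^ c := by
  rw [sum_antidiag_map, GG, hsymm_eq_sum, map_sum]
  refine Finset.sum_congr rfl fun M _ => ?_
  rw [aeval_monomial, map_one, one_mul,
    Finsupp.prod_mapDomain_index (fun _ => pow_zero _) (fun _ _ _ => pow_add _ _ _)]
  refine Finsupp.prod_congr fun m _ => ?_
  rw [blockEmb_apply, resMon_toMon, prod_map_X_eq]

theorem prod_eq_monomial_wgt (M : (ℕ × Mon) →₀ ℕ) :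
    (M.prod fun a c => (monomial (resMon n a.2) (1 : ℤ)) ^ c)
      = monomial (resMon n (wgt M)) 1 := by
  rw [wgt, Finsupp.sum, map_sum, monomial_sum_one, Finsupp.prod]
  refine Finset.prod_congr rfl fun a _ => ?_
  rw [monomial_pow, one_pow, map_nsmul]

theorem le_wgt (M : (ℕ × Mon) →₀ ℕ) {a : ℕ × Mon} (ha : a ∈ M.support) (i : ℕ) :
    a.2 i ≤ wgt M i := by
  rw [wgt, Finsupp.sum_apply, Finsupp.sum]
  have h1 := Finset.single_le_sum (f := fun a' : ℕ × Mon => (M a' • a'.2) i)
    (fun _ _ => Nat.zero_le _) ha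
  refine le_trans ?_ h1
  have h2 : 0 < M a := Nat.pos_of_ne_zero (Finsupp.mem_support_iff.1 ha)
  simp only [Finsupp.smul_apply, smul_eq_mul]
  exact Nat.le_mul_of_pos_left _ h2

theorem coeff_chi (s : (ℕ × ℕ) →₀ ℕ) (μ : Fin n →₀ ℕ) :
    coeff μ (chi n s) = (Nat.card {M // shp M = s ∧ wgt M = toMon μ} : ℤ) := by
  classical
  obtain ⟨F, hF, hsum⟩ := exists_block_sum (fun v : ℕ × Mon => (v.1, v.2.degree))
    (fun a => ∀ i, n ≤ i → a.2 i = 0) (fun b => Finset.univ.map (blockEmb n b.1 b.2))
    mem_block (fun a => (monomial (resMon n a.2) (1 : ℤ))) s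
  have h1 : chi n s = ∑ M ∈ F, monomial (resMon n (wgt M)) 1 := by
    rw [chi]
    simp only [← prod_eq_monomial_wgt]
    rw [← hsum]
    exact Finsupp.prod_congr fun v _ => GG_eq_block v.1 v.2 _
  rw [h1, coeff_sum]
  simp only [coeff_monomial]
  rw [Finset.sum_boole, Nat.subtype_card (F.filter fun M => resMon n (wgt M) = μ)]
  intro M
  rw [Finset.mem_filter, hF]
  constructor
  · rintro ⟨⟨h1, h2⟩, rfl⟩
    refine ⟨h1, (toMon_resMon _ fun i hi => ?_).symm⟩
    rw [wgt, Finsupp.sum_apply, Finsupp.sum]
    refine Finset.sum_eq_zero fun a ha => ?_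
    simp [h2 a ha i hi]
  · rintro ⟨h1, h2⟩
    refine ⟨⟨h1, fun a ha i hi => ?_⟩, by rw [h2, resMon_toMon]⟩
    have := le_wgt M ha i
    rw [h2, toMon_apply_of_le _ hi] at this
    omega

theorem rho_apply (i : Fin n) : rho n i = n - 1 - i := rfl

theorem rho_strictAnti : StrictAnti (rho n) := by
  intro i j hij
  rw [rho_apply, rho_apply]
  have := j.2
  have : (i : ℕ) < j := hij
  omega

theorem vand_eq_sum : vand n = ∑ σ : Equiv.Perm (Fin n),
    ((Equiv.Perm.sign σ : ℤˣ) : ℤ) • monomial ((rho n).mapDomain σ) (1 : ℤ) := by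
  have h1 := Matrix.det_vandermonde (fun i : Fin n => (X i.rev : MvPolynomial (Fin n) ℤ))
  rw [← Matrix.det_submatrix_equiv_self Fin.revPerm, Matrix.det_apply] at h1
  have h2 : vand n = ∏ i : Fin n, ∏ j ∈ Finset.Ioi i,
      ((X j.rev : MvPolynomial (Fin n) ℤ) - X i.rev) := by
    rw [vand, Finset.prod_sigma', Finset.prod_sigma']
    refine Finset.prod_nbij' (fun x => ⟨x.2.rev, x.1.rev⟩) (fun x => ⟨x.2.rev, x.1.rev⟩)
      ?_ ?_ ?_ ?_ ?_
    · rintro ⟨i, j⟩
      simp
    · rintro ⟨i, j⟩
      simp
    · rintro ⟨i, j⟩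
      simp
    · rintro ⟨i, j⟩
      simp
    · rintro ⟨i, j⟩
      simp
  rw [h2, ← h1]
  refine Finset.sum_congr rfl fun σ _ => ?_
  rw [Units.smul_def]
  congr 1
  rw [← rename_monomial, monomial_eq, C_1, one_mul, Finsupp.prod_fintype _ _ (by simp), map_prod]
  refine Finset.prod_congr rfl fun i _ => ?_
  simp only [Matrix.submatrix_apply, Fin.revPerm_apply, Matrix.vandermonde_apply, Fin.rev_rev,
    map_pow, rename_X, rho_apply, Fin.val_rev]
  congr 1
  omega

theorem vand_antiSym : AntiSym (vand n) := by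
  intro i j hij
  have h := Equiv.Perm.prod_Ioi_comp_eq_sign_mul_prod (Equiv.swap i j)
    (f := fun a b => (X a - X b : MvPolynomial (Fin n) ℤ)) (fun a b => by ring)
  rw [Equiv.Perm.sign_swap hij] at h
  rw [vand]
  simp only [map_prod, map_sub, rename_X]
  rw [h]
  simp

theorem vand_isHomogeneous : (vand n).IsHomogeneous (rho n).degree := by
  rw [vand_eq_sum]
  refine IsHomogeneous.sum _ _ _ fun σ _ => ?_
  rw [smul_monomial]
  exact isHomogeneous_monomial _ (Finsupp.degree_mapDomain _ _)

theorem rho_le_of_strictAnti (β : Fin n →₀ ℕ) (hβ : StrictAnti β) : rho n ≤ β := by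
  have h : ∀ k, ∀ i : Fin n, (i : ℕ) + k + 1 = n → k ≤ β i := by
    intro k
    induction k with
    | zero => intro i _; exact Nat.zero_le _
    | succ k ih =>
      intro i hi
      have h1 := ih ⟨i + 1, by omega⟩ (by simp only; omega)
      have h2 : β ⟨i + 1, by omega⟩ < β i := hβ (by rw [Fin.lt_def]; simp)
      omega
  intro i
  rw [rho_apply]
  have := i.2
  exact h _ i (by omega)

theorem coeff_vand_of_strictAnti (β : Fin n →₀ ℕ) (hβ : StrictAnti β) :
    coeff β (vand n) = if β = rho n then 1 else 0 := by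
  split_ifs with h
  · subst h
    rw [vand_eq_sum, coeff_sum, Finset.sum_eq_single 1]
    · simp
    · intro σ _ hσ
      rw [coeff_smul, coeff_monomial, if_neg, smul_zero]
      intro he
      apply hσ
      ext i
      have h1 := Finsupp.mapDomain_apply σ.injective (rho n) i
      rw [he] at h1
      rw [rho_strictAnti.injective h1]
      rfl
    · simp
  · refine vand_isHomogeneous.coeff_eq_zero fun hd => h ?_
    have hle := rho_le_of_strictAnti β hβ
    have h1 : (β - rho n).degree + (rho n).degree = β.degree := by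
      rw [← map_add, tsub_add_cancel_of_le hle]
    have h2 : β - rho n = 0 := by
      rw [← Finsupp.degree_eq_zero_iff]
      omega
    exact le_antisymm (tsub_eq_zero_iff_le.1 h2) hle

theorem AntiSym.mul_isSymmetric {A F : MvPolynomial (Fin n) ℤ} (hA : AntiSym A)
    (hF : F.IsSymmetric) : AntiSym (A * F) := by
  intro i j hij
  rw [map_mul, hA i j hij, hF, neg_mul]

theorem AntiSym.coeff_swap {A : MvPolynomial (Fin n) ℤ} (hA : AntiSym A) {i j : Fin n}
    (hij : i ≠ j) (β γ : Fin n →₀ ℕ) (h : ∀ k, γ k = β (Equiv.swap i j k)) :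
    coeff γ A = -coeff β A := by
  have h1 := coeff_rename_mapDomain (Equiv.swap i j) (Equiv.swap i j).injective A β
  have h2 : β.mapDomain (Equiv.swap i j) = γ := by
    ext k
    rw [h, Finsupp.mapDomain_equiv_apply, Equiv.symm_swap]
  rw [h2, hA i j hij, coeff_neg] at h1
  rw [← h1, neg_neg]

theorem AntiSym.coeff_eq_zero {A : MvPolynomial (Fin n) ℤ} (hA : AntiSym A) {i j : Fin n}
    (hij : i ≠ j) (β : Fin n →₀ ℕ) (h : β i = β j) : coeff β A = 0 := by
  have h1 := hA.coeff_swap hij β β fun k => by
    rw [Equiv.swap_apply_def]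
    split_ifs with h1 h2
    · rw [h1, h]
    · rw [h2, h]
    · rfl
  omega

theorem AntiSym.abs_coeff_perm {A : MvPolynomial (Fin n) ℤ} (hA : AntiSym A)
    (σ : Equiv.Perm (Fin n)) :
    ∀ β γ : Fin n →₀ ℕ, (∀ k, γ k = β (σ k)) → |coeff γ A| = |coeff β A| := by
  induction σ using Equiv.Perm.swap_induction_on with
  | one =>
    intro β γ h
    rw [show γ = β from Finsupp.ext h]
  | swap_mul f x y hxy ih =>
    intro β γ h
    have h1 := ih (Finsupp.equivFunOnFinite.symm fun k => β (Equiv.swap x y k)) γ h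
    rw [h1, hA.coeff_swap hxy β _ fun _ => rfl, abs_neg]

/-- a bound in the chamber is a global bound -/
theorem AntiSym.abs_coeff_le {A : MvPolynomial (Fin n) ℤ} (hA : AntiSym A) (B : ℕ)
    (h : ∀ β : Fin n →₀ ℕ, StrictAnti β → |coeff β A| ≤ B) (β : Fin n →₀ ℕ) :
    |coeff β A| ≤ B := by
  by_cases hi : Function.Injective β
  · have hm := Tuple.monotone_sort (β : Fin n → ℕ)
    have hs : StrictMono (β ∘ Tuple.sort (β : Fin n → ℕ)) :=
      hm.strictMono_of_injective (hi.comp (Equiv.injective _))
    rw [← hA.abs_coeff_perm (Tuple.sort (β : Fin n → ℕ) * Fin.revPerm) β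
      (Finsupp.equivFunOnFinite.symm fun k => β (Tuple.sort (β : Fin n → ℕ) k.rev)) fun _ => rfl]
    refine h _ fun a b hab => ?_
    exact hs (Fin.rev_lt_rev.2 hab)
  · rw [Function.not_injective_iff] at hi
    obtain ⟨i, j, h1, h2⟩ := hi
    rw [hA.coeff_eq_zero h2 β h1]
    simp

theorem abs_coeff_expand_HH_mul_le {A : MvPolynomial (Fin n) ℤ} (B : ℕ)
    (h : ∀ β, |coeff β A| ≤ B) (k q : ℕ) (β : Fin n →₀ ℕ) :
    |coeff β (expand (k + 1) (HH n q) * A)| ≤ ((n + q - 1).choose q * B : ℕ) := by
  rw [HH, hsymm_eq_sum, map_sum, Finset.sum_mul, coeff_sum]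
  refine (Finset.abs_sum_le_sum_abs _ _).trans ?_
  refine (Finset.sum_le_card_nsmul _ _ (B : ℤ) fun M _ => ?_).trans ?_
  · rw [expand_monomial, coeff_monomial_mul']
    split_ifs
    · rw [one_mul]
      exact h _
    · simp
  · rw [Finset.card_finsuppAntidiag_nat_eq_choose]
    simp

theorem coeff_mul_HH (A : MvPolynomial (Fin n) ℤ) (q : ℕ) (β : Fin n →₀ ℕ) :
    coeff β (A * HH n q)
      = ∑ z ∈ (Finset.Iic β).filter (fun z => z.degree + q = β.degree), coeff z A := by
  rw [coeff_mul, Finset.sum_filter]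
  refine Finset.sum_nbij' (fun x => x.1) (fun z => (z, β - z)) ?_ ?_ ?_ ?_ ?_
  · rintro ⟨a, b⟩ h
    rw [Finset.HasAntidiagonal.mem_antidiagonal] at h
    rw [Finset.mem_Iic, ← h]
    exact le_self_add
  · intro z hz
    rw [Finset.mem_Iic] at hz
    rw [Finset.HasAntidiagonal.mem_antidiagonal]
    exact add_tsub_cancel_of_le hz
  · rintro ⟨a, b⟩ h
    rw [Finset.HasAntidiagonal.mem_antidiagonal] at h
    simp only at h
    simp [← h]
  · intro z _
    rfl
  · rintro ⟨a, b⟩ h
    rw [Finset.HasAntidiagonal.mem_antidiagonal] at h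
    simp only at h
    rw [coeff_HH, ← h, map_add]
    by_cases hb : b.degree = q
    · simp [hb]
    · rw [if_neg hb, if_neg (by simp only; omega), mul_zero]

/-- the Pieri rule -/
theorem AntiSym.pieri {A : MvPolynomial (Fin n) ℤ} (hA : AntiSym A) (q : ℕ) (β : Fin n →₀ ℕ)
    (hβ : StrictAnti β) :
    coeff β (A * HH n q) = ∑ z ∈ (Finset.Iic β).filter
      (fun z => z.degree + q = β.degree ∧ ∀ i j, i < j → β j < z i), coeff z A := by
  have key : ∀ m : ℕ, coeff β (A * HH n q) = ∑ z ∈ (Finset.Iic β).filter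
      (fun z => z.degree + q = β.degree ∧ ∀ i j : Fin n, (i : ℕ) < m → i < j → β j < z i),
        coeff z A := by
    intro m
    induction m with
    | zero => simpa using coeff_mul_HH A q β
    | succ m ih =>
      rw [ih]
      by_cases hm : m + 1 < n
      · set a : Fin n := ⟨m, by omega⟩ with ha
        set b : Fin n := ⟨m + 1, hm⟩ with hb
        have hab : a < b := by rw [Fin.lt_def]; simp [ha, hb]
        rw [← Finset.sum_filter_add_sum_filter_not _ (fun z : Fin n →₀ ℕ => β b < z a)]
        have hz : ∑ z ∈ ((Finset.Iic β).filter (fun z => z.degree + q = β.degree ∧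
            ∀ i j : Fin n, (i : ℕ) < m → i < j → β j < z i)).filter
              (fun z : Fin n →₀ ℕ => ¬ β b < z a), coeff z A = 0 := by
          have hc : ∀ z : Fin n →₀ ℕ,
              coeff z A + coeff (z.mapDomain (Equiv.swap a b)) A = 0 := by
            intro z
            rw [hA.coeff_swap hab.ne z (z.mapDomain (Equiv.swap a b)) fun k => by
              rw [Finsupp.mapDomain_equiv_apply, Equiv.symm_swap], add_neg_cancel]
          refine Finset.sum_involution (fun z _ => z.mapDomain (Equiv.swap a b))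
            (fun z _ => hc z) ?_ ?_ ?_
          · intro z _ h0 he
            have := hc z
            rw [he] at this
            omega
          · intro z hz
            simp only [Finset.mem_filter, Finset.mem_Iic, not_lt] at hz ⊢
            obtain ⟨⟨h1, h2, h3⟩, h4⟩ := hz
            have hap : ∀ k, z.mapDomain (Equiv.swap a b) k = z (Equiv.swap a b k) := fun k => by
              rw [Finsupp.mapDomain_equiv_apply, Equiv.symm_swap]
            refine ⟨⟨fun k => ?_, by rw [Finsupp.degree_mapDomain, h2], fun i j hi hij => ?_⟩, ?_⟩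
            · rw [hap, Equiv.swap_apply_def]
              split_ifs with e1 e2
              · rw [e1]
                exact (h1 b).trans (hβ hab).le
              · rw [e2]
                exact h4
              · exact h1 k
            · rw [hap, Equiv.swap_apply_of_ne_of_ne]
              · exact h3 i j hi hij
              · rintro rfl
                simp [ha] at hi
              · rintro rfl
                simp [hb] at hi
            · rw [hap, Equiv.swap_apply_left]
              exact h1 b
          · intro z _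
            rw [← Finsupp.mapDomain_comp]
            have : (Equiv.swap a b) ∘ (Equiv.swap a b) = id := by
              funext k
              simp
            rw [this, Finsupp.mapDomain_id]
        rw [hz, add_zero, Finset.filter_filter]
        refine Finset.sum_congr (Finset.filter_congr fun z _ => ?_) fun _ _ => rfl
        constructor
        · rintro ⟨⟨h2, h3⟩, h4⟩
          refine ⟨h2, fun i j hi hij => ?_⟩
          rcases Nat.lt_succ_iff_lt_or_eq.1 hi with hi | hi
          · exact h3 i j hi hij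
          · have e : i = a := Fin.ext hi
            have hbj : b ≤ j := by
              rw [Fin.le_def]
              have : (i : ℕ) < j := hij
              simp only [hb]
              omega
            rw [e]
            exact lt_of_le_of_lt (hβ.antitone hbj) h4
        · rintro ⟨h2, h3⟩
          exact ⟨⟨h2, fun i j hi hij => h3 i j (by omega) hij⟩, h3 a b (by simp [ha]) hab⟩
      · refine Finset.sum_congr (Finset.filter_congr fun z _ => ?_) fun _ _ => rfl
        constructor
        · rintro ⟨h2, h3⟩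
          refine ⟨h2, fun i j _ hij => h3 i j ?_ hij⟩
          have := j.2
          have : (i : ℕ) < j := hij
          omega
        · rintro ⟨h2, h3⟩
          exact ⟨h2, fun i j hi hij => h3 i j (by omega) hij⟩
  rw [key n]
  refine Finset.sum_congr (Finset.filter_congr fun z _ => ?_) fun _ _ => rfl
  constructor
  · rintro ⟨h2, h3⟩
    exact ⟨h2, fun i j hij => h3 i j i.2 hij⟩
  · rintro ⟨h2, h3⟩
    exact ⟨h2, fun i j _ hij => h3 i j hij⟩

theorem HH_pow_isSymmetric (q r : ℕ) : (HH n q ^ r).IsSymmetric := by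
  intro e
  rw [map_pow, hsymm_isSymmetric]

theorem coeff_vand_mul_pow_aux (q r : ℕ) : ∀ β : Fin n →₀ ℕ, StrictAnti β → ∀ i : Fin n,
    r ≤ i → rho n i < β i → coeff β (vand n * HH n q ^ r) = 0 := by
  induction r with
  | zero =>
    intro β hβ i _ h
    rw [pow_zero, mul_one, coeff_vand_of_strictAnti β hβ, if_neg]
    rintro rfl
    exact lt_irrefl _ h
  | succ r ih =>
    intro β hβ i hi h
    rw [pow_succ, ← mul_assoc,
      (vand_antiSym.mul_isSymmetric (HH_pow_isSymmetric q r)).pieri q β hβ]
    refine Finset.sum_eq_zero fun z hz => ?_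
    rw [Finset.mem_filter, Finset.mem_Iic] at hz
    obtain ⟨h1, -, h3⟩ := hz
    have hi2 := i.2
    refine ih z (fun a b hab => lt_of_le_of_lt (h1 b) (h3 a b hab)) ⟨i - 1, by omega⟩
      (by simp only; omega) ?_
    have h4 := h3 ⟨i - 1, by omega⟩ i (by rw [Fin.lt_def]; simp only; omega)
    rw [rho_apply] at h ⊢
    simp only
    omega

/-- a product of `r` complete homogeneous polynomials only involves shapes with `≤ r` rows -/
theorem coeff_vand_mul_pow_eq_zero (q r : ℕ) (l : Fin n →₀ ℕ) (hl : Antitone l) (i : Fin n)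
    (hi : r ≤ i) (hli : l i ≠ 0) : coeff (l + rho n) (vand n * HH n q ^ r) = 0 := by
  refine coeff_vand_mul_pow_aux q r _ (fun a b hab => ?_) i hi ?_
  · have h1 := hl hab.le
    have h2 := rho_strictAnti hab
    simp only [Finsupp.add_apply]
    omega
  · simp only [Finsupp.add_apply]
    omega

end Vale.Agent.P181
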