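import Mathlib
import Vale.Agent.P181.Unitary

/-!
Polynomial identities for the multiplicity formula.
-/

namespace Vale.Agent.P181

open MvPolynomial Finset

variable {n : ℕ}

/-- complex polynomials in `n` variables -/
abbrev PC (n : ℕ) := MvPolynomial (Fin n) ℂ

/-- the Euler operator in one variable -/
noncomputable def th (a : Fin n) : Derivation ℂ (PC n) (PC n) := (X a : PC n) • pderiv a

lemma th_apply (a : Fin n) (f : PC n) : th a f = X a * pderiv a f := rfl

lemma coeff_th (a : Fin n) (μ : Fin n →₀ ℕ) (f : PC n) :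
    coeff μ (th a f) = (μ a : ℂ) * coeff μ f := by
  induction f using MvPolynomial.induction_on' with
  | monomial m r =>
    rw [th_apply, X_mul_pderiv_monomial, coeff_smul, coeff_monomial]
    split_ifs with h
    · rw [h, nsmul_eq_mul]
    · simp
  | add f g hf hg => rw [map_add, coeff_add, coeff_add, hf, hg, mul_add]

lemma th_X (a b : Fin n) : th a (X b) = if a = b then X a else 0 := by
  rw [th_apply, pderiv_X, Pi.single_apply]
  split_ifs with h h' h'
  · rw [mul_one]
  · exact absurd h.symm h'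
  · exact absurd h'.symm h
  · rw [mul_zero]

lemma th_mul (a : Fin n) (f g : PC n) : th a (f * g) = f * th a g + g * th a f :=
  (th a).leibniz f g

/-- the sum of the squares of the Euler operators -/
noncomputable def lap (f : PC n) : PC n := ∑ a, th a (th a f)

lemma coeff_lap (μ : Fin n →₀ ℕ) (f : PC n) : coeff μ (lap f) = (ht μ μ : ℂ) * coeff μ f := by
  simp only [lap, coeff_sum, coeff_th, ht, Nat.cast_sum, Nat.cast_mul, sum_mul, mul_assoc]

lemma lap_mul (f g : PC n) :
    lap (f * g) = f * lap g + g * lap f + 2 * ∑ a, th a f * th a g := by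
  simp only [lap, th_mul, map_add, mul_sum, ← sum_add_distrib]
  exact sum_congr rfl fun a _ => by ring

lemma logder {R ι : Type*} [CommRing R] {D : R → R} (h1 : D 1 = 0)
    (hD : ∀ f g, D (f * g) = f * D g + g * D f) (s : Finset ι) (f B : ι → R)
    (h : ∀ i ∈ s, D (f i) = f i * B i) : D (∏ i ∈ s, f i) = (∏ i ∈ s, f i) * ∑ i ∈ s, B i := by
  classical
  induction s using Finset.induction_on with
  | empty => simp [h1]
  | insert a s ha ih =>
    rw [prod_insert ha, sum_insert ha, hD, ih fun i hi => h i (mem_insert_of_mem hi),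
      h a (mem_insert_self a s)]
    ring

/-- the Vandermonde product over the complex numbers -/
noncomputable def vc (n : ℕ) : PC n := ∏ i : Fin n, ∏ j ∈ Ioi i, (X i - X j)

lemma map_vand : map (Int.castRingHom ℂ) (vand n) = vc n := by
  simp [vand, vc, map_prod]

lemma vc_mul_sum (t : Fin n → PC n) (B : Fin n → Fin n → PC n)
    (h : ∀ a b, (X a - X b) * B a b = 2 * (X a * t a - X b * t b)) :
    2 * ∑ a, th a (vc n) * t a = vc n * ∑ a, ∑ b ∈ Ioi a, B a b := by
  have h1 : 2 * ∑ a, th a (1 : PC n) * t a = 0 := by simp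
  have h2 : ∀ f g : PC n, 2 * ∑ a, th a (f * g) * t a =
      f * (2 * ∑ a, th a g * t a) + g * (2 * ∑ a, th a f * t a) := fun f g => by
    simp only [th_mul, mul_sum, ← sum_add_distrib]
    exact sum_congr rfl fun a _ => by ring
  refine logder (D := fun f => 2 * ∑ a, th a f * t a) h1 h2 _ _ _ fun i _ => ?_
  refine logder (D := fun f => 2 * ∑ a, th a f * t a) h1 h2 _ _ _ fun j _ => ?_
  simp only [h, map_sub, th_X, sub_mul, ite_mul, zero_mul, sum_sub_distrib, sum_ite_eq',
    mem_univ, if_true]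

/-- `α` is the leading exponent of `f` for the height `c` -/
def Lead (c : Fin n → ℕ) (f : PC n) (α : Fin n →₀ ℕ) : Prop :=
  ∀ γ, coeff γ f ≠ 0 → γ = α ∨ ht c γ < ht c α

lemma Lead.mul {c : Fin n → ℕ} {f g : PC n} {α β : Fin n →₀ ℕ} (hf : Lead c f α)
    (hg : Lead c g β) : Lead c (f * g) (α + β) ∧ coeff (α + β) (f * g) = coeff α f * coeff β g := by
  constructor
  · intro γ h
    rw [coeff_mul] at h
    obtain ⟨x, hx, h0⟩ := exists_ne_zero_of_sum_ne_zero h
    rw [← mem_antidiagonal.1 hx, ht_add, ht_add]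
    rcases hf _ (left_ne_zero_of_mul h0) with h1 | h1 <;>
      rcases hg _ (right_ne_zero_of_mul h0) with h2 | h2
    · left; rw [h1, h2]
    · right; rw [h1]; omega
    · right; rw [h2]; omega
    · right; omega
  · rw [coeff_mul]
    refine sum_eq_single_of_mem (α, β) (mem_antidiagonal.2 rfl) fun x hx hne => ?_
    by_contra h0
    have h3 := congrArg (ht c) (mem_antidiagonal.1 hx)
    rw [ht_add, ht_add] at h3
    rcases hf _ (left_ne_zero_of_mul h0) with h1 | h1 <;>
      rcases hg _ (right_ne_zero_of_mul h0) with h2 | h2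
    · exact hne (Prod.ext h1 h2)
    · rw [h1] at h3; omega
    · rw [h2] at h3; omega
    · omega

lemma lead_prod {ι : Type*} {c : Fin n → ℕ} (s : Finset ι) (f : ι → PC n) (α : ι → Fin n →₀ ℕ)
    (h : ∀ i ∈ s, Lead c (f i) (α i) ∧ coeff (α i) (f i) = 1) :
    Lead c (∏ i ∈ s, f i) (∑ i ∈ s, α i) ∧ coeff (∑ i ∈ s, α i) (∏ i ∈ s, f i) = 1 := by
  classical
  induction s using Finset.induction_on with
  | empty =>
    refine ⟨fun γ hγ => Or.inl ?_, by simp⟩
    rw [prod_empty, coeff_one] at hγ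
    rw [sum_empty]
    by_contra h0
    exact hγ (if_neg (Ne.symm h0))
  | insert a s ha ih =>
    obtain ⟨h1, h2⟩ := ih fun i hi => h i (mem_insert_of_mem hi)
    obtain ⟨h3, h4⟩ := h a (mem_insert_self a s)
    rw [prod_insert ha, sum_insert ha]
    exact ⟨(h3.mul h1).1, by rw [(h3.mul h1).2, h2, h4, mul_one]⟩

lemma rho_apply (a : Fin n) : rho n a = n - 1 - a := rfl

lemma rho_strictAnti : StrictAnti (rho n) := fun a b hab => by
  have := b.2
  have : (a : ℕ) < b := hab
  rw [rho_apply, rho_apply]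
  omega

lemma rho_eq_sum : ∑ i : Fin n, ∑ _j ∈ Ioi i, Finsupp.single i 1 = rho n := by
  ext a
  simp only [Finsupp.finsetSum_apply, Finsupp.single_apply, Finsupp.smul_single,
    sum_ite_eq', mem_univ, if_true, sum_const, Fin.card_Ioi, smul_eq_mul, mul_one, rho_apply]

lemma lead_vc {c : Fin n → ℕ} (hc : StrictAnti c) :
    Lead c (vc n) (rho n) ∧ coeff (rho n) (vc n) = 1 := by
  rw [← rho_eq_sum]
  refine lead_prod _ _ _ fun i _ => lead_prod _ _ _ fun j hj => ?_
  have hij : i < j := mem_Ioi.1 hj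
  constructor
  · intro γ hγ
    rw [coeff_sub, coeff_X, coeff_X] at hγ
    by_cases h1 : Finsupp.single i 1 = γ
    · exact Or.inl h1.symm
    by_cases h2 : Finsupp.single j 1 = γ
    · right
      rw [← h2, ht_single, ht_single]
      exact hc hij
    · rw [if_neg h1, if_neg h2, sub_zero] at hγ
      exact absurd rfl hγ
  · rw [coeff_sub, coeff_X, coeff_X, if_pos rfl, if_neg, sub_zero]
    exact fun h => hij.ne' ((Finsupp.single_left_inj one_ne_zero).1 h)

lemma ht_of_coeff_vc {γ : Fin n →₀ ℕ} (h : coeff γ (vc n) ≠ 0) :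
    ht γ γ = ∑ i : Fin n, (i : ℕ) * i := by
  have e : vc n = (Matrix.vandermonde fun i => -(X i : PC n)).det := by
    rw [Matrix.det_vandermonde, vc]
    exact prod_congr rfl fun i _ => prod_congr rfl fun j _ => by ring
  rw [e, Matrix.det_apply', coeff_sum] at h
  obtain ⟨σ, -, h0⟩ := exists_ne_zero_of_sum_ne_zero h
  have e2 : ((Equiv.Perm.sign σ : ℤ) : PC n) *
      ∏ i, Matrix.vandermonde (fun i => -(X i : PC n)) (σ i) i =
      C ((Equiv.Perm.sign σ : ℤ) * ∏ i : Fin n, (-1 : ℂ) ^ (i : ℕ)) *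
        monomial (∑ i : Fin n, Finsupp.single (σ i) (i : ℕ)) 1 := by
    rw [monomial_sum_one, map_mul, map_intCast, map_prod, mul_assoc, ← prod_mul_distrib]
    congr 1
    refine prod_congr rfl fun i _ => ?_
    rw [Matrix.vandermonde_apply, neg_pow, X_pow_eq_monomial, map_pow, map_neg, C_1]
  rw [e2, coeff_C_mul, coeff_monomial] at h0
  have h1 : ∑ i : Fin n, Finsupp.single (σ i) (i : ℕ) = γ := by
    by_contra h2
    exact h0 (by rw [if_neg h2, mul_zero])
  have h2 : ∀ j, γ (σ j) = j := fun j => by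
    simp [← h1, Finsupp.finsetSum_apply, Finsupp.single_apply]
  rw [ht, ← Equiv.sum_comp σ]
  simp only [h2]

lemma lap_vc : lap (vc n) = C (ht (rho n) (rho n) : ℂ) * vc n := by
  ext γ
  rw [coeff_lap, coeff_C_mul]
  by_cases h : coeff γ (vc n) = 0
  · rw [h, mul_zero, mul_zero]
  · rw [ht_of_coeff_vc h, ht_of_coeff_vc (γ := rho n)]
    rw [(lead_vc rho_strictAnti).2]
    exact one_ne_zero

lemma ht_lt_of_ht_self_eq {α β : Fin n →₀ ℕ} (h : ht α α = ht β β) (hne : α ≠ β) :
    ht β α < ht β β := by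
  obtain ⟨a, ha⟩ := DFunLike.ne_iff.1 hne
  have h1 : (0 : ℤ) < ∑ i, ((α i : ℤ) - β i) ^ 2 :=
    sum_pos' (fun i _ => sq_nonneg _) ⟨a, mem_univ a,
      sq_pos_of_ne_zero (sub_ne_zero.2 (by exact_mod_cast ha))⟩
  have h2 : ∑ i, ((α i : ℤ) - β i) ^ 2 = (ht α α : ℤ) + ht β β - 2 * ht β α := by
    simp only [ht, Nat.cast_sum, Nat.cast_mul, mul_sum, ← sum_add_distrib, ← sum_sub_distrib]
    exact sum_congr rfl fun i _ => by ring
  omega

end Vale.Agent.P181
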