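import Mathlib
import Vale.Agent.P181.Unitary
import Vale.Agent.P181.WeylPoly

/-!
The multiplicity formula (equivalent to the Weyl character formula).
-/

namespace Vale.Agent.P181

open Module MvPolynomial

variable {n : ℕ} {T : Type*} [NormedAddCommGroup T] [InnerProductSpace ℂ T]
  [FiniteDimensional ℂ T] {E : Fin n → Fin n → T →ₗ[ℂ] T}

/-- generating polynomial of the traces on the weight spaces of `W` -/
noncomputable def gf (hE : IsUGL E) (W : Submodule ℂ T) : Module.End ℂ T →ₗ[ℂ] PC n :=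
  ∑ μ ∈ hE.finite_wts.toFinset, monomial μ ∘ₗ LinearMap.trace ℂ T ∘ₗ
    LinearMap.mulLeft ℂ (prj (W ⊓ wtSp E μ))

lemma coeff_gf (hE : IsUGL E) (W : Submodule ℂ T) (Y : Module.End ℂ T) (μ : Fin n →₀ ℕ) :
    coeff μ (gf hE W Y) = LinearMap.trace ℂ T (prj (W ⊓ wtSp E μ) * Y) := by
  simp only [gf, LinearMap.sum_apply, LinearMap.comp_apply, coeff_sum, coeff_monomial,
    Finset.sum_ite_eq', LinearMap.mulLeft_apply]
  split_ifs with h
  · rfl
  · have h1 : wtSp E μ = ⊥ := by simpa using h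
    have h2 : prj (W ⊓ wtSp E μ) = 0 := LinearMap.ext fun x => by
      simpa [h1] using prj_mem (W ⊓ wtSp E μ) x
    rw [h2, zero_mul, map_zero]

lemma coeff_gf_one (hE : IsUGL E) (W : Submodule ℂ T) (μ : Fin n →₀ ℕ) :
    coeff μ (gf hE W 1) = finrank ℂ (W ⊓ wtSp E μ : Submodule ℂ T) := by
  rw [coeff_gf, mul_one]
  exact LinearMap.IsProj.trace ⟨prj_mem _, fun _ hx => prj_eq_self hx⟩

lemma gf_diag (hE : IsUGL E) {W : Submodule ℂ T} (hW : InvSp E W) (a : Fin n)
    (Y : Module.End ℂ T) : gf hE W (E a a * Y) = th a (gf hE W Y) := by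
  ext μ
  have h0 : ∀ x ∈ W ⊓ wtSp E μ, E a a x ∈ W ⊓ wtSp E μ := fun x hx =>
    ⟨hW a a x hx.1, by rw [mem_wtSp.1 hx.2 a]; exact Submodule.smul_mem _ _ hx.2⟩
  have h1 : prj (W ⊓ wtSp E μ) * E a a = (μ a : ℂ) • prj (W ⊓ wtSp E μ) := LinearMap.ext fun x => by
    rw [Module.End.mul_apply, hE.prj_comm a a h0 h0, mem_wtSp.1 (prj_mem (W ⊓ wtSp E μ) x).2 a,
      LinearMap.smul_apply]
  rw [coeff_th, coeff_gf, coeff_gf, ← mul_assoc, h1, smul_mul_assoc, map_smul, smul_eq_mul]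

lemma mul_prj_eq_zero (hE : IsUGL E) (W : Submodule ℂ T) (a b : Fin n) {μ : Fin n →₀ ℕ}
    (h : μ b = 0) : E a b * prj (W ⊓ wtSp E μ) = 0 :=
  LinearMap.ext fun x => hE.kill a b (prj_mem (W ⊓ wtSp E μ) x).2 h

lemma prj_mul_eq_zero (hE : IsUGL E) (W : Submodule ℂ T) (a b : Fin n) {μ : Fin n →₀ ℕ}
    (h : μ a = 0) : prj (W ⊓ wtSp E μ) * E a b = 0 := LinearMap.ext fun x => by
  rw [Module.End.mul_apply, hE.prj_comm a b (U := ⊥) (V := W ⊓ wtSp E μ) (fun y hy => by
    rw [(Submodule.mem_bot ℂ).1 hy, map_zero]; exact zero_mem _)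
    fun y hy => hE.kill b a hy.2 h, (Submodule.mem_bot ℂ).1 (prj_mem ⊥ x), map_zero]
  rfl

lemma gf_shift (hE : IsUGL E) {W : Submodule ℂ T} (hW : InvSp E W) {a b : Fin n} (hab : a ≠ b)
    (Y : Module.End ℂ T) : X b * gf hE W (E a b * Y) = X a * gf hE W (Y * E a b) := by
  ext ν
  rw [coeff_X_mul', coeff_X_mul', coeff_gf, coeff_gf, ← mul_assoc, ← mul_assoc,
    LinearMap.trace_mul_comm ℂ _ (E a b), ← mul_assoc]
  have s1 : (ν - Finsupp.single b 1 : Fin n →₀ ℕ) a = ν a := by simp [hab]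
  have s2 : (ν - Finsupp.single a 1 : Fin n →₀ ℕ) b = ν b := by simp [hab.symm]
  simp only [Finsupp.mem_support_iff]
  by_cases ha : ν a = 0
  · rw [prj_mul_eq_zero hE W a b (s1.trans ha), zero_mul, map_zero, ite_self,
      if_neg (not_not.2 ha)]
  by_cases hb : ν b = 0
  · rw [mul_prj_eq_zero hE W a b (s2.trans hb), zero_mul, map_zero, ite_self,
      if_neg (not_not.2 hb)]
  rw [if_pos ha, if_pos hb]
  obtain ⟨μ, h1⟩ := exists_eq_add_single (s1 ▸ ha)
  obtain ⟨ν', rfl⟩ := exists_eq_add_single hb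
  rw [add_tsub_cancel_right] at h1
  subst h1
  rw [add_tsub_cancel_right, add_right_comm μ, add_tsub_cancel_right]
  congr 2
  exact LinearMap.ext fun x => hE.prj_comm a b (U := W ⊓ wtSp E (μ + Finsupp.single b 1))
    (V := W ⊓ wtSp E (μ + Finsupp.single a 1))
    (fun y hy => ⟨hW a b y hy.1, hE.shift a b hy.2⟩)
    (fun y hy => ⟨hW b a y hy.1, hE.shift b a hy.2⟩) x

/-- the shifted Casimir operator -/
noncomputable def cas (E : Fin n → Fin n → T →ₗ[ℂ] T) : Module.End ℂ T :=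
  ∑ a, E a a * E a a + ∑ a, ∑ b ∈ Finset.Ioi a, (E a b * E b a + E a a + (E b a * E a b + E b b))

omit [FiniteDimensional ℂ T] in
lemma cas_eq : cas E = ∑ a, ∑ b, E a b * E b a + ∑ _b : Fin n, ∑ a, E a a - ∑ a, E a a := by
  rw [cas, Finset.sum_sum_Ioi_add_eq_sum_sum_off_diag fun b a => E a b * E b a + E a a,
    Finset.sum_comm (f := fun _ a => E a a), ← Finset.sum_add_distrib, ← Finset.sum_add_distrib,
    ← Finset.sum_sub_distrib]
  refine Finset.sum_congr rfl fun a _ => ?_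
  rw [← Finset.sum_add_distrib, ← Finset.sum_add_sum_compl {a}, Finset.sum_singleton]
  abel

omit [FiniteDimensional ℂ T] in
lemma IsUGL.commute_cas (hE : IsUGL E) (c d : Fin n) : Commute (E c d) (cas E) := by
  have h1 : Commute (E c d) (∑ a, E a a) := by
    rw [Commute, SemiconjBy, ← sub_eq_zero, Finset.mul_sum, Finset.sum_mul,
      ← Finset.sum_sub_distrib]
    simp only [hE.comm, Finset.sum_sub_distrib, Finset.sum_ite_eq, Finset.sum_ite_eq',
      Finset.mem_univ, if_true, sub_self]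
  have h2 : Commute (E c d) (∑ a, ∑ b, E a b * E b a) := by
    have e : ∀ a b, E c d * (E a b * E b a) - E a b * E b a * E c d =
        (if d = a then E c b * E b a else 0) - (if b = c then E a d * E b a else 0) +
          ((if d = b then E a b * E c a else 0) - if a = c then E a b * E b d else 0) := by
      intro a b
      have e1 : E c d * (E a b * E b a) - E a b * E b a * E c d =
          (E c d * E a b - E a b * E c d) * E b a + E a b * (E c d * E b a - E b a * E c d) := by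
        noncomm_ring
      rw [e1, hE.comm, hE.comm]
      simp only [sub_mul, mul_sub, ite_mul, mul_ite, zero_mul, mul_zero]
    rw [Commute, SemiconjBy, ← sub_eq_zero]
    simp only [Finset.mul_sum, Finset.sum_mul, ← Finset.sum_sub_distrib, e]
    simp only [Finset.sum_add_distrib, Finset.sum_sub_distrib, Finset.sum_ite_irrel,
      Finset.sum_const_zero, Finset.sum_ite_eq, Finset.sum_ite_eq', Finset.mem_univ, if_true]
    abel
  rw [cas_eq]
  exact (h2.add_right (Commute.sum_right _ _ _ fun _ _ => h1)).sub_right h1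

/-- the eigenvalue of the Casimir operator, shifted -/
noncomputable def cev (ν : Fin n →₀ ℕ) : ℕ := ht (ν + rho n) (ν + rho n)

omit [FiniteDimensional ℂ T] in
lemma IsUGL.cas_hw (hE : IsUGL E) {W : Submodule ℂ T} {ν : Fin n →₀ ℕ} {v : T}
    (hv : v ∈ hwSp E W ν) : cas E v = ((cev ν : ℂ) - ht (rho n) (rho n)) • v := by
  obtain ⟨-, h1, h2⟩ := mem_hwSp.1 hv
  have h3 := mem_wtSp.1 h1
  have h4 : ∀ a, ∑ b ∈ Finset.Ioi a, (E a b * E b a + E a a + (E b a * E a b + E b b)) v =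
      (2 * (rho n a : ℂ) * ν a) • v := fun a => by
    rw [Finset.sum_congr rfl (g := fun _ => (2 * (ν a : ℂ)) • v), Finset.sum_const, Fin.card_Ioi,
      ← rho_apply, ← Nat.cast_smul_eq_nsmul ℂ, smul_smul]
    · congr 1; ring
    intro b hb
    simp only [LinearMap.add_apply, Module.End.mul_apply]
    rw [hE.comm_apply a b b a, h2 a b (Finset.mem_Ioi.1 hb), map_zero, if_pos rfl, if_pos rfl,
      h3, h3]
    module
  rw [cas, LinearMap.add_apply]
  simp only [LinearMap.sum_apply, h4]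
  simp only [Module.End.mul_apply, h3, map_smul, smul_smul, ← Finset.sum_smul, ← add_smul]
  congr 1
  simp only [cev, ht, Nat.cast_sum, Nat.cast_mul, Finsupp.coe_add, Pi.add_apply, Nat.cast_add,
    ← Finset.sum_add_distrib, ← Finset.sum_sub_distrib]
  exact Finset.sum_congr rfl fun a _ => by ring

lemma lap_vc_gf (hE : IsUGL E) {W : Submodule ℂ T} (hW : InvSp E W) :
    lap (vc n * gf hE W 1) =
      vc n * gf hE W (cas E) + C (ht (rho n) (rho n) : ℂ) * (vc n * gf hE W 1) := by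
  have h1 : ∀ a, gf hE W (E a a) = th a (gf hE W 1) := fun a => by
    rw [← gf_diag hE hW, mul_one]
  have h2 := vc_mul_sum (fun a => th a (gf hE W 1))
    (fun a b => gf hE W (E a b * E b a + E a a + (E b a * E a b + E b b))) fun a b => by
      rcases eq_or_ne a b with rfl | hab
      · simp
      have k1 := gf_shift hE hW hab (E b a)
      have k2 := congrArg (gf hE W) (hE.comm a b b a)
      rw [if_pos rfl, if_pos rfl, map_sub, map_sub, h1, h1] at k2
      simp only [map_add, h1]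
      linear_combination (X a + X b) * k2 - 2 * k1
  rw [lap_mul, h2, lap_vc, cas, map_add]
  simp only [map_sum, gf_diag hE hW, h1, lap]
  ring

lemma weyl_of_scalar (hE : IsUGL E) {W : Submodule ℂ T} (hW : InvSp E W) {k : ℕ}
    (hk : ∀ x ∈ W, cas E x = ((k : ℂ) - ht (rho n) (rho n)) • x) (l : Fin n →₀ ℕ)
    (hl : Antitone l) : (finrank ℂ (hwSp E W l) : ℂ) = coeff (l + rho n) (vc n * gf hE W 1) := by
  have h1 : gf hE W (cas E) = C ((k : ℂ) - ht (rho n) (rho n)) * gf hE W 1 := by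
    ext μ
    have e : cas E * prj (W ⊓ wtSp E μ) = ((k : ℂ) - ht (rho n) (rho n)) • prj (W ⊓ wtSp E μ) :=
      LinearMap.ext fun x => hk _ (prj_mem (W ⊓ wtSp E μ) x).1
    rw [coeff_C_mul, coeff_gf, coeff_gf, LinearMap.trace_mul_comm, e, map_smul, mul_one,
      smul_eq_mul]
  have h2 : lap (vc n * gf hE W 1) = C (k : ℂ) * (vc n * gf hE W 1) := by
    rw [lap_vc_gf hE hW, h1, map_sub]
    ring
  have h3 : ∀ ν, hwSp E W ν ≠ ⊥ → cev ν = k := fun ν hν => by
    obtain ⟨v, hv, h0⟩ := (Submodule.ne_bot_iff _).1 hν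
    have e := (hE.cas_hw hv).symm.trans (hk v (mem_hwSp.1 hv).1)
    exact_mod_cast sub_left_injective (smul_left_injective ℂ h0 e)
  by_cases h4 : cev l = k
  swap
  · have e := congrArg (coeff (l + rho n)) h2
    rw [coeff_lap, coeff_C_mul] at e
    have e1 := (mul_eq_mul_right_iff.1 e).resolve_left fun h => h4 (by exact_mod_cast h)
    have e2 : hwSp E W l = ⊥ := by_contra fun h => h4 (h3 l h)
    rw [e1, e2, finrank_bot, Nat.cast_zero]
  have hc : StrictAnti (l + rho n : Fin n →₀ ℕ) := fun a b hab =>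
    add_lt_add_of_le_of_lt (hl hab.le) (rho_strictAnti hab)
  have h5 : ∀ ν, W ⊓ wtSp E ν ≠ ⊥ →
      (∀ μ, W ⊓ wtSp E μ ≠ ⊥ → ht (l + rho n) μ ≤ ht (l + rho n) ν) →
      ν = l ∨ ht (l + rho n) ν < ht (l + rho n) l := fun ν h0 hν => by
    refine or_iff_not_imp_left.2 fun hne => ?_
    have e := h3 ν fun h => h0 (eq_bot_iff.2 (h ▸ hW.le_hwSp hE hc hν))
    have := ht_lt_of_ht_self_eq (α := ν + rho n) (β := l + rho n) (e.trans h4.symm)
      fun h => hne (add_right_cancel h)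
    rw [ht_add, ht_add] at this
    exact lt_of_add_lt_add_right this
  have h6 : ∀ μ, W ⊓ wtSp E μ ≠ ⊥ → μ = l ∨ ht (l + rho n) μ < ht (l + rho n) l := fun μ hμ => by
    obtain ⟨ν, k1, k2⟩ := hW.exists_max hE (fun h => hμ (by rw [h, bot_inf_eq])) (l + rho n)
    rcases (k2 μ hμ).eq_or_lt with k3 | k3
    · exact h5 μ hμ fun μ' h' => (k2 μ' h').trans k3.ge
    · rcases h5 ν k1 k2 with rfl | k4
      exacts [Or.inr k3, Or.inr (k3.trans k4)]
  have h7 : Lead (l + rho n) (gf hE W 1) l := fun μ hμ => h6 μ fun h => hμ (by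
    rw [coeff_gf_one, h, finrank_bot, Nat.cast_zero])
  have h8 : hwSp E W l = W ⊓ wtSp E l := le_antisymm inf_le_left
    (hW.le_hwSp hE hc fun μ hμ => (h6 μ hμ).elim (fun h => by rw [h]) le_of_lt)
  rw [mul_comm, (h7.mul (lead_vc hc).1).2, (lead_vc hc).2, mul_one, coeff_gf_one, h8]

lemma finrank_inf_add {U W K : Submodule ℂ T} (h : U ≤ W) (hK : ∀ x ∈ K, prj U x ∈ K) :
    finrank ℂ (W ⊓ K : Submodule ℂ T) =
      finrank ℂ (U ⊓ K : Submodule ℂ T) + finrank ℂ (Uᗮ ⊓ W ⊓ K : Submodule ℂ T) := by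
  have h1 : U ⊓ K ⊔ Uᗮ ⊓ W ⊓ K = W ⊓ K := by
    refine le_antisymm (sup_le (inf_le_inf_right K h) (inf_le_inf_right K inf_le_right))
      fun x hx => Submodule.mem_sup.2 ⟨prj U x, ⟨prj_mem U x, hK x hx.2⟩, x - prj U x,
        ⟨⟨sub_prj_mem U x, W.sub_mem hx.1 (h (prj_mem U x))⟩, K.sub_mem hx.2 (hK x hx.2)⟩, ?_⟩
    abel
  have h2 : U ⊓ K ⊓ (Uᗮ ⊓ W ⊓ K) = ⊥ := (Submodule.eq_bot_iff _).2 fun x hx =>
    inner_self_eq_zero.1 (hx.2.1.1 x hx.1.1)
  rw [← Submodule.finrank_sup_add_finrank_inf_eq, h1, h2, finrank_bot, add_zero]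

lemma weyl_complex (hE : IsUGL E) (l : Fin n →₀ ℕ) (hl : Antitone l) (m : ℕ) :
    ∀ W : Submodule ℂ T, InvSp E W → finrank ℂ W = m →
      (finrank ℂ (hwSp E W l) : ℂ) = coeff (l + rho n) (vc n * gf hE W 1) := by
  induction m using Nat.strong_induction_on with
  | _ m ih =>
  intro W hW hm
  by_cases h0 : W = ⊥
  · exact weyl_of_scalar hE hW (k := 0) (fun x hx => by
      rw [h0, Submodule.mem_bot] at hx
      rw [hx, map_zero, smul_zero]) l hl
  obtain ⟨ν, hν⟩ := hW.exists_hwSp_ne_bot hE h0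
  obtain ⟨v, hv, hv0⟩ := (Submodule.ne_bot_iff _).1 hν
  set U := W ⊓ Module.End.eigenspace (cas E) ((cev ν : ℂ) - ht (rho n) (rho n)) with hU
  have u1 : InvSp E U := hW.inf fun a b x hx => by
    rw [Module.End.mem_eigenspace_iff] at hx ⊢
    rw [← Module.End.mul_apply, ← (hE.commute_cas a b).eq, Module.End.mul_apply, hx, map_smul]
  have u2 : v ∈ U := ⟨(mem_hwSp.1 hv).1, Module.End.mem_eigenspace_iff.2 (hE.cas_hw hv)⟩
  have u3 : InvSp E (Uᗮ ⊓ W) := (u1.orthogonal hE).inf hW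
  have u4 : Uᗮ ⊓ W < W := lt_of_le_of_ne inf_le_right fun h =>
    hv0 (inner_self_eq_zero.1 ((h.ge (mem_hwSp.1 hv).1).1 v u2))
  have e1 := weyl_of_scalar hE u1 (fun x hx => Module.End.mem_eigenspace_iff.1 hx.2) l hl
  have e2 := ih _ (hm ▸ Submodule.finrank_lt_finrank_of_lt u4) _ u3 rfl
  have e3 : gf hE W 1 = gf hE U 1 + gf hE (Uᗮ ⊓ W) 1 := by
    ext μ
    rw [coeff_add, coeff_gf_one, coeff_gf_one, coeff_gf_one,
      finrank_inf_add (U := U) inf_le_left fun x hx => u1.prj_mem_wtSp hE hx, Nat.cast_add]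
  have e4 : ∀ V : Submodule ℂ T, hwSp E V l = V ⊓ hwSp E ⊤ l := fun V => by
    rw [hwSp, hwSp, top_inf_eq, inf_assoc]
  rw [e3, mul_add, coeff_add, ← e1, ← e2, e4 W, e4 U, e4 (Uᗮ ⊓ W),
    finrank_inf_add (U := U) inf_le_left, Nat.cast_add]
  intro x hx
  obtain ⟨-, k1, k2⟩ := mem_hwSp.1 hx
  exact mem_hwSp.2 ⟨trivial, u1.prj_mem_wtSp hE k1, fun a b hab => by
    rw [← u1.prj_comm hE, k2 a b hab, map_zero]⟩

theorem finrank_hwSp_eq_coeff (hE : IsUGL E) {W : Submodule ℂ T} (hW : InvSp E W)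
    (χ : MvPolynomial (Fin n) ℤ)
    (hχ : ∀ μ, coeff μ χ = (finrank ℂ (W ⊓ wtSp E μ : Submodule ℂ T) : ℤ))
    (l : Fin n →₀ ℕ) (hl : Antitone l) :
    (finrank ℂ (hwSp E W l) : ℤ) = coeff (l + rho n) (vand n * χ) := by
  have h1 : map (Int.castRingHom ℂ) χ = gf hE W 1 := by
    ext μ
    rw [coeff_map, hχ, coeff_gf_one]
    simp
  have h2 := weyl_complex hE l hl _ W hW rfl
  rw [← h1, ← map_vand, ← map_mul, coeff_map, eq_intCast] at h2
  exact_mod_cast h2

end Vale.Agent.P181
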