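import Mathlib
import Vale.Agent.P181.Weyl
import Vale.Agent.P181.Model
import Vale.Agent.P181.Char

/-!
The numerical interface in six variables.
-/

namespace Vale.Agent.P181

open Module MvPolynomial

theorem hw_eq_coeff_chi {Ω : Type} [Fintype Ω] [DecidableEq Ω] {ι : Type} [Fintype ι]
    [DecidableEq ι] (row : Ω → ι) (lab : ι → ℕ) {n : ℕ} (l : Fin n →₀ ℕ) (hl : Antitone l) :
    (hw (rowShp row lab) (toMon l) : ℤ)
      = coeff (l + rho n) (vand n * chi n (rowShp row lab)) := by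
  rw [← finrank_hwSp_theta row lab l]
  refine finrank_hwSp_eq_coeff isUGL_tE (invSp_theta row lab) _ (fun μ => ?_) l hl
  rw [coeff_chi, finrank_wtSp_theta]

theorem rowShp_fst_eq {α : Type} [Fintype α] [DecidableEq α] (q : ℕ) (lab : α → ℕ) :
    rowShp (Prod.fst : α × Fin q → α) lab = ∑ i, Finsupp.single (lab i, q) 1 := by
  unfold rowShp
  refine Finset.sum_congr rfl fun i _ => ?_
  have : (Finset.univ.filter fun ω : α × Fin q => ω.1 = i) = ({i} : Finset α) ×ˢ Finset.univ := by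
    ext ω
    simp only [Finset.mem_filter, Finset.mem_univ, true_and, Finset.mem_product,
      Finset.mem_singleton, and_true]
  rw [this, Finset.card_product, Finset.card_singleton, one_mul, Finset.card_univ,
    Fintype.card_fin]

theorem rowShp_fst_zero {α : Type} [Fintype α] [DecidableEq α] (q : ℕ) :
    rowShp (Prod.fst : α × Fin q → α) (fun _ => 0) = Finsupp.single (0, q) (Fintype.card α) := by
  rw [rowShp_fst_eq, Finset.sum_const, Finset.card_univ, Finsupp.smul_single, smul_eq_mul,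
    mul_one]

theorem chi_single (n : ℕ) (v : ℕ × ℕ) (p : ℕ) : chi n (Finsupp.single v p) = GG n v.2 p := by
  unfold chi
  rw [Finsupp.prod_single_index (h := fun (v : ℕ × ℕ) p => GG n v.2 p) (GG_zero _)]

theorem chi_add_single (n : ℕ) (s : (ℕ × ℕ) →₀ ℕ) (v : ℕ × ℕ) (hv : s v = 0) (p : ℕ) :
    chi n (s + Finsupp.single v p) = chi n s * GG n v.2 p := by
  rw [← chi_single]
  unfold chi
  refine Finsupp.prod_add_index_of_disjoint ?_ _
  refine Finset.disjoint_of_subset_right Finsupp.support_single_subset ?_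
  rw [Finset.disjoint_singleton_right, Finsupp.notMem_support_iff]
  exact hv

theorem chi_split (n q p r : ℕ) :
    chi n (Finsupp.single (0, q) p + ∑ t ∈ Finset.range r, Finsupp.single (t + 1, q) 1)
      = GG n q p * HH n q ^ r := by
  induction r with
  | zero => simp [chi_single]
  | succ r ih =>
    rw [Finset.sum_range_succ, ← add_assoc, chi_add_single, ih, GG_one, pow_succ, mul_assoc]
    rw [Finsupp.add_apply, Finsupp.finsetSum_apply, Finsupp.single_eq_of_ne (by simp), zero_add]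
    refine Finset.sum_eq_zero fun t ht => Finsupp.single_eq_of_ne ?_
    have := Finset.mem_range.mp ht
    simp only [ne_eq, Prod.mk.injEq, and_true]
    omega

theorem hw_single_eq_coeff {n : ℕ} (q p : ℕ) (l : Fin n →₀ ℕ) (hl : Antitone l) :
    (hw (Finsupp.single (0, q) p) (toMon l) : ℤ) = coeff (l + rho n) (vand n * GG n q p) := by
  have := hw_eq_coeff_chi (Prod.fst : Fin p × Fin q → Fin p) (fun _ => 0) l hl
  rwa [rowShp_fst_zero, Fintype.card_fin, chi_single] at this

theorem hw_single_le_coeff {n : ℕ} (q p r : ℕ) (l : Fin n →₀ ℕ) (hl : Antitone l) :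
    (hw (Finsupp.single (0, q) (p + r)) (toMon l) : ℤ)
      ≤ coeff (l + rho n) (vand n * GG n q p * HH n q ^ r) := by
  let lab : Fin p ⊕ Fin r → ℕ := Sum.elim (fun _ => 0) fun t => t + 1
  have h1 := hw_rowShp_comp_le (Prod.fst : (Fin p ⊕ Fin r) × Fin q → Fin p ⊕ Fin r) lab
    (fun _ => 0) (toMon l)
  have h2 := hw_eq_coeff_chi (Prod.fst : (Fin p ⊕ Fin r) × Fin q → Fin p ⊕ Fin r) lab l hl
  have h3 : rowShp (Prod.fst : (Fin p ⊕ Fin r) × Fin q → Fin p ⊕ Fin r) lab
      = Finsupp.single (0, q) p + ∑ t ∈ Finset.range r, Finsupp.single (t + 1, q) 1 := by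
    rw [rowShp_fst_eq, Fintype.sum_sum_type, Finset.sum_range]
    simp [lab]
  have h4 : rowShp (Prod.fst : (Fin p ⊕ Fin r) × Fin q → Fin p ⊕ Fin r) ((fun _ => 0) ∘ lab)
      = Finsupp.single (0, q) (p + r) := by
    have := rowShp_fst_zero (α := Fin p ⊕ Fin r) q
    rwa [Fintype.card_sum, Fintype.card_fin, Fintype.card_fin] at this
  rw [h4] at h1
  rw [mul_assoc, ← chi_split, ← h3, ← h2]
  exact_mod_cast h1

theorem antitone_of_hw_single_ne_zero {n : ℕ} (q p : ℕ) (l : Fin n →₀ ℕ)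
    (h : hw (Finsupp.single (0, q) p) (toMon l) ≠ 0) : Antitone l := by
  have h1 := finrank_hwSp_theta (Prod.fst : Fin p × Fin q → Fin p) (fun _ => 0) l
  rw [rowShp_fst_zero, Fintype.card_fin] at h1
  refine antitone_of_hwSp_ne_bot (isUGL_tE (Ω := Fin p × Fin q))
    (W := (LinearMap.ker (theta n (Prod.fst : Fin p × Fin q → Fin p) fun _ => 0))ᗮ) fun hb => h ?_
  rw [← h1, hb, finrank_bot]

theorem hw_single_eq_zero {n : ℕ} (q p : ℕ) (l : Fin n →₀ ℕ) (i : Fin n) (hi : p ≤ i)
    (hli : l i ≠ 0) : hw (Finsupp.single (0, q) p) (toMon l) = 0 := by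
  by_contra h
  have hl := antitone_of_hw_single_ne_zero q p l h
  have h1 := hw_single_le_coeff q 0 p l hl
  rw [GG_zero, mul_one, coeff_vand_mul_pow_eq_zero q p l hl i hi hli, zero_add] at h1
  omega

/-- multiplicity in `Sym^p (Sym^q)` -/
noncomputable def mult (q p : ℕ) (l : Fin 6 →₀ ℕ) : ℕ := hw (Finsupp.single (0, q) p) (toMon l)

theorem mult_eq_coeff (q p : ℕ) (l : Fin 6 →₀ ℕ) (hl : Antitone l) :
    (mult q p l : ℤ) = coeff (l + rho 6) (vand 6 * GG 6 q p) :=
  hw_single_eq_coeff q p l hl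

theorem mult_le_mult_add (q p p' : ℕ) (l m : Fin 6 →₀ ℕ) (h : mult q p' m ≠ 0) :
    mult q p l ≤ mult q (p + p') (l + m) := by
  have := hw_le_hw_add (Finsupp.single (0, q) p) _ (toMon l) _ h
  unfold mult
  rwa [← Finsupp.single_add, toMon, toMon, ← Finsupp.mapDomain_add] at this

theorem mult_le_coeff (q p r : ℕ) (l : Fin 6 →₀ ℕ) (hl : Antitone l) :
    (mult q (p + r) l : ℤ) ≤ coeff (l + rho 6) (vand 6 * GG 6 q p * HH 6 q ^ r) :=
  hw_single_le_coeff q p r l hl

theorem mult_eq_zero (q p : ℕ) (l : Fin 6 →₀ ℕ) (i : Fin 6) (hi : p ≤ i) (hli : l i ≠ 0) :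
    mult q p l = 0 :=
  hw_single_eq_zero q p l i hi hli

theorem toMon_apply_fin {n : ℕ} (l : Fin n →₀ ℕ) (i : Fin n) : toMon l i = l i :=
  Finsupp.mapDomain_apply Fin.val_injective l i

theorem exists_toMon_eq {n : ℕ} (μ : Mon) (h : ∀ i, n ≤ i → μ i = 0) :
    ∃ l : Fin n →₀ ℕ, toMon l = μ := by
  refine ⟨Finsupp.equivFunOnFinite.symm fun i => μ i, ?_⟩
  ext i
  by_cases hi : i < n
  · have := toMon_apply_fin (Finsupp.equivFunOnFinite.symm fun i : Fin n => μ i) ⟨i, hi⟩
    simpa using this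
  · rw [h i (not_lt.mp hi), toMon, Finsupp.mapDomain_of_notMem_range]
    rintro ⟨j, rfl⟩
    exact hi j.2

theorem hw_le_of_mult_le (b : ℕ)
    (h : ∀ l : Fin 6 →₀ ℕ, Antitone l → l.degree = 6 * b → mult b 6 l ≤ mult 6 b l) (μ : Mon) :
    hw (Finsupp.single (0, b) 6) μ ≤ hw (Finsupp.single (0, 6) b) μ := by
  by_cases h0 : hw (Finsupp.single (0, b) 6) μ = 0
  · rw [h0]; exact Nat.zero_le _
  have h6 : ∀ i, 6 ≤ i → μ i = 0 := by
    intro i hi
    by_contra hne
    obtain ⟨N, hN⟩ := μ.support.bddAbove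
    obtain ⟨l, hl⟩ := exists_toMon_eq (n := N + 1) μ fun j hj => by
      by_contra hj'
      have := hN (Finsupp.mem_support_iff.mpr hj')
      omega
    have hiN : i < N + 1 := Nat.lt_succ_of_le (hN (Finsupp.mem_support_iff.mpr hne))
    refine h0 ?_
    rw [← hl]
    refine hw_single_eq_zero b 6 l ⟨i, hiN⟩ hi ?_
    rw [← toMon_apply_fin, hl]
    exact hne
  obtain ⟨l, rfl⟩ := exists_toMon_eq μ h6
  refine h l (antitone_of_hw_single_ne_zero b 6 l h0) ?_
  have h1 := degree_eq_of_hw_ne_zero h0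
  rw [Finsupp.sum_single_index (by simp), toMon, Finsupp.degree_mapDomain] at h1
  exact h1

end Vale.Agent.P181
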