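import Mathlib
import Vale.Agent.P181.Iface
import Vale.Agent.P181.Cmp

/-!
What the packed computations mean.
-/

namespace Vale.Agent.P181

open MvPolynomial

/-- substitute `1, x, z` for the first three variables -/
noncomputable def psi6 (x z : ℤ) : MvPolynomial (Fin 6) ℤ →ₐ[ℤ] MvPolynomial (Fin 3) ℤ :=
  aeval ![1, C x, C z, X 0, X 1, X 2]

noncomputable def idx3 (i j l : ℕ) : Fin 3 →₀ ℕ := Finsupp.equivFunOnFinite.symm ![i, j, l]

/-- the packed coefficient of `x₃ ^ i x₄ ^ j x₅ ^ l` -/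
noncomputable def ev (x z : ℤ) (A : MvPolynomial (Fin 6) ℤ) (i j l : ℕ) : ℤ :=
  coeff (idx3 i j l) (psi6 x z A)

/-- the shape of degree `n` with last rows `l4, l5, l6`, third row `l4 + r` and second row
`l4 + r + s` -/
noncomputable def lam (n l6 l5 l4 r s : ℕ) : Fin 6 →₀ ℕ :=
  Finsupp.equivFunOnFinite.symm
    ![n - (l4 + r + s + (l4 + r) + l4 + l5 + l6), l4 + r + s, l4 + r, l4, l5, l6]

/-- a bound for all the coefficients -/
def Bnd (q p B : ℕ) : Prop := ∀ β, |coeff β (vand 6 * GG 6 q p)| ≤ (B : ℤ)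

/-- a correct (incomplete, capped) table of the multiplicities of `Sym^p Sym^q` -/
def Good (q p : ℕ) (dat : K.Dat) : Prop :=
  ∀ d6 d5 d4 r, r < (K.get3 dat d6 d5 d4).length →
    3 * r + 4 * d4 + 5 * d5 + 6 * d6 ≤ p * q ∧
    ∀ s, K.dg40 (K.nth 0 (K.get3 dat d6 d5 d4) r) s =
      if 2 * s + 3 * r + 4 * d4 + 5 * d5 + 6 * d6 ≤ p * q then
        min (mult q p (lam (p * q) d6 (d5 + d6) (d4 + (d5 + d6)) r s)) 549755813887
      else 0

/-- `x` is a packed vector of upper bounds for the multiplicities of `Sym^6 Sym^b` -/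
def UB (b x l6 l5 l4 : ℕ) : Prop :=
  ∀ r s, s < 3 * b + 2 →
    (2 * s + 3 * r + 4 * l4 + l5 + l6 ≤ 6 * b →
      mult b 6 (lam (6 * b) l6 l5 l4 r s) ≤ K.dg40 x (s + (3 * b + 2) * r)) ∧
    (6 * b < 2 * s + 3 * r + 4 * l4 + l5 + l6 → K.dg40 x (s + (3 * b + 2) * r) = 0)

end Vale.Agent.P181
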