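import Mathlib
import Vale.Agent.P181.Spec

/-!
Basic facts on the evaluation gadgets and on digits.
-/

namespace Vale.Agent.P181.K

theorem frc_eq {α : Type} (n : ℕ) (f : ℕ → α) : frc n f = f n := rfl

theorem pw_eq (n : ℕ) : pw n = 2 ^ n := by
  simp [pw, Nat.shiftLeft_eq]

theorem msk_eq (n : ℕ) : msk n = 2 ^ n - 1 := by
  simp [msk, pw_eq]

theorem land_msk (x n : ℕ) : Nat.land x (msk n) = x % 2 ^ n := by
  rw [msk_eq]; exact Nat.and_two_pow_sub_one_eq_mod x n

theorem mn_eq (a b : ℕ) : mn a b = min a b := by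
  simp only [mn, Nat.sub_eq]; omega

theorem mod_eq (a b : ℕ) : Nat.mod a b = a % b := rfl

theorem mod0 (a : ℕ) : Nat.mod a 0 = a := Nat.mod_zero a

theorem div_eq (a b : ℕ) : Nat.div a b = a / b := rfl

theorem add0_eq (x y : ℕ) : add0 x y = x + y := by
  unfold add0
  rcases hy : Nat.beq y 0 with _ | _
  · rcases hx : Nat.beq x 0 with _ | _
    · rfl
    · have := Nat.eq_of_beq_eq_true hx
      subst this
      simp [mod0]
  · have := Nat.eq_of_beq_eq_true hy
    subst this
    simp [mod0]

theorem len_eq {α : Type} (L : List α) : len L = L.length := by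
  induction L with
  | nil => rfl
  | cons x L ih => exact congrArg (· + 1) ih

theorem isNil_iff {α : Type} (L : List α) : isNil L = true ↔ L = [] := by
  cases L <;> simp [isNil]

theorem nth_eq {α : Type} (d : α) (L : List α) (i : ℕ) : nth d L i = L.getD i d := by
  have h : (@Nat.rec (fun _ => List α) L tl i) = L.drop i := by
    induction i with
    | zero => rfl
    | succ i ih =>
      change tl i (@Nat.rec (fun _ => List α) L tl i) = _
      rw [ih, ← List.tail_drop]
      cases L.drop i <;> rfl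
  unfold nth
  rw [h, List.getD_eq_getElem?_getD, ← List.head?_drop]
  cases L.drop i <;> rfl

theorem allN_iff (f : ℕ → Bool) (n : ℕ) : allN f n = true ↔ ∀ i < n, f i = true := by
  induction n with
  | zero => simp [allN]
  | succ n ih =>
    have : allN f (n + 1) = (allN f n && f n) := by
      change @Bool.rec (fun _ => Bool) false (f n) (allN f n) = _
      cases allN f n <;> rfl
    rw [this, Bool.and_eq_true, ih]
    constructor
    · rintro ⟨h1, h2⟩ i hi
      rcases Nat.lt_succ_iff_lt_or_eq.1 hi with h | h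
      · exact h1 i h
      · exact h ▸ h2
    · exact fun h => ⟨fun i hi => h i (by omega), h n (by omega)⟩

theorem allL_iff {α : Type} (f : ℕ → α → Bool) (L : List α) (n : ℕ) :
    allL f L n = true ↔ ∀ i (h : i < L.length), f (n + i) L[i] = true := by
  induction L generalizing n with
  | nil => simp [allL]
  | cons x L ih =>
    have : allL f (x :: L) n = (f n x && allL f L (n + 1)) := by
      change @Bool.rec (fun _ => Bool) false (allL f L (n + 1)) (f n x) = _
      cases f n x <;> rfl
    rw [this, Bool.and_eq_true, ih]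
    constructor
    · rintro ⟨h1, h2⟩ i hi
      cases i with
      | zero => exact h1
      | succ i =>
        have := h2 i (by simpa using hi)
        rwa [show n + 1 + i = n + (i + 1) by omega] at this
    · intro h
      refine ⟨h 0 (by simp), fun i hi => ?_⟩
      have := h (i + 1) (by simpa using hi)
      rwa [show n + (i + 1) = n + 1 + i by omega] at this

theorem allL_nth {α : Type} {f : ℕ → α → Bool} {L : List α} {n : ℕ} (h : allL f L n = true)
    (d : α) {i : ℕ} (hi : i < L.length) : f (n + i) (nth d L i) = true := by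
  rw [nth_eq, List.getD_eq_getElem _ _ hi]
  exact (allL_iff f L n).1 h i hi

theorem asm_eq (W : ℕ) (f : ℕ → ℕ) (n : ℕ) :
    asm W f n = ∑ i ∈ Finset.range n, f i * 2 ^ (W * i) := by
  induction n with
  | zero => rfl
  | succ n ih =>
    rw [Finset.sum_range_succ, ← ih, ← Nat.shiftLeft_eq]
    rfl

theorem rep_eq (w x n : ℕ) (hw : 0 < w) :
    rep w x n = ∑ i ∈ Finset.range n, x * 2 ^ (w * i) := by
  have h2 : 2 ≤ 2 ^ w := by
    calc 2 = 2 ^ 1 := rfl
      _ ≤ 2 ^ w := Nat.pow_le_pow_right (by norm_num) hw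
  rw [← Finset.mul_sum]
  simp only [pow_mul]
  rw [Nat.geomSum_eq h2, rep, msk_eq, msk_eq]
  simp only [Nat.mul_eq, pow_mul]
  rfl

/-- digit `i` in base `2 ^ W` -/
def dgw (W x i : ℕ) : ℕ := x / 2 ^ (W * i) % 2 ^ W

theorem dg40_eq (x i : ℕ) : dg40 x i = dgw 40 x i := by
  simp [dg40, dgw, Nat.shiftRight_eq_div_pow, mod_eq]

theorem dgw_lt (W x i : ℕ) : dgw W x i < 2 ^ W := Nat.mod_lt _ (by positivity)

theorem dgw_zero (W i : ℕ) : dgw W 0 i = 0 := by simp [dgw]

theorem testBit_dgw (W x i j : ℕ) :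
    (dgw W x i).testBit j = (decide (j < W) && x.testBit (W * i + j)) := by
  rw [dgw, Nat.testBit_mod_two_pow, Nat.testBit_div_two_pow, add_comm]

theorem dgw_land (W x y i : ℕ) : dgw W (Nat.land x y) i = Nat.land (dgw W x i) (dgw W y i) := by
  refine Nat.eq_of_testBit_eq fun j => ?_
  simp only [Nat.land_eq, testBit_dgw, Nat.testBit_and]
  cases decide (j < W) <;> simp

theorem dgw_lor (W x y i : ℕ) : dgw W (Nat.lor x y) i = Nat.lor (dgw W x i) (dgw W y i) := by
  refine Nat.eq_of_testBit_eq fun j => ?_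
  simp only [Nat.lor_eq, testBit_dgw, Nat.testBit_or]
  cases decide (j < W) <;> simp

theorem dgw_shiftRight (W x k i : ℕ) : dgw W (Nat.shiftRight x (W * k)) i = dgw W x (i + k) := by
  refine Nat.eq_of_testBit_eq fun j => ?_
  simp only [Nat.shiftRight_eq, testBit_dgw, Nat.testBit_shiftRight]
  rw [show W * k + (W * i + j) = W * (i + k) + j by ring]

theorem dgw_shiftLeft (W x k i : ℕ) :
    dgw W (Nat.shiftLeft x (W * k)) i = if k ≤ i then dgw W x (i - k) else 0 := by
  refine Nat.eq_of_testBit_eq fun j => ?_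
  simp only [Nat.shiftLeft_eq', testBit_dgw, Nat.testBit_shiftLeft]
  split_ifs with h
  · obtain ⟨i, rfl⟩ := Nat.exists_eq_add_of_le h
    rw [testBit_dgw, Nat.add_sub_cancel_left,
      show W * (k + i) + j - W * k = W * i + j by rw [mul_add]; omega]
    simp [mul_add, add_assoc]
  · by_cases hj : j < W
    · have : W * (i + 1) ≤ W * k := Nat.mul_le_mul_left _ (by omega)
      have : ¬ W * k ≤ W * i + j := by rw [mul_add] at this; omega
      simp [this]
    · simp [hj]

theorem dgw_succ (W x i : ℕ) : dgw W x (i + 1) = dgw W (x / 2 ^ W) i := by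
  rw [dgw, dgw, Nat.div_div_eq_div_mul, ← pow_add, show W * (i + 1) = W + W * i by ring]

theorem dgw_add (W x y : ℕ) (h : ∀ i, dgw W x i + dgw W y i < 2 ^ W) (i : ℕ) :
    dgw W (x + y) i = dgw W x i + dgw W y i := by
  induction i generalizing x y with
  | zero =>
    have := h 0
    simp only [dgw, mul_zero, pow_zero, Nat.div_one] at this ⊢
    rw [Nat.add_mod, Nat.mod_eq_of_lt this]
  | succ i ih =>
    have h0 := h 0
    simp only [dgw, mul_zero, pow_zero, Nat.div_one] at h0
    rw [dgw_succ, dgw_succ, dgw_succ, Nat.add_div (by positivity), if_neg (by omega), add_zero]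
    exact ih _ _ fun i => by rw [← dgw_succ, ← dgw_succ]; exact h _

theorem eq_of_dgw_eq (W : ℕ) (hW : 0 < W) (x y : ℕ) (h : ∀ i, dgw W x i = dgw W y i) : x = y := by
  refine Nat.eq_of_testBit_eq fun j => ?_
  have h1 := congrArg (fun z => Nat.testBit z (j % W)) (h (j / W))
  simpa [testBit_dgw, Nat.mod_lt j hW, Nat.div_add_mod] using h1

theorem dgw_sum (W : ℕ) (f : ℕ → ℕ) (n : ℕ) (h : ∀ i < n, f i < 2 ^ W) (i : ℕ) :
    dgw W (∑ i ∈ Finset.range n, f i * 2 ^ (W * i)) i = if i < n then f i else 0 := by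
  induction n generalizing f i with
  | zero => simp [dgw_zero]
  | succ n ih =>
    have h0 : f 0 < 2 ^ W := h 0 (by omega)
    have h1 : ∑ i ∈ Finset.range (n + 1), f i * 2 ^ (W * i)
        = f 0 + 2 ^ W * ∑ i ∈ Finset.range n, f (i + 1) * 2 ^ (W * i) := by
      rw [Finset.sum_range_succ', Finset.mul_sum, add_comm]
      congr 1
      · simp
      · exact Finset.sum_congr rfl fun i _ => by rw [mul_add, pow_add]; ring
    rw [h1]
    cases i with
    | zero =>
      simp only [dgw, mul_zero, pow_zero, Nat.div_one, Nat.add_mul_mod_self_left]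
      rw [Nat.mod_eq_of_lt h0, if_pos (by omega)]
    | succ i =>
      rw [dgw_succ, Nat.add_mul_div_left _ _ (by positivity), Nat.div_eq_of_lt h0, zero_add,
        ih (fun i => f (i + 1)) fun i hi => h _ (by omega)]
      simp

theorem dgw_asm (W : ℕ) (f : ℕ → ℕ) (n : ℕ) (h : ∀ i < n, f i < 2 ^ W) (i : ℕ) :
    dgw W (asm W f n) i = if i < n then f i else 0 := by
  rw [asm_eq, dgw_sum W f n h]

theorem dgw_rep (W x n : ℕ) (hW : 0 < W) (hx : x < 2 ^ W) (i : ℕ) :
    dgw W (rep W x n) i = if i < n then x else 0 := by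
  rw [rep_eq W x n hW, dgw_sum W (fun _ => x) n fun _ _ => hx]

theorem lt_of_dgw_eq_zero (W : ℕ) (hW : 0 < W) (x n : ℕ) (h : ∀ i, n ≤ i → dgw W x i = 0) :
    x < 2 ^ (W * n) := by
  refine Nat.lt_pow_two_of_testBit x fun j hj => ?_
  have h1 := congrArg (fun z => Nat.testBit z (j % W))
    (h (j / W) ((Nat.le_div_iff_mul_le hW).2 (by rwa [mul_comm])))
  simpa [testBit_dgw, Nat.mod_lt j hW, Nat.div_add_mod] using h1

theorem eq_sum_dgw (W : ℕ) (hW : 0 < W) (x n : ℕ) (h : ∀ i, n ≤ i → dgw W x i = 0) :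
    x = ∑ i ∈ Finset.range n, dgw W x i * 2 ^ (W * i) := by
  refine eq_of_dgw_eq W hW _ _ fun i => ?_
  rw [dgw_sum W _ n fun i _ => dgw_lt W x i]
  split_ifs with hi
  · rfl
  · exact h i (by omega)

theorem dgw_sub (W : ℕ) (hW : 0 < W) (x y : ℕ) (h : ∀ i, dgw W y i ≤ dgw W x i) (i : ℕ) :
    dgw W (x - y) i = dgw W x i - dgw W y i := by
  have hx : ∀ i, x ≤ i → dgw W x i = 0 := fun i hi => by
    have : x < 2 ^ (W * i) :=
      lt_of_le_of_lt (le_trans hi (Nat.le_mul_of_pos_left i hW)) Nat.lt_two_pow_self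
    rw [dgw, Nat.div_eq_of_lt this, Nat.zero_mod]
  have hz : ∀ i, dgw W (∑ i ∈ Finset.range x, (dgw W x i - dgw W y i) * 2 ^ (W * i)) i
      = dgw W x i - dgw W y i := fun i => by
    rw [dgw_sum W _ x fun i _ => lt_of_le_of_lt (Nat.sub_le _ _) (dgw_lt W x i)]
    split_ifs with hi
    · rfl
    · rw [hx i (by omega), Nat.zero_sub]
  have : x = y + ∑ i ∈ Finset.range x, (dgw W x i - dgw W y i) * 2 ^ (W * i) := by
    refine eq_of_dgw_eq W hW _ _ fun i => ?_
    rw [dgw_add, hz, Nat.add_sub_cancel' (h i)]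
    intro i
    rw [hz, Nat.add_sub_cancel' (h i)]
    exact dgw_lt W x i
  rw [← hz i]
  congr 1
  omega

/-- digits of digits -/
theorem dgw_dgw (W S x r s : ℕ) (hs : s < S) :
    dgw W (dgw (W * S) x r) s = dgw W x (s + S * r) := by
  refine Nat.eq_of_testBit_eq fun j => ?_
  simp only [testBit_dgw]
  by_cases hj : j < W
  · have : W * (s + 1) ≤ W * S := Nat.mul_le_mul_left _ hs
    have : W * s + j < W * S := by rw [mul_add] at this; omega
    simp only [hj, this, decide_true, Bool.true_and]
    congr 1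
    ring
  · simp [hj]

theorem dgw_msk (W n i : ℕ) : dgw W (msk (W * n)) i = if i < n then 2 ^ W - 1 else 0 := by
  refine Nat.eq_of_testBit_eq fun j => ?_
  rw [testBit_dgw, msk_eq, Nat.testBit_two_pow_sub_one]
  split_ifs with h
  · rw [Nat.testBit_two_pow_sub_one]
    by_cases hj : j < W
    · have : W * (i + 1) ≤ W * n := Nat.mul_le_mul_left _ h
      have : W * i + j < W * n := by rw [mul_add] at this; omega
      simp [this]
    · simp [hj]
  · have : W * n ≤ W * i := Nat.mul_le_mul_left _ (by omega)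
    have : ¬ W * i + j < W * n := by omega
    simp [this]

theorem dgw_vec (sh : ℕ) (rows : List ℕ) (h : ∀ r, nth 0 rows r < 2 ^ sh) (r : ℕ) :
    dgw sh (vec sh rows) r = nth 0 rows r := by
  induction rows generalizing r with
  | nil => simp [vec, dgw_zero, nth_eq]
  | cons x rows ih =>
    have h0 : x < 2 ^ sh := by simpa [nth_eq] using h 0
    have h1 : vec sh (x :: rows) = x + 2 ^ sh * vec sh rows := by
      change x + (vec sh rows) <<< sh = _
      rw [Nat.shiftLeft_eq, mul_comm]
    rw [h1]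
    cases r with
    | zero =>
      simp only [dgw, mul_zero, pow_zero, Nat.div_one, Nat.add_mul_mod_self_left]
      rw [Nat.mod_eq_of_lt h0]
      simp [nth_eq]
    | succ r =>
      rw [dgw_succ, Nat.add_mul_div_left _ _ (by positivity), Nat.div_eq_of_lt h0, zero_add,
        ih fun r => by simpa [nth_eq] using h (r + 1)]
      simp [nth_eq]

/-- the lanes of a list of rows, each having at most `S` lanes -/
theorem dg40_vec (S : ℕ) (rows : List ℕ) (h : ∀ r s, S ≤ s → dg40 (nth 0 rows r) s = 0)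
    (r s : ℕ) (hs : s < S) : dg40 (vec (40 * S) rows) (s + S * r) = dg40 (nth 0 rows r) s := by
  rw [dg40_eq, dg40_eq, ← dgw_dgw 40 S _ r s hs, dgw_vec]
  intro r
  exact lt_of_dgw_eq_zero 40 (by norm_num) _ S fun i hi => by rw [← dg40_eq]; exact h r i hi

end Vale.Agent.P181.K
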