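import Mathlib
import Vale.Agent.P181.Lanes

/-!
The algebra behind the packed Newton recursion.
-/

namespace Vale.Agent.P181.EngA

open MvPolynomial

section Series

variable {R : Type*} [CommRing R]

/-- geometric series -/
noncomputable def Gs (a : R) : PowerSeries R := PowerSeries.mk fun c => a ^ c

theorem Gs_eq (a : R) : Gs a = 1 + PowerSeries.C a * (PowerSeries.X * Gs a) := by
  ext n
  cases n with
  | zero => simp [Gs]
  | succ n =>
    rw [map_add, PowerSeries.coeff_C_mul, PowerSeries.coeff_succ_X_mul]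
    simp [Gs, PowerSeries.coeff_one, pow_succ']

theorem coeff_succ_mul_Gs (φ : PowerSeries R) (a : R) (n : ℕ) :
    PowerSeries.coeff (n + 1) (φ * Gs a) =
      PowerSeries.coeff (n + 1) φ + a * PowerSeries.coeff n (φ * Gs a) := by
  conv_lhs => rw [Gs_eq a, mul_add, mul_one, mul_left_comm, mul_left_comm φ]
  rw [map_add, PowerSeries.coeff_C_mul, PowerSeries.coeff_succ_X_mul]

noncomputable def h2 (a b : R) (t : ℕ) : R := PowerSeries.coeff t (Gs a * Gs b)

noncomputable def h3 (a b c : R) (t : ℕ) : R := PowerSeries.coeff t (Gs a * Gs b * Gs c)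

theorem h2_zero (a b : R) : h2 a b 0 = 1 := by simp [h2, Gs]

theorem h3_zero (a b c : R) : h3 a b c 0 = 1 := by simp [h3, Gs]

theorem h2_succ (a b : R) (t : ℕ) : h2 a b (t + 1) = a ^ (t + 1) + b * h2 a b t := by
  rw [h2, coeff_succ_mul_Gs, Gs, PowerSeries.coeff_mk]
  rfl

theorem h3_succ (a b c : R) (t : ℕ) : h3 a b c (t + 1) = h2 a b (t + 1) + c * h3 a b c t :=
  coeff_succ_mul_Gs _ _ _

theorem map_h2 {S : Type*} [CommRing S] (f : R →+* S) (a b : R) (t : ℕ) :
    f (h2 a b t) = h2 (f a) (f b) t := by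
  induction t with
  | zero => simp [h2_zero]
  | succ t ih => simp [h2_succ, ih]

theorem map_h3 {S : Type*} [CommRing S] (f : R →+* S) (a b c : R) (t : ℕ) :
    f (h3 a b c t) = h3 (f a) (f b) (f c) t := by
  induction t with
  | zero => simp [h3_zero]
  | succ t ih => simp [h3_succ, ih, map_h2]

theorem aeval_HH [Algebra ℤ R] {n : ℕ} (f : Fin n → R) (q : ℕ) :
    aeval f (HH n q) = PowerSeries.coeff q (∏ i, Gs (f i)) := by
  rw [HH, hsymm_eq_sum, map_sum, PowerSeries.coeff_prod]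
  refine Finset.sum_congr rfl fun M _ => ?_
  rw [aeval_monomial, map_one, one_mul, Finsupp.prod_fintype _ _ (fun _ => pow_zero _)]
  simp [Gs]

theorem aeval_HH_six [Algebra ℤ R] (f : Fin 6 → R) (q : ℕ) :
    aeval f (HH 6 q) = ∑ t ∈ Finset.range (q + 1),
      h3 (f 0) (f 1) (f 2) (q - t) * h3 (f 3) (f 4) (f 5) t := by
  rw [aeval_HH, Fin.prod_univ_six,
    show Gs (f 0) * Gs (f 1) * Gs (f 2) * Gs (f 3) * Gs (f 4) * Gs (f 5) =
      Gs (f 3) * Gs (f 4) * Gs (f 5) * (Gs (f 0) * Gs (f 1) * Gs (f 2)) by ring,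
    PowerSeries.coeff_mul, Finset.Nat.sum_antidiagonal_eq_sum_range_succ_mk]
  exact Finset.sum_congr rfl fun t _ => mul_comm _ _

end Series

abbrev P3 := MvPolynomial (Fin 3) ℤ

/-- coefficient of a polynomial in three variables -/
noncomputable def cf (B : P3) (i j l : ℕ) : ℤ := coeff (idx3 i j l) B

theorem idx3_inj {a b c i j l : ℕ} : idx3 a b c = idx3 i j l ↔ a = i ∧ b = j ∧ c = l := by
  constructor
  · intro h
    exact ⟨DFunLike.congr_fun h 0, DFunLike.congr_fun h 1, DFunLike.congr_fun h 2⟩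
  · rintro ⟨rfl, rfl, rfl⟩
    rfl

theorem monomial_idx3 (a b c : ℕ) (r : ℤ) :
    (monomial (idx3 a b c) r : P3) = C r * (X 0 ^ a * X 1 ^ b * X 2 ^ c) := by
  rw [monomial_eq, Finsupp.prod_fintype _ _ (fun _ => pow_zero _), Fin.prod_univ_three]
  rfl

theorem cf_mon_mul (a b c : ℕ) (B : P3) (i j l : ℕ) :
    cf (X 0 ^ a * X 1 ^ b * X 2 ^ c * B) i j l =
      if a ≤ i ∧ b ≤ j ∧ c ≤ l then cf B (i - a) (j - b) (l - c) else 0 := by
  have h := monomial_idx3 a b c 1
  rw [C_1, one_mul] at h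
  have h1 : idx3 a b c ≤ idx3 i j l ↔ a ≤ i ∧ b ≤ j ∧ c ≤ l := by
    rw [Finsupp.le_def, Fin.forall_fin_succ, Fin.forall_fin_two]
    rfl
  have h2 : idx3 i j l - idx3 a b c = idx3 (i - a) (j - b) (l - c) := by
    ext k
    fin_cases k <;> rfl
  rw [← h, cf, coeff_monomial_mul', one_mul, h2]
  simp only [h1]
  rfl

theorem cf_X0 (a : ℕ) (B : P3) (i j l : ℕ) :
    cf (X 0 ^ a * B) i j l = if a ≤ i then cf B (i - a) j l else 0 := by
  simpa using cf_mon_mul a 0 0 B i j l

theorem cf_X1 (a : ℕ) (B : P3) (i j l : ℕ) :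
    cf (X 1 ^ a * B) i j l = if a ≤ j then cf B i (j - a) l else 0 := by
  simpa using cf_mon_mul 0 a 0 B i j l

theorem cf_X2 (a : ℕ) (B : P3) (i j l : ℕ) :
    cf (X 2 ^ a * B) i j l = if a ≤ l then cf B i j (l - a) else 0 := by
  simpa using cf_mon_mul 0 0 a B i j l

theorem cf_add (A B : P3) (i j l : ℕ) : cf (A + B) i j l = cf A i j l + cf B i j l :=
  coeff_add _ _ _

/-- the two and three variable kernels -/
noncomputable abbrev k2 (k t : ℕ) : P3 := h2 (X 0 ^ k) (X 1 ^ k) t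

noncomputable abbrev k3 (k t : ℕ) : P3 := h3 (X 0 ^ k) (X 1 ^ k) (X 2 ^ k) t

theorem cf_k2_succ (k t : ℕ) (B : P3) (i j l : ℕ) : cf (k2 k (t + 1) * B) i j l =
    (if k * (t + 1) ≤ i then cf B (i - k * (t + 1)) j l else 0) +
      if k ≤ j then cf (k2 k t * B) i (j - k) l else 0 := by
  rw [k2, h2_succ, add_mul, cf_add, ← pow_mul, cf_X0, mul_assoc, cf_X1]

theorem cf_k3_succ (k t : ℕ) (B : P3) (i j l : ℕ) : cf (k3 k (t + 1) * B) i j l =
    cf (k2 k (t + 1) * B) i j l + if k ≤ l then cf (k3 k t * B) i j (l - k) else 0 := by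
  rw [k3, h3_succ, add_mul, cf_add, mul_assoc, cf_X2]

theorem cf_k2_ne (k t : ℕ) (B : P3) (i j l : ℕ) (h : cf (k2 k t * B) i j l ≠ 0) :
    ∃ a v, a + v = t ∧ k * a ≤ i ∧ k * v ≤ j ∧ cf B (i - k * a) (j - k * v) l ≠ 0 := by
  induction t generalizing j with
  | zero => exact ⟨0, 0, rfl, by simp, by simp, by simpa [h2_zero] using h⟩
  | succ t ih =>
    rw [cf_k2_succ] at h
    by_cases h1 : (if k * (t + 1) ≤ i then cf B (i - k * (t + 1)) j l else 0) = 0
    · rw [h1, zero_add] at h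
      split_ifs at h with h2
      · obtain ⟨a, v, e, ha, hv, hc⟩ := ih _ h
        refine ⟨a, v + 1, by omega, ha, by rw [mul_add]; omega, ?_⟩
        rwa [show j - k * (v + 1) = j - k - k * v by rw [mul_add]; omega]
      · exact absurd rfl h
    · split_ifs at h1 with h2
      · exact ⟨t + 1, 0, rfl, h2, by simp, by simpa using h1⟩
      · exact absurd rfl h1

theorem cf_k3_ne (k t : ℕ) (B : P3) (i j l : ℕ) (h : cf (k3 k t * B) i j l ≠ 0) :
    ∃ a v u, a + v + u = t ∧ k * a ≤ i ∧ k * v ≤ j ∧ k * u ≤ l ∧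
      cf B (i - k * a) (j - k * v) (l - k * u) ≠ 0 := by
  induction t generalizing l with
  | zero => exact ⟨0, 0, 0, rfl, by simp, by simp, by simp, by simpa [h3_zero] using h⟩
  | succ t ih =>
    rw [cf_k3_succ] at h
    by_cases h1 : cf (k2 k (t + 1) * B) i j l = 0
    · rw [h1, zero_add] at h
      split_ifs at h with h2
      · obtain ⟨a, v, u, e, ha, hv, hu, hc⟩ := ih _ h
        refine ⟨a, v, u + 1, by omega, ha, hv, by rw [mul_add]; omega, ?_⟩
        rwa [show l - k * (u + 1) = l - k - k * u by rw [mul_add]; omega]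
      · exact absurd rfl h
    · obtain ⟨a, v, e, ha, hv, hc⟩ := cf_k2_ne k _ B i j l h1
      exact ⟨a, v, 0, e, ha, hv, by simp, by simpa using hc⟩

theorem psi6_expand (x z : ℤ) (k q : ℕ) : psi6 x z (expand k (HH 6 q)) =
    ∑ t ∈ Finset.range (q + 1), C (h3 1 (x ^ k) (z ^ k) (q - t)) * k3 k t := by
  have h : (psi6 x z).comp (expand k) =
      aeval ![1, C (x ^ k), C (z ^ k), X 0 ^ k, X 1 ^ k, X 2 ^ k] := by
    ext1 i
    fin_cases i <;> simp [psi6]
  have h1 := DFunLike.congr_fun h (HH 6 q)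
  rw [AlgHom.comp_apply] at h1
  rw [h1, aeval_HH_six]
  refine Finset.sum_congr rfl fun t _ => ?_
  rw [map_h3, C_1]
  rfl

theorem ev_rec (x z : ℤ) (q p i j l : ℕ) : (p : ℤ) * ev x z (vand 6 * GG 6 q p) i j l =
    ∑ n ∈ Finset.range p, ∑ t ∈ Finset.range (q + 1),
      h3 1 (x ^ (1 + n)) (z ^ (1 + n)) (q - t) *
        cf (k3 (1 + n) t * psi6 x z (vand 6 * GG 6 q (p - 1 - n))) i j l := by
  have h : (C (p : ℤ) : P3) * psi6 x z (vand 6 * GG 6 q p) = ∑ n ∈ Finset.range p,
      psi6 x z (expand (n + 1) (HH 6 q)) * psi6 x z (vand 6 * GG 6 q (p - 1 - n)) := by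
    have := congrArg (fun A => psi6 x z (vand 6 * A)) (GG_rec (n := 6) q p)
    simp only [Finset.mul_sum, map_sum, map_mul, map_natCast] at this
    simp only [map_mul, map_natCast]
    rw [mul_left_comm, this]
    exact Finset.sum_congr rfl fun n _ => mul_left_comm _ _ _
  rw [ev, ← coeff_C_mul, h, coeff_sum]
  refine Finset.sum_congr rfl fun n _ => ?_
  rw [psi6_expand, Finset.sum_mul, coeff_sum, add_comm n]
  exact Finset.sum_congr rfl fun t _ => by rw [mul_assoc, coeff_C_mul, cf]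

theorem psi6_monomial (x z : ℤ) (β : Fin 6 →₀ ℕ) (c : ℤ) : psi6 x z (monomial β c) =
    monomial (idx3 (β 3) (β 4) (β 5)) (c * x ^ β 1 * z ^ β 2) := by
  rw [psi6, aeval_monomial, Finsupp.prod_fintype _ _ (fun _ => pow_zero _), Fin.prod_univ_six,
    monomial_idx3]
  simp
  ring

theorem ev_eq_zero (x z : ℤ) {A : MvPolynomial (Fin 6) ℤ} {N : ℕ} (hA : A.IsHomogeneous N)
    {i j l : ℕ} (h : N < i + j + l) : ev x z A i j l = 0 := by
  rw [ev, A.as_sum, map_sum, coeff_sum]
  refine Finset.sum_eq_zero fun β hβ => ?_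
  rw [psi6_monomial, coeff_monomial, if_neg]
  rw [idx3_inj]
  rintro ⟨rfl, rfl, rfl⟩
  have h1 : β.degree = N := by
    rw [Finsupp.degree_eq_weight_one]
    exact hA (mem_support_iff.1 hβ)
  rw [Finsupp.degree_eq_sum, Fin.sum_univ_six] at h1
  omega

theorem coeff_swap_neg {P : P3} {a b : Fin 3} (hP : rename (Equiv.swap a b) P = -P)
    (β γ : Fin 3 →₀ ℕ) (h : ∀ k, γ k = β (Equiv.swap a b k)) : coeff γ P = -coeff β P := by
  have h1 := coeff_rename_mapDomain (Equiv.swap a b) (Equiv.swap a b).injective P β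
  have h2 : β.mapDomain (Equiv.swap a b) = γ := by
    ext k
    rw [h, Finsupp.mapDomain_equiv_apply, Equiv.symm_swap]
  rw [h2, hP, coeff_neg] at h1
  rw [← h1, neg_neg]

theorem ev_swap1 (x z : ℤ) {A : MvPolynomial (Fin 6) ℤ} (hA : AntiSym A) (i j l : ℕ) :
    ev x z A i j l = -ev x z A j i l := by
  have h : (rename (Equiv.swap (0 : Fin 3) 1)).comp (psi6 x z) =
      (psi6 x z).comp (rename (Equiv.swap (3 : Fin 6) 4)) := by
    ext1 k
    fin_cases k <;> simp [psi6, Equiv.swap_apply_def]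
  have h1 := DFunLike.congr_fun h A
  rw [AlgHom.comp_apply, AlgHom.comp_apply, hA 3 4 (by decide), map_neg] at h1
  exact coeff_swap_neg h1 _ _ fun k => by fin_cases k <;> rfl

theorem ev_swap2 (x z : ℤ) {A : MvPolynomial (Fin 6) ℤ} (hA : AntiSym A) (i j l : ℕ) :
    ev x z A i j l = -ev x z A i l j := by
  have h : (rename (Equiv.swap (1 : Fin 3) 2)).comp (psi6 x z) =
      (psi6 x z).comp (rename (Equiv.swap (4 : Fin 6) 5)) := by
    ext1 k
    fin_cases k <;> simp [psi6, Equiv.swap_apply_def]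
  have h1 := DFunLike.congr_fun h A
  rw [AlgHom.comp_apply, AlgHom.comp_apply, hA 4 5 (by decide), map_neg] at h1
  exact coeff_swap_neg h1 _ _ fun k => by fin_cases k <;> rfl

theorem ev_deg (x z : ℤ) (q p : ℕ) {i j l : ℕ} (h : p * q + 15 < i + j + l) :
    ev x z (vand 6 * GG 6 q p) i j l = 0 := by
  refine ev_eq_zero x z (vand_isHomogeneous.mul (GG_isHomogeneous q p)) ?_
  have : (rho 6).degree = 15 := by
    rw [Finsupp.degree_eq_sum, Fin.sum_univ_six]
    rfl
  omega

theorem cf_prod (f g h : Polynomial ℤ) (i j l : ℕ) :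
    cf (Polynomial.aeval (X 0) f * Polynomial.aeval (X 1) g * Polynomial.aeval (X 2) h) i j l =
      f.coeff i * g.coeff j * h.coeff l := by
  induction f using Polynomial.induction_on' with
  | add p q hp hq => simp only [map_add, add_mul, cf_add, hp, hq, Polynomial.coeff_add]
  | monomial a r =>
  induction g using Polynomial.induction_on' with
  | add p q hp hq => simp only [map_add, add_mul, mul_add, cf_add, hp, hq, Polynomial.coeff_add]
  | monomial b s =>
  induction h using Polynomial.induction_on' with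
  | add p q hp hq => simp only [map_add, mul_add, cf_add, hp, hq, Polynomial.coeff_add]
  | monomial c u =>
    have e : (Polynomial.aeval (X 0) (Polynomial.monomial a r) *
        Polynomial.aeval (X 1) (Polynomial.monomial b s) *
        Polynomial.aeval (X 2) (Polynomial.monomial c u) : P3) =
        monomial (idx3 a b c) (r * s * u) := by
      simp only [Polynomial.aeval_monomial, monomial_idx3, algebraMap_eq, map_mul]
      ring
    rw [e, cf, coeff_monomial]
    simp only [idx3_inj, Polynomial.coeff_monomial]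
    by_cases h1 : a = i <;> by_cases h2 : b = j <;> by_cases h3 : c = l <;> simp [h1, h2, h3]

/-- `y ^ d (1 - y) (x - y) (z - y)` -/
noncomputable def Qp (x z : ℤ) (d : ℕ) : Polynomial ℤ :=
  Polynomial.X ^ d * ((1 - Polynomial.X) * (Polynomial.C x - Polynomial.X) *
    (Polynomial.C z - Polynomial.X))

theorem coeff_Qp (x z : ℤ) (d n : ℕ) : (Qp x z d).coeff n = K.qs x z d n := by
  have e : (1 - Polynomial.X) * (Polynomial.C x - Polynomial.X) * (Polynomial.C z - Polynomial.X) =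
      Polynomial.monomial 0 (x * z) + Polynomial.monomial 1 (-(x + z + x * z)) +
        Polynomial.monomial 2 (1 + x + z) + Polynomial.monomial 3 (-1 : ℤ) := by
    simp only [← Polynomial.C_mul_X_pow_eq_monomial, map_mul, map_neg, map_add, map_one]
    ring
  rw [Qp, Polynomial.coeff_X_pow_mul', e, K.qs]
  cases h : Nat.ble d n
  · rw [if_neg (by rw [← Nat.ble_eq, h]; simp)]
  · rw [if_pos (by rw [← Nat.ble_eq, h])]
    show _ = K.qq x z (n - d)
    generalize n - d = m
    simp only [Polynomial.coeff_add, Polynomial.coeff_monomial]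
    rcases m with _ | _ | _ | _ | m <;> simp [K.qq]

theorem vand3_aux {R : Type*} [CommRing R] (a b c A B D : R) :
    a ^ 2 * A * (b ^ 1 * B) * (c ^ 0 * D) - a ^ 2 * A * (b ^ 0 * B) * (c ^ 1 * D)
      - a ^ 1 * A * (b ^ 2 * B) * (c ^ 0 * D) + a ^ 1 * A * (b ^ 0 * B) * (c ^ 2 * D)
      + a ^ 0 * A * (b ^ 2 * B) * (c ^ 1 * D) - a ^ 0 * A * (b ^ 1 * B) * (c ^ 2 * D)
      = A * B * D * ((a - b) * (a - c) * (b - c)) := by
  ring

theorem vand6_aux {R : Type*} [CommRing R] (u1 u2 u3 u4 u5 v2 v3 v4 v5 w3 w4 w5 p q r : R) :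
    u1 * (u2 * (u3 * (u4 * u5))) * (v2 * (v3 * (v4 * v5)) * (w3 * (w4 * w5) * (p * q * r)))
      = u1 * u2 * v2 * (u3 * v3 * w3 * (u4 * v4 * w4) * (u5 * v5 * w5) * (p * q * r)) := by
  ring

theorem ev_vand (x z : ℤ) (i j l : ℕ) : ev x z (vand 6) i j l = K.vnd x z i j l := by
  let T : ℕ → ℕ → ℕ → P3 := fun a b c => Polynomial.aeval (X 0) (Qp x z a) *
    Polynomial.aeval (X 1) (Qp x z b) * Polynomial.aeval (X 2) (Qp x z c)
  have hT : ∀ a b c, coeff (idx3 i j l) (T a b c) =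
      K.qs x z a i * K.qs x z b j * K.qs x z c l := fun a b c => by
    rw [← coeff_Qp, ← coeff_Qp, ← coeff_Qp]
    exact cf_prod _ _ _ i j l
  have h : psi6 x z (vand 6) = C ((1 - x) * (1 - z) * (x - z)) *
      (T 2 1 0 - T 2 0 1 - T 1 2 0 + T 1 0 2 + T 0 2 1 - T 0 1 2) := by
    simp only [vand, Fin.prod_univ_succ, Fin.prod_Ioi_zero, Fin.prod_Ioi_succ, map_mul, map_sub,
      psi6, aeval_X, T, Qp, map_pow, Polynomial.aeval_X, Polynomial.aeval_C, map_one,
      algebraMap_eq]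
    rw [vand3_aux, ← vand6_aux]
    simp
  rw [ev, h, coeff_C_mul, K.vnd]
  simp only [coeff_sub, coeff_add, hT]

end Vale.Agent.P181.EngA
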