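import Mathlib
import Vale.Agent.P181.Lanes
import Vale.Agent.P181.EngA

/-!
Soundness of the packed Newton recursion.
-/

namespace Vale.Agent.P181

open MvPolynomial

namespace EngA

theorem brec {α : Type} (x y : α) (b : Bool) :
    @Bool.rec (fun _ => α) x y b = if b = true then y else x := by
  cases b <;> rfl

theorem get_sound (T : K.Tab) (D : ℕ) (e : ℕ → ℕ → ℕ → ℤ) (m : ℕ → ℤ)
    (h1 : ∀ i j l, e i j l = -e j i l) (h2 : ∀ i j l, e i j l = -e i l j)
    (h3 : ∀ i j l, D < i + j + l → e i j l = 0)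
    (hT : ∀ i j l, i + j + l ≤ D → ((T i j l).1 : ℤ) ≡ e i j l [ZMOD m (i + j + l)] ∧
      ((T i j l).2 : ℤ) ≡ -e i j l [ZMOD m (i + j + l)]) (i j l : ℕ) :
    (K.get T D l i j : ℤ) ≡ e i j l [ZMOD m (i + j + l)] := by
  have z1 : ∀ i l, e i i l = 0 := fun i l => by have := h1 i i l; omega
  have z2 : ∀ i l, e i l l = 0 := fun i l => by have := h2 i l l; omega
  have z3 : ∀ i l, e i l i = 0 := fun i l => by rw [h2, z1, neg_zero]
  simp only [K.get, brec, Nat.ble_eq, Nat.blt_eq, Nat.beq_eq, Nat.add_eq]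
  split_ifs with a1 a2 a3 a4 a5 a6 a7 a8 a9 a10 a11
  · have := (hT l j i (by omega)).2
    rwa [show l + j + i = i + j + l by ring, h1 l j i, h2 j l i, h1 j i l, neg_neg, neg_neg] at this
  · subst a5; rw [z2]; rfl
  · have := (hT j l i (by omega)).1
    rwa [show j + l + i = i + j + l by ring, h2 j l i, ← h1] at this
  · subst a6; rw [z3]; rfl
  · have := (hT j i l (by omega)).2
    rwa [show j + i + l = i + j + l by ring, ← h1] at this
  · subst a7; rw [z1]; rfl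
  · have := (hT l i j (by omega)).1
    rwa [show l + i + j = i + j + l by ring, h1 l i j, ← h2] at this
  · subst a10; rw [z3]; rfl
  · have := (hT i l j (by omega)).2
    rwa [show i + l + j = i + j + l by ring, ← h2] at this
  · subst a11; rw [z2]; rfl
  · exact (hT i j l a1).1
  · rw [h3 i j l (by omega)]; rfl

theorem cons_run (a b : ℕ) (x : K.C) (hx : x.ne = false → ∀ o, x.run o = 0) (o : ℕ → ℕ → ℕ) :
    (K.C.cons a b x).run o = o a b + x.run o ∧ (K.C.cons a b x).ne = true := by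
  obtain ⟨v, e⟩ := x
  cases e with
  | false =>
    exact ⟨by rw [hx rfl o]; exact K.mod0 _, rfl⟩
  | true => exact ⟨(K.mod0 _).trans (K.add0_eq _ _), rfl⟩

theorem dg_succ (k t i j : ℕ) : K.dg k (t + 1) i j =
    if k * (t + 1) ≤ i then
      (if k ≤ j then K.C.cons (i - k * (t + 1)) j (K.dg k t i (j - k))
        else K.C.one (i - k * (t + 1)) j)
    else if k ≤ j then K.dg k t i (j - k) else K.C.nil := by
  show K.dgS k i t (K.dg k t i) j = _
  simp only [K.dgS, brec, K.frc_eq, Nat.ble_eq, Nat.add_eq, Nat.mul_eq, Nat.sub_eq]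

theorem dg_ne (k t i j : ℕ) : (K.dg k t i j).ne = false → ∀ o, (K.dg k t i j).run o = 0 := by
  induction t generalizing j with
  | zero => intro h; cases h
  | succ t ih =>
    rw [dg_succ]
    split_ifs
    · intro h; rw [(cons_run _ _ _ (ih _) fun _ _ => 0).2] at h; cases h
    · intro h; cases h
    · exact ih _
    · intro _ _; rfl

theorem dg_sound (M : ℤ) (k t i j l : ℕ) (o : ℕ → ℕ → ℕ) (B : P3)
    (h : ∀ i' ≤ i, ∀ j' ≤ j, (o i' j' : ℤ) ≡ cf B i' j' l [ZMOD M]) :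
    ((K.dg k t i j).run o : ℤ) ≡ cf (k2 k t * B) i j l [ZMOD M] := by
  induction t generalizing j with
  | zero =>
    rw [k2, h2_zero, one_mul, show (K.dg k 0 i j).run o = o i j from K.mod0 _]
    exact h i le_rfl j le_rfl
  | succ t ih =>
    have ih' := ih (j - k) fun i' hi j' hj => h i' hi j' (by omega)
    have h0 := h (i - k * (t + 1)) (by omega) j le_rfl
    rw [dg_succ, cf_k2_succ]
    split_ifs
    · rw [(cons_run _ _ _ (dg_ne _ _ _ _) o).1, Nat.cast_add]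
      exact h0.add ih'
    · rw [add_zero, show (K.C.one (i - k * (t + 1)) j).run o = o _ j from K.mod0 _]
      exact h0
    · rwa [zero_add]
    · rfl

theorem dl_succ (k t l : ℕ) : K.dl k (t + 1) l =
    if k ≤ l then K.C.cons (t + 1) l (K.dl k t (l - k)) else K.C.one (t + 1) l := by
  show K.dlS k t (K.dl k t) l = _
  simp only [K.dlS, brec, K.frc_eq, Nat.ble_eq, Nat.add_eq, Nat.sub_eq]

theorem dl_ne (k t l : ℕ) : (K.dl k t l).ne = true := by
  induction t generalizing l with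
  | zero => rfl
  | succ t ih =>
    rw [dl_succ]
    split_ifs
    · exact (cons_run _ _ _ (fun h => by rw [ih] at h; cases h) fun _ _ => 0).2
    · rfl

theorem dl_sound (M : ℤ) (k t i j l : ℕ) (E : ℕ → ℕ → ℕ) (B : P3)
    (h : ∀ t, ∀ l' ≤ l, (E t l' : ℤ) ≡ cf (k2 k t * B) i j l' [ZMOD M]) :
    ((K.dl k t l).run E : ℤ) ≡ cf (k3 k t * B) i j l [ZMOD M] := by
  induction t generalizing l with
  | zero =>
    have := h 0 l le_rfl
    rw [k2, h2_zero] at this
    rwa [k3, h3_zero, show (K.dl k 0 l).run E = E 0 l from K.mod0 _]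
  | succ t ih =>
    have ih' := ih (l - k) fun t l' hl => h t l' (by omega)
    have h0 := h (t + 1) l le_rfl
    rw [dl_succ, cf_k3_succ]
    split_ifs
    · rw [(cons_run _ _ _ (fun h => by rw [dl_ne] at h; cases h) E).1, Nat.cast_add]
      exact h0.add ih'
    · rwa [add_zero, show (K.C.one (t + 1) l).run E = E _ l from K.mod0 _]

theorem stT_eq (E : ℕ → ℕ → ℕ) (k l t c acc : ℕ) :
    K.stT E k l t c acc = c * (K.dl k t l).run E + acc := by
  simp only [K.stT, brec, Nat.beq_eq, K.mod0, Nat.add_eq, Nat.mul_eq]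
  split_ifs with h
  · rw [h, mul_zero, zero_add]
  · rfl

theorem hc_sound (w S k m kb : ℕ) :
    (K.hc w S k m kb : ℤ) ≡ h3 1 ((2 ^ w) ^ k) ((2 ^ (w * S)) ^ k) m [ZMOD 2 ^ kb] := by
  have e2 : ∀ a n : ℕ, ((@Nat.rec (fun _ => ℕ) 1 (K.stepH2 a) n : ℕ) : ℤ) = h2 1 (2 ^ a) n := by
    intro a n
    induction n with
    | zero => rw [h2_zero]; rfl
    | succ n ih =>
      rw [h2_succ, ← ih, one_pow]
      show ((1 + _ <<< a : ℕ) : ℤ) = _
      rw [Nat.shiftLeft_eq]
      push_cast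
      ring
  have e3 : ∀ a c n : ℕ,
      ((@Nat.rec (fun _ => ℕ) 1 (K.stepH3 a c) n : ℕ) : ℤ) = h3 1 (2 ^ a) (2 ^ c) n := by
    intro a c n
    induction n with
    | zero => rw [h3_zero]; rfl
    | succ n ih =>
      rw [h3_succ, ← ih, ← e2]
      show ((@Nat.rec (fun _ => ℕ) 1 (K.stepH2 a) (n + 1) + _ <<< c : ℕ) : ℤ) = _
      rw [Nat.shiftLeft_eq]
      push_cast
      ring
  simp only [K.hc, K.frc_eq, K.land_msk, Nat.mul_eq]
  rw [Int.natCast_mod, e3, ← pow_mul, ← pow_mul, mul_right_comm w S]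
  push_cast
  exact Int.mod_modEq _ _

theorem hl_run (w S q k kb hi n : ℕ) (d : ℕ → ℕ) (f : ℕ → ℕ → ℕ → ℕ)
    (hf : ∀ t c acc, f t c acc = c * d t + acc) (z : ℕ) :
    (@Nat.rec (fun _ => K.F ℕ) K.F.nil (K.hlS w S q k kb hi) n).run f z =
      ∑ u ∈ Finset.range n, K.hc w S k (q - (hi - u)) kb * d (hi - u) + z := by
  induction n with
  | zero => exact (K.mod0 z).trans (by simp)
  | succ n ih =>
    rw [Finset.sum_range_succ, add_comm (∑ u ∈ Finset.range n, _), add_assoc, ← ih, ← hf]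
    show (K.F.cons _ _ (@Nat.rec (fun _ => K.F ℕ) K.F.nil (K.hlS w S q k kb hi) n)).run f z = _
    generalize (@Nat.rec (fun _ => K.F ℕ) K.F.nil (K.hlS w S q k kb hi) n) = x
    cases x
    rfl

theorem modEq_sum {M : ℤ} (n : ℕ) (f g : ℕ → ℤ) (h : ∀ u < n, f u ≡ g u [ZMOD M]) :
    ∑ u ∈ Finset.range n, f u ≡ ∑ u ∈ Finset.range n, g u [ZMOD M] := by
  induction n with
  | zero => rfl
  | succ n ih =>
    rw [Finset.sum_range_succ, Finset.sum_range_succ]
    exact (ih fun u hu => h u (by omega)).add (h n (by omega))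

theorem stepLev_sound (M : ℤ) (w S q kb s k i j l D : ℕ) (hM : M ∣ 2 ^ kb) (hk : 0 < k)
    (G : K.Get) (B : P3) (hB : ∀ i j l, D < i + j + l → cf B i j l = 0)
    (hs : s + (i + j + l) = D + k * q)
    (h : ∀ i' ≤ i, ∀ j' ≤ j, ∀ l' ≤ l, (G l' i' j' : ℤ) ≡ cf B i' j' l' [ZMOD M]) (acc : ℕ) :
    (K.stepLev (K.hl w S q kb s) q i j l k G acc : ℤ) ≡ ∑ t ∈ Finset.range (q + 1),
      h3 1 ((2 ^ w) ^ k) ((2 ^ (w * S)) ^ k) (q - t) * cf (k3 k t * B) i j l + acc [ZMOD M] := by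
  simp only [K.stepLev, K.frc_eq, K.lev2, K.hl, K.mn_eq, K.div_eq, Nat.add_eq, Nat.sub_eq,
    Nat.mul_eq]
  set hi := min q (i / k + j / k + l / k) with hhi
  set lo := (k * q - s + (k - 1)) / k with hlo
  set g : ℕ → ℤ := fun t => h3 1 ((2 ^ w) ^ k) ((2 ^ (w * S)) ^ k) (q - t) * cf (k3 k t * B) i j l
    with hg
  have g1 : ∀ t, g t ≠ 0 → lo ≤ t ∧ t ≤ i / k + j / k + l / k := fun t ht => by
    obtain ⟨a, v, u, rfl, ha, hv, hu, hc⟩ := cf_k3_ne k t B i j l (right_ne_zero_of_mul ht)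
    have h1 := mt (hB _ _ _) hc
    have h2 := (Nat.le_div_iff_mul_le hk).2 (mul_comm k a ▸ ha)
    have h3 := (Nat.le_div_iff_mul_le hk).2 (mul_comm k v ▸ hv)
    have h4 := (Nat.le_div_iff_mul_le hk).2 (mul_comm k u ▸ hu)
    refine ⟨Nat.lt_succ_iff.1 ((Nat.div_lt_iff_lt_mul hk).2 ?_), by omega⟩
    rw [show (a + v + u).succ * k = k * a + k * v + k * u + k by rw [Nat.succ_eq_add_one]; ring]
    omega
  have e : ∑ t ∈ Finset.range (q + 1), g t = ∑ u ∈ Finset.range (hi + 1 - lo), g (hi - u) := by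
    rw [← Finset.sum_subset (s₁ := Finset.range (hi + 1)) (by simp [hhi]),
      ← Finset.sum_range_reflect, eq_comm]
    · refine Finset.sum_subset (by simp) fun u h1 h2 => ?_
      by_contra h3
      have := (g1 _ h3).1
      simp only [Finset.mem_range] at h1 h2
      omega
    · intro t h1 h2
      by_contra h3
      have := (g1 _ h3).2
      simp only [Finset.mem_range] at h1 h2
      omega
  rw [hl_run w S q k kb hi _ _ _ (stT_eq _ k l), e]
  push_cast
  refine (modEq_sum _ _ _ fun u _ => ((hc_sound _ _ _ _ _).of_dvd hM).mul ?_).add_right _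
  exact dl_sound M k _ i j l _ B fun t l' hl =>
    dg_sound M k t i j l' _ B fun i' hi j' hj => h i' hi j' hj l' hl

theorem lv_sound (M : ℤ) (f : ℕ → K.Get → ℕ → ℕ) (z : ℕ) (g : ℕ → ℤ) (L : List K.Get) (k : ℕ)
    (x : K.F K.Get)
    (h : ∀ n (hn : n < L.length) acc, (f (k + n) L[n] acc : ℤ) ≡ g n + acc [ZMOD M]) :
    ((@List.rec K.Get (fun _ => ℕ → K.F K.Get → K.F K.Get) (fun _ x => x) K.lvS L k x).run f z : ℤ)
      ≡ ∑ n ∈ Finset.range L.length, g n + x.run f z [ZMOD M] := by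
  induction L generalizing k x g with
  | nil => simp
  | cons G L ih =>
    have h1 := ih (fun n => g (n + 1)) (k + 1) (K.F.cons k G x) fun n hn acc => by
      have := h (n + 1) (by simpa using hn) acc
      rwa [show k + (n + 1) = k + 1 + n by ring] at this
    have h2 : (K.F.cons k G x).run f z = f k G (x.run f z) := by cases x; rfl
    rw [List.length_cons, Finset.sum_range_succ', add_assoc]
    rw [h2] at h1
    exact h1.trans ((h 0 (by simp) _).add_left _)

theorem srch_spec (p a u : ℕ) (h : ∃ c < p, (a + c * u) % p = 0) :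
    K.srch p a u < p ∧ (a + K.srch p a u * u) % p = 0 := by
  have key : ∀ n, (∃ c < n, (a + c * u) % p = 0) → ∀ c, c = @Nat.rec (fun _ => ℕ) 0 (fun c ih =>
      @Bool.rec (fun _ => ℕ) ih c (Nat.beq (Nat.mod (Nat.add a (Nat.mul c u)) p) 0)) n →
      c < n ∧ (a + c * u) % p = 0 := by
    intro n
    induction n with
    | zero => rintro ⟨c, hc, -⟩; omega
    | succ n ih =>
      rintro ⟨c0, h1, h2⟩ c hc
      simp only [brec, Nat.beq_eq] at hc ih
      split_ifs at hc with h3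
      · subst hc; exact ⟨by omega, h3⟩
      · have h4 : c0 ≠ n := fun e => h3 (e ▸ h2)
        have := ih ⟨c0, by omega, h2⟩ c hc
        exact ⟨by omega, this.2⟩
  exact key p h _ rfl

theorem pr_sound (kb v : ℕ) (hv : v ≤ 2 ^ kb) (M x : ℤ) (hM : M ∣ 2 ^ kb)
    (h : (v : ℤ) ≡ x [ZMOD M]) :
    ((K.pr kb v).1 : ℤ) ≡ x [ZMOD M] ∧ ((K.pr kb v).2 : ℤ) ≡ -x [ZMOD M] := by
  simp only [K.pr, K.mod0, K.ng, brec, Nat.beq_eq, K.pw_eq, Nat.sub_eq]
  refine ⟨h, ?_⟩
  split_ifs with h0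
  · subst h0
    simpa using h.neg
  · rw [Nat.cast_sub hv, ← zero_sub]
    push_cast
    exact ((Int.modEq_zero_iff_dvd).2 hM).sub h

theorem divp_sound (p m r : ℕ) (hp0 : 0 < p) (hp : p ≤ 25) (hr : r < 2 ^ (m + 5)) (x : ℤ)
    (h : (r : ℤ) ≡ p * x [ZMOD 2 ^ (m + 5)]) :
    ((K.divp p (m + 5) r).1 : ℤ) ≡ x [ZMOD 2 ^ m] ∧
      ((K.divp p (m + 5) r).2 : ℤ) ≡ -x [ZMOD 2 ^ m] := by
  simp only [K.divp, K.frc_eq, K.mod_eq, K.pw_eq, K.add0_eq, K.div_eq, Nat.mul_eq]
  have ht : ∀ c, (r % p + c * (2 ^ (m + 5) % p)) % p = 0 ↔ p ∣ r + c * 2 ^ (m + 5) := fun c => by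
    rw [Nat.dvd_iff_mod_eq_zero, Nat.add_mod r, Nat.mul_mod c (2 ^ (m + 5)),
      Nat.add_mod (r % p), Nat.mul_mod c (_ % p), Nat.mod_mod, Nat.mod_mod]
  obtain ⟨hc, hd⟩ := srch_spec p (r % p) (2 ^ (m + 5) % p) (by
    obtain ⟨d, hd⟩ := h.dvd
    have hp' : (0 : ℤ) < p := by exact_mod_cast hp0
    have h0 := Int.emod_nonneg d hp'.ne'
    have h1 := Int.emod_lt_of_pos d hp'
    refine ⟨(d % p).toNat, by omega, (ht _).2 ?_⟩
    rw [← Int.natCast_dvd_natCast]
    push_cast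
    rw [Int.toNat_of_nonneg h0, Int.emod_def]
    exact ⟨x - d / p * 2 ^ (m + 5), by linear_combination -hd⟩)
  generalize K.srch p (r % p) (2 ^ (m + 5) % p) = c at hc hd
  obtain ⟨v, hv⟩ := (ht c).1 hd
  rw [hv, Nat.mul_div_cancel_left _ hp0]
  refine pr_sound _ v ?_ _ _ (pow_dvd_pow _ (by omega)) ?_
  · refine Nat.le_of_mul_le_mul_left ?_ hp0
    have : (c + 1) * 2 ^ (m + 5) ≤ p * 2 ^ (m + 5) := Nat.mul_le_mul_right _ hc
    rw [add_mul] at this
    omega
  · have h1 : (p : ℤ) * v ≡ p * x [ZMOD 2 ^ (m + 5)] := by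
      refine Int.ModEq.trans ?_ h
      have : (p : ℤ) * v = r + 2 ^ (m + 5) * c := by
        have := congrArg (Nat.cast : ℕ → ℤ) hv
        push_cast at this
        linear_combination -this
      rw [this]
      exact Int.modEq_add_fac_self
    refine (Int.ModEq.cancel_left_div_gcd (by positivity) h1).of_dvd ?_
    have h2 : Int.gcd (2 ^ (m + 5)) p = Nat.gcd (2 ^ (m + 5)) p := by
      rw [← Int.gcd_natCast_natCast]; push_cast; rfl
    obtain ⟨g, hg, e⟩ := (Nat.dvd_prime_pow Nat.prime_two).1 (Nat.gcd_dvd_left (2 ^ (m + 5)) p)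
    have h3 : 2 ^ g ≤ p := e ▸ Nat.gcd_le_right _ hp0
    have h4 : g < 5 := (Nat.pow_lt_pow_iff_right (a := 2) (by norm_num)).1 (by omega)
    rw [h2, e, show m + 5 = m + 5 - g + g by omega, pow_add]
    push_cast
    rw [Int.mul_ediv_cancel _ (by positivity)]
    exact pow_dvd_pow _ (by omega)

/-- the table of level `p` is correct, with spare bits -/
def LvOk (w S q : ℕ) (Kf : ℕ → ℕ) (p : ℕ) (G : K.Get) : Prop :=
  ∀ i j l, (G l i j : ℤ) ≡ ev (2 ^ w) (2 ^ (w * S)) (vand 6 * GG 6 q p) i j l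
    [ZMOD 2 ^ (Kf (i + j + l) + 128 - 5 * p)]

theorem inv_get (w S q : ℕ) (Kf : ℕ → ℕ) (p : ℕ) (T : K.Tab)
    (hT : ∀ i j l, i + j + l ≤ p * q + 15 →
      ((T i j l).1 : ℤ) ≡ ev (2 ^ w) (2 ^ (w * S)) (vand 6 * GG 6 q p) i j l
        [ZMOD 2 ^ (Kf (i + j + l) + 128 - 5 * p)] ∧
      ((T i j l).2 : ℤ) ≡ -ev (2 ^ w) (2 ^ (w * S)) (vand 6 * GG 6 q p) i j l
        [ZMOD 2 ^ (Kf (i + j + l) + 128 - 5 * p)]) : LvOk w S q Kf p (K.get T (p * q + 15)) :=
  get_sound T _ _ (fun σ => 2 ^ (Kf σ + 128 - 5 * p))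
    (ev_swap1 _ _ (vand_antiSym.mul_isSymmetric (GG_isSymmetric q p)))
    (ev_swap2 _ _ (vand_antiSym.mul_isSymmetric (GG_isSymmetric q p)))
    (fun _ _ _ => ev_deg _ _ q p) hT

theorem inv_zero (w S q : ℕ) (Kf : ℕ → ℕ) : LvOk w S q Kf 0 (K.get (K.tab0 w S Kf) 15) := by
  have := inv_get w S q Kf 0 (K.tab0 w S Kf) fun i j l _ => by
    simp only [K.tab0, K.frc_eq, K.pw_eq, Nat.add_eq, Nat.mul_eq, GG_zero, mul_one, ev_vand,
      mul_zero, Nat.sub_zero, Int.ofNat_eq_natCast]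
    push_cast
    generalize Kf (i + j + l) + 128 = kb
    generalize K.vnd _ _ i j l = y
    have h0 := Int.emod_nonneg y (b := 2 ^ kb) (by positivity)
    have h1 := Int.emod_lt_of_pos y (b := 2 ^ kb) (by positivity)
    refine pr_sound _ _ ?_ _ _ dvd_rfl ?_
    · rw [Int.toNat_le]
      push_cast
      exact h1.le
    · rw [Int.toNat_of_nonneg h0]
      exact Int.mod_modEq _ _
  rwa [zero_mul, zero_add] at this

theorem inv_succ (w S q : ℕ) (Kf : ℕ → ℕ) (hK : Antitone Kf) (p : ℕ) (hp : p + 1 ≤ 25)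
    (L : List K.Get) (hL : L.length = p + 1)
    (h : ∀ n (hn : n < L.length), LvOk w S q Kf (p - n) L[n]) :
    LvOk w S q Kf (p + 1) (K.get (K.tab w S q Kf (K.lv L) (p + 1)) ((p + 1) * q + 15)) := by
  refine inv_get w S q Kf _ _ fun i j l hD => ?_
  simp only [K.tab, K.frc_eq, K.land_msk, Nat.add_eq, Nat.mul_eq, Nat.sub_eq]
  set m := Kf (i + j + l) + 128 - 5 * (p + 1) with hm
  rw [show Kf (i + j + l) + 128 + 5 - 5 * (p + 1) = m + 5 by omega]
  refine divp_sound _ m _ (by omega) hp (Nat.mod_lt _ (by positivity)) _ ?_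
  rw [Int.natCast_mod]
  push_cast
  refine (Int.mod_modEq _ _).trans ?_
  rw [← Nat.cast_succ, ev_rec, ← add_zero (∑ n ∈ Finset.range p.succ, _), Nat.succ_eq_add_one]
  conv_rhs => rw [← hL]
  refine lv_sound _ _ 0 _ L 1 K.F.nil fun n hn acc => ?_
  rw [hL, Nat.add_sub_cancel]
  refine stepLev_sound _ w S q _ _ _ i j l ((p - n) * q + 15) (pow_dvd_pow _ (by omega)) (by omega)
    _ _ (fun _ _ _ => ev_deg _ _ q _) ?_ (fun i' hi j' hj l' hl => ?_) acc
  · have : (p + 1) * q = (p - n) * q + (1 + n) * q := by rw [← add_mul]; congr 1; omega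
    omega
  · refine (h n hn i' j' l').of_dvd (pow_dvd_pow _ ?_)
    have := hK (show i' + j' + l' ≤ i + j + l by omega)
    omega

end EngA

open EngA in
theorem withLev_sound (w S q : ℕ) (Kf : ℕ → ℕ) (hK : Antitone Kf) (p : ℕ) (hp : p ≤ 25) :
    ∃ G : K.Get, (∀ f : K.Get → Bool, K.withLev w S q Kf p f = f G) ∧
      ∀ i j l, (G l i j : ℤ) ≡ ev (2 ^ w) (2 ^ (w * S)) (vand 6 * GG 6 q p) i j l
        [ZMOD 2 ^ Kf (i + j + l)] := by
  have key : ∀ p ≤ 25, ∀ L, L = @Nat.rec (fun _ => List K.Get) [K.get (K.tab0 w S Kf) 15]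
      (K.stepL w S q Kf) p → L.length = p + 1 ∧
        ∀ n (hn : n < L.length), LvOk w S q Kf (p - n) L[n] := by
    intro p hp
    induction p with
    | zero =>
      rintro L rfl
      refine ⟨rfl, fun n hn => ?_⟩
      obtain rfl : n = 0 := by simpa using hn
      exact inv_zero w S q Kf
    | succ p ih =>
      rintro L rfl
      obtain ⟨h1, h2⟩ := ih (by omega) _ rfl
      refine ⟨congrArg (· + 1) h1, fun n hn => ?_⟩
      cases n with
      | zero => exact inv_succ w S q Kf hK p hp _ h1 h2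
      | succ n =>
        rw [Nat.add_sub_add_right]
        exact h2 n (Nat.lt_of_succ_lt_succ hn)
  obtain ⟨h1, h2⟩ := key p hp _ rfl
  unfold K.withLev
  generalize @Nat.rec (fun _ => List K.Get) _ _ p = L at h1 h2
  cases L with
  | nil => cases h1
  | cons G L =>
    exact ⟨G, fun _ => rfl, fun i j l =>
      (h2 0 (by simp) i j l).of_dvd (pow_dvd_pow _ (by omega))⟩

end Vale.Agent.P181
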