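import Mathlib
import Vale.Agent.P181.Lanes

/-!
Complete tables.
-/

namespace Vale.Agent.P181

open MvPolynomial

theorem lam_0 (n l6 l5 l4 r s : ℕ) :
    lam n l6 l5 l4 r s 0 = n - (l4 + r + s + (l4 + r) + l4 + l5 + l6) := rfl
theorem lam_1 (n l6 l5 l4 r s : ℕ) : lam n l6 l5 l4 r s 1 = l4 + r + s := rfl
theorem lam_2 (n l6 l5 l4 r s : ℕ) : lam n l6 l5 l4 r s 2 = l4 + r := rfl
theorem lam_3 (n l6 l5 l4 r s : ℕ) : lam n l6 l5 l4 r s 3 = l4 := rfl
theorem lam_4 (n l6 l5 l4 r s : ℕ) : lam n l6 l5 l4 r s 4 = l5 := rfl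
theorem lam_5 (n l6 l5 l4 r s : ℕ) : lam n l6 l5 l4 r s 5 = l6 := rfl

theorem degree_fin6 (l : Fin 6 →₀ ℕ) : l.degree = l 0 + l 1 + l 2 + l 3 + l 4 + l 5 := by
  rw [Finsupp.degree_eq_sum, Fin.sum_univ_six]

theorem antitone_fin6 (l : Fin 6 → ℕ) (h0 : l 1 ≤ l 0) (h1 : l 2 ≤ l 1) (h2 : l 3 ≤ l 2)
    (h3 : l 4 ≤ l 3) (h4 : l 5 ≤ l 4) : Antitone l := by
  refine Fin.antitone_iff_succ_le.2 fun i => ?_
  fin_cases i
  · exact h0
  · exact h1
  · exact h2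
  · exact h3
  · exact h4

theorem lam_antitone (n l6 l5 l4 r s : ℕ) (h65 : l6 ≤ l5) (h54 : l5 ≤ l4)
    (h : 2 * s + 3 * r + 4 * l4 + l5 + l6 ≤ n) : Antitone (lam n l6 l5 l4 r s) := by
  refine antitone_fin6 _ ?_ ?_ ?_ ?_ ?_ <;>
    simp only [lam_0, lam_1, lam_2, lam_3, lam_4, lam_5] <;> omega

theorem degree_lam (n l6 l5 l4 r s : ℕ) (h : 2 * s + 3 * r + 4 * l4 + l5 + l6 ≤ n) :
    (lam n l6 l5 l4 r s).degree = n := by
  rw [degree_fin6, lam_0, lam_1, lam_2, lam_3, lam_4, lam_5]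
  omega

theorem eq_lam (l : Fin 6 →₀ ℕ) (hl : Antitone l) :
    l = lam l.degree (l 5) (l 4) (l 3) (l 2 - l 3) (l 1 - l 2) ∧
      2 * (l 1 - l 2) + 3 * (l 2 - l 3) + 4 * l 3 + l 4 + l 5 ≤ l.degree := by
  have h0 : l 1 ≤ l 0 := hl (by decide)
  have h1 : l 2 ≤ l 1 := hl (by decide)
  have h2 : l 3 ≤ l 2 := hl (by decide)
  have hd := degree_fin6 l
  refine ⟨?_, by omega⟩
  ext i
  fin_cases i
  · change l 0 = lam _ _ _ _ _ _ 0
    rw [lam_0]; omega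
  · change l 1 = lam _ _ _ _ _ _ 1
    rw [lam_1]; omega
  · change l 2 = lam _ _ _ _ _ _ 2
    rw [lam_2]; omega
  · rfl
  · rfl
  · rfl

theorem cut_eq (p i n : ℕ) : K.cut p i n = if i ≤ p then n + 1 else 1 := by
  unfold K.cut
  cases h : Nat.ble i p
  · rw [if_neg (by simpa [← Nat.ble_eq] using h)]
  · rw [if_pos (Nat.le_of_ble_eq_true h)]

theorem fullRows_iff (Y H n e : ℕ) (rows : List ℕ) :
    K.fullRows Y H n e rows = true ↔
      (e ≤ n → n < e + 3 * rows.length ∧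
        ∀ r (h : r < rows.length), Nat.land (rows[r] + Y) H = 0) := by
  unfold K.fullRows
  cases h : Nat.ble e n
  · have : ¬ e ≤ n := by simpa [← Nat.ble_eq] using h
    simp [this]
  · have h1 : e ≤ n := Nat.le_of_ble_eq_true h
    simp only [Bool.and_eq_true, Nat.blt_eq, K.allL_iff, Nat.beq_eq, K.len_eq, Nat.add_eq,
      Nat.mul_eq, h1, true_imp_iff]

theorem fullChk_spec (p n X : ℕ) (dat : K.Dat) (h : K.fullChk p n X dat = true) :
    X < 549755813887 ∧ n < 160 ∧ ∀ d6 d5 d4, (d6 = 0 ∨ 6 ≤ p) → (d5 = 0 ∨ 5 ≤ p) →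
      (d4 = 0 ∨ 4 ≤ p) → 4 * d4 + 5 * d5 + 6 * d6 ≤ n →
        n < 4 * d4 + 5 * d5 + 6 * d6 + 3 * (K.get3 dat d6 d5 d4).length ∧
        ∀ r (h : r < (K.get3 dat d6 d5 d4).length),
          Nat.land ((K.get3 dat d6 d5 d4)[r] + K.rep 40 (549755813887 - X) 80)
            (K.rep 40 549755813888 80) = 0 := by
  unfold K.fullChk at h
  rw [K.frc_eq, K.frc_eq] at h
  simp only [Bool.and_eq_true, Nat.blt_eq, K.allN_iff, fullRows_iff, cut_eq, Nat.add_eq,
    Nat.mul_eq, Nat.sub_eq, K.div_eq] at h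
  obtain ⟨⟨h1, h2⟩, h3⟩ := h
  refine ⟨h1, h2, fun d6 d5 d4 h6 h5 h4 he => h3 d6 ?_ d5 ?_ d4 ?_ he⟩ <;> split_ifs <;> omega

theorem full_row (q p X : ℕ) (dat : K.Dat) (h : K.fullChk p (p * q) X dat = true)
    (d6 d5 d4 r : ℕ) (h6 : d6 = 0 ∨ 6 ≤ p) (h5 : d5 = 0 ∨ 5 ≤ p) (h4 : d4 = 0 ∨ 4 ≤ p)
    (hr : 3 * r + 4 * d4 + 5 * d5 + 6 * d6 ≤ p * q) : r < (K.get3 dat d6 d5 d4).length := by
  have := ((fullChk_spec _ _ _ _ h).2.2 d6 d5 d4 h6 h5 h4 (by omega)).1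
  omega

theorem lane_test (row X : ℕ) (hX : X < 549755813887)
    (hrow : ∀ s, K.dgw 40 row s ≤ 549755813887)
    (h : Nat.land (row + K.rep 40 (549755813887 - X) 80) (K.rep 40 549755813888 80) = 0)
    (s : ℕ) (hs : s < 80) : K.dgw 40 row s ≤ X := by
  have h1 := congrArg (fun z => K.dgw 40 z s) h
  simp only [K.dgw_zero] at h1
  rw [K.dgw_land, K.dgw_add, K.dgw_rep 40 _ _ (by norm_num) (by omega),
    K.dgw_rep 40 _ _ (by norm_num) (by norm_num), if_pos hs, if_pos hs] at h1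
  · by_contra hc
    have h2 := hrow s
    have h3 : (K.dgw 40 row s + (549755813887 - X)).testBit 39 = true := by
      refine Nat.testBit_of_two_pow_le_and_two_pow_add_one_gt ?_ ?_ <;> omega
    have h4 := congrArg (fun z => Nat.testBit z 39) h1
    simp only [Nat.land_eq, Nat.testBit_and, h3, Nat.zero_testBit, Bool.true_and] at h4
    exact absurd h4 (by decide)
  · intro i
    have h2 := hrow i
    rw [K.dgw_rep 40 _ _ (by norm_num) (by omega)]
    split_ifs <;> omega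

theorem full_le (q p X : ℕ) (dat : K.Dat) (hg : Good q p dat)
    (h : K.fullChk p (p * q) X dat = true) (l : Fin 6 →₀ ℕ) (hl : Antitone l)
    (hd : l.degree = p * q) : mult q p l ≤ X ∧ X < 549755813887 := by
  obtain ⟨hX, hn, hrows⟩ := fullChk_spec _ _ _ _ h
  refine ⟨?_, hX⟩
  have h3 : l 4 ≤ l 3 := hl (by decide)
  have h4 : l 5 ≤ l 4 := hl (by decide)
  obtain ⟨he, hle⟩ := eq_lam l hl
  by_cases c6 : l 5 = 0 ∨ 6 ≤ p
  swap
  · rw [mult_eq_zero q p l 5 (by change p ≤ 5; omega) (by omega)]; omega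
  by_cases c5 : l 4 - l 5 = 0 ∨ 5 ≤ p
  swap
  · rw [mult_eq_zero q p l 4 (by change p ≤ 4; omega) (by omega)]; omega
  by_cases c4 : l 3 - l 4 = 0 ∨ 4 ≤ p
  swap
  · rw [mult_eq_zero q p l 3 (by change p ≤ 3; omega) (by omega)]; omega
  have hr := full_row q p X dat h (l 5) (l 4 - l 5) (l 3 - l 4) (l 2 - l 3) c6 c5 c4 (by omega)
  have hG := (hg _ _ _ _ hr).2
  have ht := (hrows _ _ _ c6 c5 c4 (by omega)).2 _ hr
  have hnth : K.nth 0 (K.get3 dat (l 5) (l 4 - l 5) (l 3 - l 4)) (l 2 - l 3)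
      = (K.get3 dat (l 5) (l 4 - l 5) (l 3 - l 4))[l 2 - l 3] := by
    rw [K.nth_eq, List.getD_eq_getElem _ _ hr]
  rw [← hnth] at ht
  have h5 := lane_test _ X hX (fun s => by
    rw [← K.dg40_eq, hG]
    split_ifs
    · exact min_le_right _ _
    · omega) ht (l 1 - l 2) (by omega)
  rw [← K.dg40_eq, hG, if_pos (by omega), show l 4 - l 5 + l 5 = l 4 by omega,
    show l 3 - l 4 + l 4 = l 3 by omega, ← hd, ← he] at h5
  omega

theorem degree_rho6 : (rho 6).degree = 15 := by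
  rw [degree_fin6]; rfl

theorem vand_GG_isHomogeneous (q p : ℕ) : (vand 6 * GG 6 q p).IsHomogeneous (p * q + 15) := by
  have := (vand_isHomogeneous (n := 6)).mul (GG_isHomogeneous (n := 6) q p)
  rwa [degree_rho6, add_comm] at this

theorem vand_GG_antiSym (q p : ℕ) : AntiSym (vand 6 * GG 6 q p) :=
  vand_antiSym.mul_isSymmetric (GG_isSymmetric q p)

theorem bnd_of_full (q p X : ℕ) (dat : K.Dat) (hg : Good q p dat)
    (h : K.fullChk p (p * q) X dat = true) : Bnd q p X := by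
  refine (vand_GG_antiSym q p).abs_coeff_le X fun β hβ => ?_
  obtain ⟨l, rfl⟩ := exists_add_of_le (rho_le_of_strictAnti β hβ)
  have hl : Antitone l := by
    have e0 := hβ (show (0 : Fin 6) < 1 by decide)
    have e1 := hβ (show (1 : Fin 6) < 2 by decide)
    have e2 := hβ (show (2 : Fin 6) < 3 by decide)
    have e3 := hβ (show (3 : Fin 6) < 4 by decide)
    have e4 := hβ (show (4 : Fin 6) < 5 by decide)
    simp only [Finsupp.add_apply, rho_apply] at e0 e1 e2 e3 e4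
    refine antitone_fin6 _ ?_ ?_ ?_ ?_ ?_ <;> omega
  by_cases hd : l.degree = p * q
  · rw [add_comm, ← mult_eq_coeff q p l hl, Nat.abs_cast]
    exact_mod_cast (full_le q p X dat hg h l hl hd).1
  · rw [(vand_GG_isHomogeneous q p).coeff_eq_zero (by rw [map_add, degree_rho6]; omega)]
    simp

end Vale.Agent.P181
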