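import Mathlib
import Vale.Agent.P181.EngSound
import Vale.Agent.P181.Full

/-!
Decoding the packed tables.
-/

namespace Vale.Agent.P181

open MvPolynomial

/-- the exponent sitting in lane `n` -/
noncomputable def laneExp (N S i j l n : ℕ) : Fin 6 →₀ ℕ :=
  Finsupp.equivFunOnFinite.symm ![N - (n % S + n / S + i + j + l), n % S, n / S, i, j, l]

theorem laneExp_eq (N S : ℕ) (β : Fin 6 →₀ ℕ) (hd : β.degree = N) (h1 : β 1 < S) :
    laneExp N S (β 3) (β 4) (β 5) (β 1 + S * β 2) = β := by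
  have e1 : (β 1 + S * β 2) % S = β 1 := by
    rw [Nat.add_mul_mod_self_left, Nat.mod_eq_of_lt h1]
  have e2 : (β 1 + S * β 2) / S = β 2 := by
    rw [Nat.add_mul_div_left _ _ (by omega), Nat.div_eq_of_lt h1, zero_add]
  rw [degree_fin6] at hd
  unfold laneExp
  rw [e1, e2]
  ext i
  fin_cases i
  · change N - (β 1 + β 2 + β 3 + β 4 + β 5) = β 0
    omega
  all_goals rfl

theorem five_distinct (a b c d e : ℕ) (h1 : a ≠ b) (h2 : a ≠ c) (h3 : a ≠ d) (h4 : a ≠ e)
    (h5 : b ≠ c) (h6 : b ≠ d) (h7 : b ≠ e) (h8 : c ≠ d) (h9 : c ≠ e) (h10 : d ≠ e) :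
    10 ≤ a + b + c + d + e := by
  omega

theorem exp_one_le {A : MvPolynomial (Fin 6) ℤ} (hA : AntiSym A) (β : Fin 6 →₀ ℕ)
    (h : coeff β A ≠ 0) : β 1 + 10 ≤ β.degree := by
  have hne : ∀ i j : Fin 6, i ≠ j → β i ≠ β j := fun i j hij he => h (hA.coeff_eq_zero hij β he)
  have := five_distinct (β 0) (β 2) (β 3) (β 4) (β 5) (hne _ _ (by decide)) (hne _ _ (by decide))
    (hne _ _ (by decide)) (hne _ _ (by decide)) (hne _ _ (by decide)) (hne _ _ (by decide))
    (hne _ _ (by decide)) (hne _ _ (by decide)) (hne _ _ (by decide)) (hne _ _ (by decide))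
  rw [degree_fin6]
  omega

theorem ev_eq_sum_lanes (w S N M i j l : ℕ) {A : MvPolynomial (Fin 6) ℤ} (hA : AntiSym A)
    (hN : A.IsHomogeneous N) (hS : N < S + 10) (hM : S * (N + 1) ≤ M) :
    ev (2 ^ w) (2 ^ (w * S)) A i j l
      = ∑ n ∈ Finset.range M, coeff (laneExp N S i j l n) A * 2 ^ (w * n) := by
  classical
  have hdeg : ∀ β, coeff β A ≠ 0 → β.degree = N := fun β hβ => by
    by_contra hc
    exact hβ (hN.coeff_eq_zero hc)
  have hlt : ∀ β, coeff β A ≠ 0 → β 1 < S := fun β hβ => by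
    have := exp_one_le hA β hβ
    have := hdeg β hβ
    omega
  have h1 : ev (2 ^ w) (2 ^ (w * S)) A i j l
      = ∑ β ∈ A.support.filter (fun β => β 3 = i ∧ β 4 = j ∧ β 5 = l),
        coeff β A * 2 ^ (w * (β 1 + S * β 2)) := by
    rw [Finset.sum_filter, ev]
    conv_lhs => rw [A.as_sum, map_sum, coeff_sum]
    refine Finset.sum_congr rfl fun β _ => ?_
    rw [EngA.psi6_monomial, coeff_monomial]
    simp only [EngA.idx3_inj]
    split_ifs
    · rw [← pow_mul, ← pow_mul, mul_assoc, ← pow_add]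
      congr 2
      ring
    · rfl
  rw [h1]
  have hinv : ∀ β ∈ A.support.filter (fun β => β 3 = i ∧ β 4 = j ∧ β 5 = l),
      laneExp N S i j l (β 1 + S * β 2) = β := fun β hβ => by
    obtain ⟨hs, h3, h4, h5⟩ := Finset.mem_filter.1 hβ
    rw [mem_support_iff] at hs
    rw [← h3, ← h4, ← h5]
    exact laneExp_eq N S β (hdeg β hs) (hlt β hs)
  refine Finset.sum_of_injOn (fun β => β 1 + S * β 2) ?_ ?_ ?_ ?_
  · intro β hβ γ hγ h
    rw [← hinv β hβ, ← hinv γ hγ]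
    exact congrArg _ h
  · intro β hβ
    have hs := mem_support_iff.1 (Finset.mem_filter.1 hβ).1
    have h1 := hlt β hs
    have h2 := hdeg β hs
    rw [degree_fin6] at h2
    have h3 : S * (β 2 + 1) ≤ S * (N + 1) := Nat.mul_le_mul_left _ (by omega)
    rw [mul_add] at h3
    simp only [Finset.coe_range, Set.mem_Iio]
    omega
  · intro n _ hn
    by_contra hc
    refine hn ⟨laneExp N S i j l n, ?_, ?_⟩
    · refine Finset.mem_coe.2 (Finset.mem_filter.2 ⟨mem_support_iff.2 ?_, rfl, rfl, rfl⟩)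
      intro h0
      exact hc (by rw [h0, zero_mul])
    · exact Nat.mod_add_div n S
  · intro β hβ
    rw [hinv β hβ]

theorem dgw_congr (w m x y n : ℕ) (h : x ≡ y [MOD 2 ^ (w * m)]) (hn : n < m) :
    K.dgw w x n = K.dgw w y n := by
  have key : ∀ x, K.dgw w (x % 2 ^ (w * m)) n = K.dgw w x n := fun x => by
    refine Nat.eq_of_testBit_eq fun j => ?_
    rw [K.testBit_dgw, K.testBit_dgw, Nat.testBit_mod_two_pow]
    by_cases hj : j < w
    · have : w * (n + 1) ≤ w * m := Nat.mul_le_mul_left _ hn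
      have : w * n + j < w * m := by rw [mul_add] at this; omega
      simp [this]
    · simp [hj]
  rw [← key x, ← key y, h]

theorem dgw_dec (w kb T : ℕ) (hw : 1 ≤ w) (c : ℕ → ℤ) (hc : ∀ n, |c n| < 2 ^ (w - 1)) (M : ℕ)
    (hM : kb / w ≤ M) (hT : (T : ℤ) ≡ ∑ n ∈ Finset.range M, c n * 2 ^ (w * n) [ZMOD 2 ^ kb])
    (n : ℕ) (hn : n < kb / w) :
    (K.dgw w (Nat.land (T + K.bias w kb) (K.msk kb)) n : ℤ) = c n + 2 ^ (w - 1) := by
  set m := kb / w with hm
  have hwm : w * m ≤ kb := Nat.mul_div_le kb w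
  have hpw : (2 : ℤ) ^ w = 2 * 2 ^ (w - 1) := by
    rw [← pow_succ', Nat.sub_add_cancel hw]
  have hd : ∀ n, (((c n + 2 ^ (w - 1)).toNat : ℕ) : ℤ) = c n + 2 ^ (w - 1) := fun n =>
    Int.toNat_of_nonneg (by have := abs_lt.1 (hc n); omega)
  have hd2 : ∀ n, (c n + 2 ^ (w - 1)).toNat < 2 ^ w := fun n => by
    have h1 := abs_lt.1 (hc n)
    have h2 := hd n
    zify
    omega
  have key : Nat.land (T + K.bias w kb) (K.msk kb) ≡
      ∑ n ∈ Finset.range m, (c n + 2 ^ (w - 1)).toNat * 2 ^ (w * n) [MOD 2 ^ (w * m)] := by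
    rw [K.land_msk]
    refine ((Nat.mod_modEq _ _).of_dvd (pow_dvd_pow 2 hwm)).trans ?_
    rw [← Int.natCast_modEq_iff]
    have hb : K.bias w kb = ∑ n ∈ Finset.range m, 2 ^ (w - 1) * 2 ^ (w * n) := by
      rw [K.bias, K.rep_eq _ _ _ hw, K.pw_eq]
      rfl
    push_cast
    simp only [hd, add_mul, Finset.sum_add_distrib]
    rw [hb]
    push_cast
    refine Int.ModEq.add ?_ Int.ModEq.rfl
    refine (hT.of_dvd (pow_dvd_pow 2 hwm)).trans ?_
    rw [← Finset.sum_range_add_sum_Ico _ hM]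
    refine (Int.modEq_iff_dvd.2 ?_).symm
    rw [add_sub_cancel_left]
    refine Finset.dvd_sum fun k hk => Dvd.dvd.mul_left (pow_dvd_pow 2 ?_) _
    exact Nat.mul_le_mul_left _ (Finset.mem_Ico.1 hk).1
  rw [dgw_congr w m _ _ n key hn, K.dgw_sum w _ m (fun n _ => hd2 n), if_pos hn, hd]

theorem lane_eq (w row s : ℕ) :
    K.lane w row s = min (K.dgw w row s - 2 ^ (w - 1)) 549755813887 := by
  rw [K.lane, K.mn_eq, K.land_msk, K.pw_eq, K.dgw]
  simp only [Nat.shiftRight_eq, Nat.shiftRight_eq_div_pow, Nat.mul_eq, Nat.sub_eq]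

theorem dg40_crow (w S D i c r s : ℕ) :
    K.dg40 (K.crow w S D i c r) s = if s < (c - 3 * r) / 2 + 1 then
      min (K.dgw w D (s + ((S + 1) * (i + 1 + r) + 1)) - 2 ^ (w - 1)) 549755813887 else 0 := by
  rw [K.crow, K.frc_eq, K.dg40_eq, K.dgw_asm]
  · simp only [Nat.add_eq, Nat.mul_eq, Nat.sub_eq, K.div_eq]
    split_ifs with h
    · rw [lane_eq, K.dgw_land, K.dgw_shiftRight, K.dgw_msk, if_pos h, ← K.msk_eq, K.land_msk,
        Nat.mod_eq_of_lt (K.dgw_lt _ _ _)]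
    · rfl
  · intro k _
    rw [lane_eq]
    omega

theorem lt_length_of_nth {α : Type} (L : List (List α)) (i : ℕ) (h : 0 < (K.nth [] L i).length) :
    i < L.length := by
  by_contra hc
  rw [K.nth_eq, List.getD_eq_default _ _ (by omega)] at h
  simp at h

theorem chkDat_sound (w S q p B : ℕ) (Kf : ℕ → ℕ) (hK : Antitone Kf) (hp : p ≤ 25) (hw : 1 ≤ w)
    (hS : p * q + 6 ≤ S) (hB : Bnd q p B) (hBw : B < 2 ^ (w - 1)) (dat : K.Dat)
    (h : K.chkDat w S q Kf p dat = true) : Good q p dat := by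
  obtain ⟨G, hG1, hG2⟩ := withLev_sound w S q Kf hK p hp
  rw [K.chkDat, hG1, K.frc_eq] at h
  intro d6 d5 d4 r hr
  have e4 : d4 < (K.nth [] (K.nth [] dat d6) d5).length :=
    lt_length_of_nth _ _ (lt_of_le_of_lt (Nat.zero_le _) hr)
  have e5 : d5 < (K.nth [] dat d6).length :=
    lt_length_of_nth _ _ (lt_of_le_of_lt (Nat.zero_le _) e4)
  have e6 : d6 < dat.length := lt_length_of_nth _ _ (lt_of_le_of_lt (Nat.zero_le _) e5)
  have h1 := K.allL_nth (K.allL_nth (K.allL_nth h [] e6) [] e5) [] e4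
  rw [K.chkRows, K.frc_eq, K.frc_eq, K.frc_eq, K.frc_eq] at h1
  have h2 := K.allL_nth h1 0 hr
  simp only [Bool.and_eq_true, Nat.ble_eq, Nat.beq_eq, Nat.add_eq, Nat.mul_eq, Nat.sub_eq,
    zero_add] at h2
  obtain ⟨⟨h3, h4⟩, h5⟩ := h2
  refine ⟨by omega, fun s => ?_⟩
  rw [K.get3, h5, dg40_crow]
  by_cases hs : 2 * s + 3 * r + 4 * d4 + 5 * d5 + 6 * d6 ≤ p * q
  swap
  · rw [if_neg hs, if_neg (by omega)]
  rw [if_pos hs, if_pos (by omega)]
  congr 1
  set j := d5 + d6 + 1 with hj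
  set i := d4 + j + 1 with hi
  set kb := Kf (i + j + d6) with hkb
  have hT := hG2 i j d6
  rw [ev_eq_sum_lanes w S (p * q + 15) (kb / w + S * (p * q + 15 + 1)) i j d6
    (vand_GG_antiSym q p) (vand_GG_isHomogeneous q p) (by omega) (Nat.le_add_left _ _)] at hT
  have hlane : s + ((S + 1) * (i + 1 + r) + 1) = (i + 2 + r + s) + S * (i + 1 + r) := by ring
  have hn : s + ((S + 1) * (i + 1 + r) + 1) < kb / w := by
    have h6 : S * (i + 2 + r) ≤ kb / w := by
      rw [Nat.le_div_iff_mul_le hw]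
      calc S * (i + 2 + r) * w = w * S * (i + 2 + r) := by ring
        _ ≤ kb := h4
    have h7 : S * (i + 2 + r) = S * (i + 1 + r) + S := by ring
    omega
  have h6 := dgw_dec w kb (G d6 i j) hw _
    (fun n => lt_of_le_of_lt (hB _) (by exact_mod_cast hBw)) _ (Nat.le_add_right _ _) hT _ hn
  have hl := lam_antitone (p * q) d6 (d5 + d6) (d4 + (d5 + d6)) r s (by omega) (by omega)
    (by omega)
  have hβ := laneExp_eq (p * q + 15) S (lam (p * q) d6 (d5 + d6) (d4 + (d5 + d6)) r s + rho 6)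
    (by rw [map_add, degree_lam _ _ _ _ _ _ (by omega), degree_rho6])
    (by
      change d4 + (d5 + d6) + r + s + 4 < S
      omega)
  have e1 : (lam (p * q) d6 (d5 + d6) (d4 + (d5 + d6)) r s + rho 6) 1 = i + 2 + r + s := by
    change d4 + (d5 + d6) + r + s + 4 = _
    omega
  have e2 : (lam (p * q) d6 (d5 + d6) (d4 + (d5 + d6)) r s + rho 6) 2 = i + 1 + r := by
    change d4 + (d5 + d6) + r + 3 = _
    omega
  have e3 : (lam (p * q) d6 (d5 + d6) (d4 + (d5 + d6)) r s + rho 6) 3 = i := by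
    change d4 + (d5 + d6) + 2 = _
    omega
  have e4 : (lam (p * q) d6 (d5 + d6) (d4 + (d5 + d6)) r s + rho 6) 4 = j := rfl
  have e5 : (lam (p * q) d6 (d5 + d6) (d4 + (d5 + d6)) r s + rho 6) 5 = d6 := rfl
  rw [e1, e2, e3, e4, e5, ← hlane] at hβ
  rw [hβ, ← mult_eq_coeff q p _ hl] at h6
  have h7 : K.dgw w (K.dec w Kf G i j d6) (s + ((S + 1) * (i + 1 + r) + 1))
      = mult q p (lam (p * q) d6 (d5 + d6) (d4 + (d5 + d6)) r s) + 2 ^ (w - 1) := by
    exact_mod_cast h6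
  rw [h7, Nat.add_sub_cancel]

end Vale.Agent.P181
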