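import Mathlib
import Vale.Agent.P181.DecSound
import Vale.Agent.P181.Full

/-!
The chain of tables and bounds.
-/

namespace Vale.Agent.P181

open MvPolynomial

theorem bnd_zero (q : ℕ) : Bnd q 0 1 := by
  unfold Bnd
  rw [GG_zero, mul_one]
  refine vand_antiSym.abs_coeff_le 1 fun β hβ => ?_
  rw [coeff_vand_of_strictAnti β hβ]
  split_ifs <;> simp

theorem c5_eq (q : ℕ) : K.c5 q = (6 + q - 1).choose q := by
  have h1 : (6 + q - 1).choose q = (q + 5).choose 5 := by
    rw [show 6 + q - 1 = q + 5 by omega, Nat.choose_symm_add]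
  rw [h1, Nat.choose_eq_descFactorial_div_factorial, K.c5]
  congr 1
  simp only [Nat.descFactorial_succ, Nat.descFactorial_zero]
  simp only [show q + 5 - 4 = q + 1 by omega, show q + 5 - 3 = q + 2 by omega,
    show q + 5 - 2 = q + 3 by omega, show q + 5 - 1 = q + 4 by omega, Nat.sub_zero]
  ring

theorem sumTo_eq (B : List ℕ) (p : ℕ) : K.sumTo B p = ∑ i ∈ Finset.range p, K.nth 0 B i := by
  induction p with
  | zero => rfl
  | succ p ih =>
    rw [Finset.sum_range_succ, ← ih]
    rfl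

theorem bnd_mono {q p B B' : ℕ} (h : Bnd q p B) (hB : B ≤ B') : Bnd q p B' := fun β =>
  (h β).trans (by exact_mod_cast hB)

theorem bnd_apri (q p : ℕ) (hp : 0 < p) (B : List ℕ) (h : ∀ p' < p, Bnd q p' (K.nth 0 B p')) :
    Bnd q p (K.apri q B p) := by
  intro β
  have h1 : (C (p : ℤ) : MvPolynomial (Fin 6) ℤ) * (vand 6 * GG 6 q p) = ∑ k ∈ Finset.range p,
      expand (k + 1) (HH 6 q) * (vand 6 * GG 6 q (p - 1 - k)) := by
    rw [map_natCast, mul_left_comm, GG_rec, Finset.mul_sum]
    exact Finset.sum_congr rfl fun k _ => mul_left_comm _ _ _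
  have h2 := congrArg (coeff β) h1
  rw [coeff_C_mul, coeff_sum] at h2
  have h3 : (p : ℤ) * |coeff β (vand 6 * GG 6 q p)| ≤ (K.c5 q * K.sumTo B p : ℕ) := by
    have e : K.sumTo B p = ∑ k ∈ Finset.range p, K.nth 0 B (p - 1 - k) := by
      rw [sumTo_eq, Finset.sum_range_reflect (fun k => K.nth 0 B k)]
    rw [← Nat.abs_cast (R := ℤ) p, ← abs_mul, h2, e, c5_eq, Finset.mul_sum, Nat.cast_sum]
    refine (Finset.abs_sum_le_sum_abs _ _).trans (Finset.sum_le_sum fun k hk => ?_)
    have hk' := Finset.mem_range.1 hk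
    exact abs_coeff_expand_HH_mul_le _ (h (p - 1 - k) (by omega)) k q β
  have h4 : ((K.apri q B p : ℕ) : ℤ) = ((K.c5 q * K.sumTo B p : ℕ) : ℤ) / p := by
    rw [K.apri, K.div_eq, Nat.mul_eq, Int.natCast_div]
  rw [h4, Int.le_ediv_iff_mul_le (by exact_mod_cast hp), mul_comm]
  exact h3

theorem good_nil (q p : ℕ) : Good q p [] := by
  intro d6 d5 d4 r hr
  simp [K.get3, K.nth_eq] at hr

theorem Kl_antitone (c : ℕ) (R : List ℕ)
    (h : ∀ i < R.length, K.nth 0 R (i + 1) ≤ K.nth 0 R i) : Antitone (K.Kl c R) := by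
  refine antitone_nat_of_succ_le fun i => Nat.mul_le_mul_left _ ?_
  by_cases hi : i < R.length
  · exact h i hi
  · rw [K.nth_eq, List.getD_eq_default _ _ (by omega)]
    exact Nat.zero_le _

theorem chkB1_spec (w S q m : ℕ) (B : List ℕ) (p : ℕ) (dat : K.Dat)
    (h : K.chkB1 w S q m B p dat = true) :
    (dat = [] ∨ (p * q + 6 ≤ S ∧
      (if p ≤ m then K.nth 0 B p else K.apri q B p) < 2 ^ (w - 1))) ∧
    (p ≤ m ∨ K.apri q B p ≤ K.nth 0 B p ∨ K.fullChk p (p * q) (K.nth 0 B p) dat = true) := by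
  unfold K.chkB1 at h
  simpa only [Bool.and_eq_true, Bool.or_eq_true, K.isNil_iff, Nat.ble_eq, Nat.blt_eq, EngA.brec,
    K.pw_eq, Nat.add_eq, Nat.mul_eq, Nat.sub_eq] using h

theorem chain_sound (w S q m : ℕ) (R B : List ℕ) (dats : List K.Dat)
    (hm : ∀ p ≤ m, Bnd q p (K.nth 0 B p)) (hA : K.chkDats w S q R dats = true)
    (hB : K.chkB w S q m R B dats = true) :
    (∀ p, Good q p (K.nth [] dats p)) ∧ ∀ p < dats.length, Bnd q p (K.nth 0 B p) := by
  rw [K.chkDats, K.frc_eq] at hA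
  unfold K.chkB at hB
  simp only [Bool.and_eq_true, Nat.ble_eq, K.len_eq, K.allN_iff, Nat.add_eq] at hB
  obtain ⟨⟨⟨hw, hlen⟩, hR⟩, hB⟩ := hB
  have hK := Kl_antitone (Nat.mul w S) R hR
  have key : ∀ p < dats.length, Good q p (K.nth [] dats p) ∧ Bnd q p (K.nth 0 B p) := by
    intro p
    induction p using Nat.strong_induction_on with
    | _ p ih =>
      intro hp
      have h1 := K.allL_nth hA [] hp
      have h2 := K.allL_nth hB [] hp
      rw [zero_add] at h1 h2
      obtain ⟨h3, h4⟩ := chkB1_spec _ _ _ _ _ _ _ h2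
      have hap : m < p → Bnd q p (K.apri q B p) := fun hmp =>
        bnd_apri q p (by omega) B fun p' hp' => (ih p' hp' (by omega)).2
      have hg : Good q p (K.nth [] dats p) := by
        rcases h3 with h3 | ⟨h3, h5⟩
        · rw [h3]
          exact good_nil q p
        · refine chkDat_sound w S q p _ _ hK (by omega) hw h3 ?_ h5 _ h1
          split_ifs with hpm
          · exact hm p hpm
          · exact hap (by omega)
      refine ⟨hg, ?_⟩
      by_cases hpm : p ≤ m
      · exact hm p hpm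
      rcases h4 with h4 | h4 | h4
      · exact absurd h4 hpm
      · exact bnd_mono (hap (by omega)) h4
      · exact bnd_of_full q p _ _ hg h4
  refine ⟨fun p => ?_, fun p hp => (key p hp).2⟩
  by_cases hp : p < dats.length
  · exact (key p hp).1
  · rw [K.nth_eq, List.getD_eq_default _ _ (by omega)]
    exact good_nil q p

end Vale.Agent.P181
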