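import Mathlib
import Vale.Agent.P181.Lanes

/-!
Two dimensional lanes of a packed vector.
-/

namespace Vale.Agent.P181.K

/-- lane `s` of row `r` -/
def ln (S v r s : ℕ) : ℕ := dgw 40 v (s + S * r)

variable {S : ℕ}

theorem ln_lt (v r s : ℕ) : ln S v r s < 2 ^ 40 := dgw_lt _ _ _

theorem ln_zero (r s : ℕ) : ln S 0 r s = 0 := dgw_zero _ _

theorem dgw_eq_ln (hS : 0 < S) (v i : ℕ) : dgw 40 v i = ln S v (i / S) (i % S) := by
  rw [ln, Nat.mod_add_div]

theorem ln_add (hS : 0 < S) {v w : ℕ} (h : ∀ r s, s < S → ln S v r s + ln S w r s < 2 ^ 40)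
    (r s : ℕ) : ln S (v + w) r s = ln S v r s + ln S w r s :=
  dgw_add 40 v w (fun i => by
    rw [dgw_eq_ln hS, dgw_eq_ln hS]
    exact h _ _ (Nat.mod_lt _ hS)) _

theorem ln_shr (v k r s : ℕ) : ln S (Nat.shiftRight v (40 * S * k)) r s = ln S v (r + k) s := by
  rw [ln, mul_assoc, dgw_shiftRight, ln, mul_add, add_assoc]

theorem ln_shr1 (v r s : ℕ) : ln S (Nat.shiftRight v (40 * S)) r s = ln S v (r + 1) s := by
  rw [← ln_shr, mul_one]

theorem ln_shl (v k r s : ℕ) (hs : s < S) :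
    ln S (Nat.shiftLeft v (40 * S * k)) r s = if k ≤ r then ln S v (r - k) s else 0 := by
  rw [ln, mul_assoc, dgw_shiftLeft]
  by_cases h : k ≤ r
  · obtain ⟨r, rfl⟩ := Nat.exists_eq_add_of_le h
    rw [if_pos h, if_pos (by rw [mul_add]; omega), Nat.add_sub_cancel_left, ln]
    congr 1
    rw [mul_add]
    omega
  · have : S * (r + 1) ≤ S * k := Nat.mul_le_mul_left _ (by omega)
    rw [if_neg h, if_neg (by rw [mul_add] at this; omega)]

theorem ln_land (v w r s : ℕ) :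
    ln S (Nat.land v w) r s = Nat.land (ln S v r s) (ln S w r s) := dgw_land _ _ _ _

theorem land_full {x : ℕ} (hx : x < 2 ^ 40) : Nat.land x (2 ^ 40 - 1) = x := by
  rw [Nat.land_eq, Nat.and_two_pow_sub_one_eq_mod, Nat.mod_eq_of_lt hx]

theorem land_zero' (x : ℕ) : Nat.land x 0 = 0 := by
  rw [Nat.land_eq, Nat.and_zero]

theorem msk_lt {k n : ℕ} (h : k ≤ n) : msk k < 2 ^ n := by
  rw [msk_eq]
  have h1 : 2 ^ k ≤ 2 ^ n := Nat.pow_le_pow_right (by norm_num) h
  have h2 : 0 < 2 ^ k := by positivity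
  omega

theorem ln_mask (hS : 0 < S) (R r s : ℕ) (hs : s < S) :
    ln S (rep (40 * S) (msk (40 * S) - msk 40) R) r s =
      if r < R ∧ 1 ≤ s then 2 ^ 40 - 1 else 0 := by
  rw [ln, ← dgw_dgw 40 S _ r s hs, dgw_rep _ _ _ (by omega)
    (lt_of_le_of_lt (Nat.sub_le _ _) (msk_lt le_rfl))]
  by_cases h : r < R
  · have h1 : ∀ i, dgw 40 (msk 40) i = if i < 1 then 2 ^ 40 - 1 else 0 := fun i =>
      dgw_msk 40 1 i
    rw [if_pos h, dgw_sub 40 (by norm_num), dgw_msk, h1, if_pos hs]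
    · by_cases h2 : 1 ≤ s
      · rw [if_neg (by omega), if_pos ⟨h, h2⟩, Nat.sub_zero]
      · rw [if_pos (by omega), if_neg (by omega), Nat.sub_self]
    · intro i
      rw [dgw_msk, h1]
      split_ifs <;> omega
  · rw [if_neg h, dgw_zero, if_neg (by omega)]

theorem ln_up (hS : 0 < S) (v R r s : ℕ) (hs : s < S) :
    ln S (Nat.shiftLeft (Nat.land v (rep (40 * S) (msk (40 * S) - msk 40) R)) (40 * S - 40)) r s =
      if 1 ≤ r ∧ r ≤ R ∧ s + 1 < S then ln S v (r - 1) (s + 1) else 0 := by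
  have e : 40 * S - 40 = 40 * (S - 1) := by omega
  rw [e, ln, dgw_shiftLeft]
  by_cases h1 : s + 1 < S
  · rcases r with _ | r
    · rw [if_neg (by omega), if_neg (by omega)]
    · have e2 : s + S * (r + 1) - (S - 1) = s + 1 + S * r := by rw [mul_add]; omega
      rw [if_pos (by rw [mul_add]; omega), e2, ← ln, ln_land, ln_mask hS _ _ _ h1,
        Nat.add_sub_cancel]
      by_cases h2 : r < R
      · rw [if_pos (by omega), if_pos (by omega), land_full (ln_lt _ _ _)]
      · rw [if_neg (by omega), if_neg (by omega), land_zero']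
  · have e2 : s + S * r - (S - 1) = 0 + S * r := by omega
    rw [if_pos (by omega), e2, ← ln, ln_land, ln_mask hS _ _ _ hS, if_neg (by omega),
      if_neg (by omega), land_zero']

theorem ln_shl1 (hS : 0 < S) (v : ℕ) (h : ∀ r, ln S v r (S - 1) = 0) (r s : ℕ) :
    ln S (Nat.shiftLeft v 40) r s = if 1 ≤ s then ln S v r (s - 1) else 0 := by
  have h1 := dgw_shiftLeft 40 v 1 (s + S * r)
  rw [mul_one] at h1
  rw [ln, h1]
  by_cases h2 : 1 ≤ s
  · rw [if_pos (by omega), if_pos h2, ln]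
    congr 1
    omega
  · rw [if_neg h2]
    rcases r with _ | r
    · rw [if_neg (by omega)]
    · have e2 : s + S * (r + 1) - 1 = S - 1 + S * r := by rw [mul_add]; omega
      rw [if_pos (by rw [mul_add]; omega), e2, ← ln, h]

theorem ln_vm (c : ℕ) (hc : c / 2 + 1 ≤ S) (r s : ℕ) (hs : s < S) :
    ln S (vm (40 * S) c) r s = if 2 * s + 3 * r ≤ c then 2 ^ 40 - 1 else 0 := by
  have e : vm (40 * S) c =
      asm (40 * S) (fun r => msk (40 * ((c - 3 * r) / 2 + 1))) (c / 3 + 1) := rfl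
  rw [ln, ← dgw_dgw 40 S _ r s hs, e, dgw_asm _ _ _ fun i _ => msk_lt (by omega)]
  by_cases h : r < c / 3 + 1
  · rw [if_pos h, dgw_msk]
    by_cases h2 : 2 * s + 3 * r ≤ c
    · rw [if_pos h2, if_pos (by omega)]
    · rw [if_neg h2, if_neg (by omega)]
  · rw [if_neg h, dgw_zero, if_neg (by omega)]

theorem ln_land_vm (v c : ℕ) (hc : c / 2 + 1 ≤ S) (r s : ℕ) (hs : s < S) :
    ln S (Nat.land v (vm (40 * S) c)) r s = if 2 * s + 3 * r ≤ c then ln S v r s else 0 := by
  rw [ln_land, ln_vm c hc r s hs]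
  split_ifs
  · exact land_full (ln_lt _ _ _)
  · exact land_zero' _

theorem nth_of_le (rows : List ℕ) {r : ℕ} (h : rows.length ≤ r) : nth 0 rows r = 0 := by
  rw [nth_eq, List.getD_eq_default _ _ h]

theorem dg40_zero (s : ℕ) : dg40 0 s = 0 := by rw [dg40_eq, dgw_zero]

/-- the lanes of a block of a correct table -/
theorem ln_vec_good {q p : ℕ} {dat : Dat} (hg : Good q p dat) (hS : p * q / 2 < S)
    (d6 d5 d4 r s : ℕ) (hs : s < S) :
    ln S (vec (40 * S) (get3 dat d6 d5 d4)) r s =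
      if r < (get3 dat d6 d5 d4).length ∧ 2 * s + 3 * r + 4 * d4 + 5 * d5 + 6 * d6 ≤ p * q then
        min (mult q p (lam (p * q) d6 (d5 + d6) (d4 + (d5 + d6)) r s)) 549755813887
      else 0 := by
  have key : ∀ r s, dg40 (nth 0 (get3 dat d6 d5 d4) r) s =
      if r < (get3 dat d6 d5 d4).length ∧ 2 * s + 3 * r + 4 * d4 + 5 * d5 + 6 * d6 ≤ p * q then
        min (mult q p (lam (p * q) d6 (d5 + d6) (d4 + (d5 + d6)) r s)) 549755813887
      else 0 := fun r s => by
    by_cases h : r < (get3 dat d6 d5 d4).length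
    · rw [(hg d6 d5 d4 r h).2 s]
      simp only [h, true_and]
    · rw [nth_of_le _ (not_lt.1 h), dg40_zero, if_neg fun h' => h h'.1]
  rw [ln, ← dg40_eq, dg40_vec S _ _ r s hs, key]
  intro r s hs
  rw [key, if_neg (by omega)]

end Vale.Agent.P181.K
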