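import Mathlib
import Vale.Agent.P181.Full

/-!
The recurrences behind the packed Pieri rule.
-/

namespace Vale.Agent.P181

open MvPolynomial Finset

/-- boxes added to the rows five and four -/
def J4 (α : ℕ → ℕ → ℕ → ℕ → ℕ) (l5 d5 : ℕ) : ℕ → ℕ → ℕ → ℕ → ℕ
  | 0, x, r, s => α l5 x r s
  | t + 1, x, r, s => (if t < d5 then α (l5 - (t + 1)) x r s else 0) +
      if l5 < x then J4 α l5 d5 t (x - 1) (r + 1) s else 0

/-- boxes added to the third row -/
def P3 (G : ℕ → ℕ → ℕ → ℕ) : ℕ → ℕ → ℕ → ℕ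
  | 0, _, _ => 0
  | T + 1, r, s => G T r s + if 1 ≤ r then P3 G T (r - 1) (s + 1) else 0

/-- boxes added to the second row -/
def P2 (G : ℕ → ℕ → ℕ → ℕ) : ℕ → ℕ → ℕ → ℕ
  | 0, _, _ => 0
  | T + 1, r, s => P3 G (T + 1) r s + if 1 ≤ s then P2 G T r (s - 1) else 0

/-- boxes added to the first row -/
def PA (G : ℕ → ℕ → ℕ → ℕ) (q c : ℕ) : ℕ → ℕ → ℕ → ℕ
  | 0, _, _ => 0
  | T + 1, r, s => (if 2 * s + 3 * r + (q - T) ≤ c then P2 G (T + 1) r s else 0) + PA G q c T r s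

theorem J4_ge (α : ℕ → ℕ → ℕ → ℕ → ℕ) (l5 d5 t N x r s : ℕ) :
    ∑ u ∈ range N, (if u ≤ t ∧ t - u ≤ d5 ∧ l5 + u ≤ x then α (l5 - (t - u)) (x - u) (r + u) s
      else 0) ≤ J4 α l5 d5 t x r s := by
  induction t generalizing N x r with
  | zero =>
    rcases N with _ | N
    · simp
    · rw [sum_range_succ', sum_eq_zero fun u _ => if_neg (by omega), zero_add, J4]
      split_ifs
      · exact le_rfl
      · exact Nat.zero_le _
  | succ t ih =>
    rcases N with _ | N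
    · simp
    · rw [sum_range_succ', J4, add_comm]
      refine add_le_add ?_ ?_
      · split_ifs with h1 h2
        · exact le_rfl
        · omega
        · exact Nat.zero_le _
        · exact le_rfl
      · by_cases h : l5 < x
        · rw [if_pos h]
          refine le_trans (le_of_eq (sum_congr rfl fun u _ => ?_)) (ih N (x - 1) (r + 1))
          refine if_congr (by omega) ?_ rfl
          congr 1 <;> omega
        · rw [if_neg h, sum_eq_zero fun u _ => if_neg (by omega)]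

theorem P3_ge (G : ℕ → ℕ → ℕ → ℕ) (t N r s : ℕ) :
    ∑ u ∈ range N, (if u ≤ t ∧ u ≤ r then G (t - u) (r - u) (s + u) else 0) ≤
      P3 G (t + 1) r s := by
  induction t generalizing N r s with
  | zero =>
    rcases N with _ | N
    · simp
    · rw [sum_range_succ', sum_eq_zero fun u _ => if_neg (by omega), zero_add, P3,
        if_pos (by omega)]
      exact Nat.le_add_right _ _
  | succ t ih =>
    rcases N with _ | N
    · simp
    · rw [sum_range_succ', P3, add_comm, if_pos (by omega)]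
      refine add_le_add le_rfl ?_
      by_cases h : 1 ≤ r
      · rw [if_pos h]
        refine le_trans (le_of_eq (sum_congr rfl fun u _ => ?_)) (ih N (r - 1) (s + 1))
        refine if_congr (by omega) ?_ rfl
        congr 1 <;> omega
      · rw [if_neg h, sum_eq_zero fun u _ => if_neg (by omega)]

theorem P2_ge (G : ℕ → ℕ → ℕ → ℕ) (t N r s : ℕ) :
    ∑ u ∈ range N, (if u ≤ t ∧ u ≤ s then P3 G (t - u + 1) r (s - u) else 0) ≤
      P2 G (t + 1) r s := by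
  induction t generalizing N s with
  | zero =>
    rcases N with _ | N
    · simp
    · rw [sum_range_succ', sum_eq_zero fun u _ => if_neg (by omega), zero_add, P2,
        if_pos (by omega)]
      exact Nat.le_add_right _ _
  | succ t ih =>
    rcases N with _ | N
    · simp
    · rw [sum_range_succ', P2, add_comm, if_pos (by omega)]
      refine add_le_add le_rfl ?_
      by_cases h : 1 ≤ s
      · rw [if_pos h]
        refine le_trans (le_of_eq (sum_congr rfl fun u _ => ?_)) (ih N (s - 1))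
        refine if_congr (by omega) ?_ rfl
        congr 1 <;> omega
      · rw [if_neg h, sum_eq_zero fun u _ => if_neg (by omega)]

theorem PA_eq (G : ℕ → ℕ → ℕ → ℕ) (q c T r s : ℕ) : PA G q c T r s =
    ∑ t ∈ range T, if 2 * s + 3 * r + (q - t) ≤ c then P2 G (t + 1) r s else 0 := by
  induction T with
  | zero => rfl
  | succ T ih => rw [PA, sum_range_succ, ih, add_comm]

/-- the summand of the Pieri rule -/
def term (α : ℕ → ℕ → ℕ → ℕ → ℕ) (l5 d5 l4 q c r s : ℕ) (i : ℕ × ℕ × ℕ × ℕ) : ℕ :=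
  if 2 * s + 3 * r + (q - i.1) ≤ c then if i.2.1 ≤ i.1 ∧ i.2.1 ≤ s then
    if i.2.2.1 ≤ i.1 - i.2.1 ∧ i.2.2.1 ≤ r then
      if i.2.2.2 ≤ i.1 - i.2.1 - i.2.2.1 ∧ i.1 - i.2.1 - i.2.2.1 - i.2.2.2 ≤ d5 ∧
          l5 + i.2.2.2 ≤ l4 then
        α (l5 - (i.1 - i.2.1 - i.2.2.1 - i.2.2.2)) (l4 - i.2.2.2) (r - i.2.2.1 + i.2.2.2)
          (s - i.2.1 + i.2.2.1)
      else 0 else 0 else 0 else 0

theorem sum_term_le (α : ℕ → ℕ → ℕ → ℕ → ℕ) (l5 d5 l4 q c r s N : ℕ) :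
    ∑ i ∈ range N ×ˢ range N ×ˢ range N ×ˢ range N, term α l5 d5 l4 q c r s i ≤
      PA (fun t => J4 α l5 d5 t l4) q c N r s := by
  rw [PA_eq, sum_product]
  refine sum_le_sum fun t _ => ?_
  by_cases h1 : 2 * s + 3 * r + (q - t) ≤ c
  swap
  · simp [term, h1]
  rw [if_pos h1, sum_product]
  refine le_trans (sum_le_sum fun u2 _ => ?_) (P2_ge _ t N r s)
  by_cases h2 : u2 ≤ t ∧ u2 ≤ s
  swap
  · simp only [term, h2, if_false, ite_self, sum_const_zero, le_refl]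
  rw [if_pos h2, sum_product]
  refine le_trans (sum_le_sum fun u3 _ => ?_) (P3_ge _ (t - u2) N r (s - u2))
  by_cases h3 : u3 ≤ t - u2 ∧ u3 ≤ r
  swap
  · simp only [term, h3, if_false, ite_self, sum_const_zero, le_refl]
  rw [if_pos h3]
  refine le_trans (le_of_eq (sum_congr rfl fun u4 _ => ?_))
    (J4_ge α l5 d5 (t - u2 - u3) N l4 (r - u3) (s - u2 + u3))
  simp only [term, h1, h2, h3, and_self, if_true]

theorem lam_rho (n l6 l5 l4 r s : ℕ) :
    (lam n l6 l5 l4 r s + rho 6) 0 = n - (l4 + r + s + (l4 + r) + l4 + l5 + l6) + 5 ∧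
    (lam n l6 l5 l4 r s + rho 6) 1 = l4 + r + s + 4 ∧
    (lam n l6 l5 l4 r s + rho 6) 2 = l4 + r + 3 ∧ (lam n l6 l5 l4 r s + rho 6) 3 = l4 + 2 ∧
    (lam n l6 l5 l4 r s + rho 6) 4 = l5 + 1 ∧ (lam n l6 l5 l4 r s + rho 6) 5 = l6 :=
  ⟨rfl, rfl, rfl, rfl, rfl, rfl⟩

theorem degree_six (z : Fin 6 →₀ ℕ) : z.degree = z 0 + z 1 + z 2 + z 3 + z 4 + z 5 := by
  rw [Finsupp.degree_eq_sum, Fin.sum_univ_six]

theorem ext_six {z w : Fin 6 →₀ ℕ} (h0 : z 0 = w 0) (h1 : z 1 = w 1) (h2 : z 2 = w 2)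
    (h3 : z 3 = w 3) (h4 : z 4 = w 4) (h5 : z 5 = w 5) : z = w := by
  ext i
  fin_cases i <;> assumption

theorem strictAnti_add_rho {l : Fin 6 →₀ ℕ} (hl : Antitone l) : StrictAnti (l + rho 6) := by
  intro a b hab
  have h1 := hl hab.le
  have h2 := rho_strictAnti hab
  simp only [Finsupp.add_apply]
  omega

/-- an interlacing exponent comes from a shape -/
theorem exists_shape {z : Fin 6 →₀ ℕ} (h0 : z 1 < z 0) (h1 : z 2 < z 1) (h2 : z 3 < z 2)
    (h3 : z 4 < z 3) (h4 : z 5 < z 4) {D : ℕ} (hD : z.degree = D + 15) :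
    z = lam D (z 5) (z 4 - 1) (z 3 - 2) (z 2 - z 3 - 1) (z 1 - z 2 - 1) + rho 6 ∧
      2 * (z 1 - z 2 - 1) + 3 * (z 2 - z 3 - 1) + 4 * (z 3 - 2) + (z 4 - 1) + z 5 ≤ D := by
  obtain ⟨e0, e1, e2, e3, e4, e5⟩ :=
    lam_rho D (z 5) (z 4 - 1) (z 3 - 2) (z 2 - z 3 - 1) (z 1 - z 2 - 1)
  rw [degree_six] at hD
  exact ⟨ext_six (by omega) (by omega) (by omega) (by omega) (by omega) (by omega), by omega⟩

theorem pieri_six {A : MvPolynomial (Fin 6) ℤ} (hA : AntiSym A) (q : ℕ) {β : Fin 6 →₀ ℕ}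
    (hβ : StrictAnti β) : ∃ Z : Finset (Fin 6 →₀ ℕ), coeff β (A * HH 6 q) = ∑ z ∈ Z, coeff z A ∧
      ∀ z ∈ Z, z.degree + q = β.degree ∧ z 0 ≤ β 0 ∧ z 1 ≤ β 1 ∧ z 2 ≤ β 2 ∧ z 3 ≤ β 3 ∧
        z 4 ≤ β 4 ∧ z 5 ≤ β 5 ∧ β 1 < z 0 ∧ β 2 < z 1 ∧ β 3 < z 2 ∧ β 4 < z 3 ∧ β 5 < z 4 := by
  refine ⟨_, hA.pieri q β hβ, fun z hz => ?_⟩
  rw [mem_filter, mem_Iic] at hz
  obtain ⟨h1, h2, h3⟩ := hz
  exact ⟨h2, h1 0, h1 1, h1 2, h1 3, h1 4, h1 5, h3 0 1 (by decide), h3 1 2 (by decide),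
    h3 2 3 (by decide), h3 3 4 (by decide), h3 4 5 (by decide)⟩

theorem coeff_le_PA {A : MvPolynomial (Fin 6) ℤ} (hA : AntiSym A) {D q n : ℕ} (hn : D + q = n)
    (α : ℕ → ℕ → ℕ → ℕ → ℕ)
    (hc : ∀ y x r s, y ≤ x → 2 * s + 3 * r + 4 * x + y ≤ D →
      coeff (lam D 0 y x r s + rho 6) A ≤ α y x r s)
    (h5 : ∀ l : Fin 6 →₀ ℕ, Antitone l → l.degree = D → l 5 ≠ 0 → coeff (l + rho 6) A ≤ 0)
    {l6 l5 l4 r s : ℕ} (h65 : l6 ≤ l5) (h54 : l5 ≤ l4)
    (hv : 2 * s + 3 * r + 4 * l4 + l5 + l6 ≤ n) :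
    coeff (lam n l6 l5 l4 r s + rho 6) (A * HH 6 q) ≤ if l6 ≤ q then
      (PA (fun t => J4 α l5 (l5 - l6) t l4) (q - l6) (n - (4 * l4 + l5 + l6)) (q - l6 + 1) r s : ℤ)
      else 0 := by
  obtain ⟨Z, hZ, hmem⟩ := pieri_six hA q (strictAnti_add_rho (lam_antitone n l6 l5 l4 r s h65 h54 hv))
  obtain ⟨e0, e1, e2, e3, e4, e5⟩ := lam_rho n l6 l5 l4 r s
  have hd := degree_six (lam n l6 l5 l4 r s + rho 6)
  rw [hZ]
  rw [hd, e0, e1, e2, e3, e4, e5] at hmem
  clear hZ hd e0 e1 e2 e3 e4 e5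
  have hshape : ∀ z ∈ Z, z = lam D (z 5) (z 4 - 1) (z 3 - 2) (z 2 - z 3 - 1) (z 1 - z 2 - 1) +
      rho 6 ∧ 2 * (z 1 - z 2 - 1) + 3 * (z 2 - z 3 - 1) + 4 * (z 3 - 2) + (z 4 - 1) + z 5 ≤ D :=
    fun z hz => by
      have := hmem z hz
      exact exists_shape (by omega) (by omega) (by omega) (by omega) (by omega) (by omega)
  let φ : (Fin 6 →₀ ℕ) → ℕ × ℕ × ℕ × ℕ := fun z =>
    (l4 + r + s + 4 - z 1 + (l4 + r + 3 - z 2) + (l4 + 2 - z 3) + (l5 + 1 - z 4),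
      l4 + r + s + 4 - z 1, l4 + r + 3 - z 2, l4 + 2 - z 3)
  have h1 : ∑ z ∈ Z, coeff z A ≤ ∑ z ∈ Z.filter (fun z => z 5 = 0), coeff z A := by
    rw [sum_filter]
    refine sum_le_sum fun z hz => ?_
    split_ifs with h
    · exact le_rfl
    · have h2 := hmem z hz
      obtain ⟨h3, h4⟩ := hshape z hz
      rw [h3]
      exact h5 _ (lam_antitone _ _ _ _ _ _ (by omega) (by omega) h4) (degree_lam _ _ _ _ _ _ h4) h
  refine h1.trans ?_
  split_ifs with hq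
  swap
  · refine (sum_eq_zero fun z hz => ?_).le
    rw [mem_filter] at hz
    have h2 := hmem z hz.1
    have h3 := degree_six z
    omega
  have h2 : ∑ z ∈ Z.filter (fun z => z 5 = 0), coeff z A ≤ ∑ z ∈ Z.filter (fun z => z 5 = 0),
      (term α l5 (l5 - l6) l4 (q - l6) (n - (4 * l4 + l5 + l6)) r s (φ z) : ℤ) := by
    refine sum_le_sum fun z hz => ?_
    rw [mem_filter] at hz
    have h2 := hmem z hz.1
    have h3 := degree_six z
    obtain ⟨h4, h6⟩ := hshape z hz.1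
    have h7 := hc (z 4 - 1) (z 3 - 2) (z 2 - z 3 - 1) (z 1 - z 2 - 1) (by omega) (by omega)
    rw [hz.2] at h4
    rw [← h4] at h7
    refine h7.trans (le_of_eq ?_)
    have h8 := hz.2
    simp only [term, φ]
    rw [if_pos (by omega), if_pos (by omega), if_pos (by omega), if_pos (by omega)]
    congr 2 <;> omega
  refine h2.trans ?_
  rw [← Nat.cast_sum, Nat.cast_le, ← sum_image (g := φ)]
  · refine le_trans (sum_le_sum_of_subset fun i hi => ?_) (sum_term_le _ _ _ _ _ _ _ _ _)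
    obtain ⟨z, hz, rfl⟩ := mem_image.1 hi
    rw [mem_filter] at hz
    have h2 := hmem z hz.1
    have h3 := degree_six z
    have h8 := hz.2
    simp only [φ, mem_product, mem_range]
    omega
  · intro z hz w hw h
    rw [coe_filter] at hz hw
    have h2 := hmem z hz.1
    have h3 := degree_six z
    have h4 := hmem w hw.1
    have h6 := degree_six w
    have h7 := hz.2
    have h8 := hw.2
    simp only [φ, Prod.mk.injEq] at h
    exact ext_six (by omega) (by omega) (by omega) (by omega) (by omega) (by omega)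

end Vale.Agent.P181
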