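import Mathlib
import Vale.Agent.P181.Full
import Vale.Agent.P181.PLane
import Vale.Agent.P181.PieriA

/-!
The packed Pieri rule.
-/

namespace Vale.Agent.P181

open MvPolynomial

theorem J4_zero {α : ℕ → ℕ → ℕ → ℕ → ℕ} {D : ℕ}
    (hz : ∀ y x r s, y ≤ x → D < 2 * s + 3 * r + 4 * x + y → α y x r s = 0) {l5 d5 : ℕ}
    (hd : d5 ≤ l5) (t x r s : ℕ) (hx : l5 ≤ x) (h : D + t < 2 * s + 3 * r + 4 * x + l5) :
    J4 α l5 d5 t x r s = 0 := by
  induction t generalizing x r with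
  | zero => exact hz _ _ _ _ hx h
  | succ t ih =>
    rw [J4]
    split_ifs with h1 h2 h2
    · rw [hz _ _ _ _ (by omega) (by omega), ih _ _ (by omega) (by omega)]
    · rw [hz _ _ _ _ (by omega) (by omega)]
    · rw [ih _ _ (by omega) (by omega)]
    · rfl

theorem J4_le {α : ℕ → ℕ → ℕ → ℕ → ℕ} {B : ℕ} (hB : ∀ y x r s, y ≤ x → α y x r s ≤ B)
    {l5 d5 : ℕ} (t x r s : ℕ) (hx : l5 ≤ x) : J4 α l5 d5 t x r s ≤ (t + 1) * B := by
  induction t generalizing x r with
  | zero => simpa [J4] using hB _ _ _ _ hx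
  | succ t ih =>
    rw [J4, add_mul (t + 1), one_mul, add_comm]
    refine add_le_add ?_ ?_
    · split_ifs with h
      · exact ih _ _ (by omega)
      · exact Nat.zero_le _
    · split_ifs with h
      · exact hB _ _ _ _ (by omega)
      · exact Nat.zero_le _

theorem P3_zero {G : ℕ → ℕ → ℕ → ℕ} {q c : ℕ}
    (hG : ∀ t r s, c + t < 2 * s + 3 * r + q → G t r s = 0) (T r s : ℕ)
    (h : c + T ≤ 2 * s + 3 * r + q) : P3 G T r s = 0 := by
  induction T generalizing r s with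
  | zero => rfl
  | succ T ih =>
    rw [P3, hG _ _ _ (by omega)]
    split_ifs with h1
    · rw [ih _ _ (by omega)]
    · rfl

namespace K

theorem brec_ite {α : Type} (x y : α) (c : Bool) :
    @Bool.rec (fun _ => α) x y c = if c = true then y else x := by
  cases c <;> rfl

theorem g4_zero (a : ℕ → ℕ → ℕ) (sh l5 d5 x : ℕ) : g4 a sh l5 d5 0 x = a l5 x := mod0 _

theorem g4_succ (a : ℕ → ℕ → ℕ) (sh l5 d5 t x : ℕ) : g4 a sh l5 d5 (t + 1) x =
    (if t < d5 then a (l5 - (t + 1)) x else 0) +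
      if l5 < x then Nat.shiftRight (g4 a sh l5 d5 t (x - 1)) sh else 0 := by
  have h1 : (ay a l5 d5 t).1 x = if t < d5 then a (l5 - (t + 1)) x else 0 := by
    unfold ay
    rw [brec_ite]
    by_cases h : t < d5
    · rw [if_pos (Nat.blt_eq.mpr h), if_pos h]
      exact mod0 _
    · rw [if_neg fun h' => h (Nat.blt_eq.mp h'), if_neg h]
  change g4S a sh l5 d5 t (g4 a sh l5 d5 t) x = _
  unfold g4S
  rw [brec_ite, ← h1]
  by_cases h : l5 < x
  · rw [if_pos (Nat.blt_eq.mpr h), if_pos h]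
    obtain ⟨x, rfl⟩ : ∃ y, x = y + 1 := ⟨x - 1, by omega⟩
    exact add0_eq _ _
  · rw [if_neg fun h' => h (Nat.blt_eq.mp h'), if_neg h, add_zero]

theorem ln_g4 {S B : ℕ} (hS : 0 < S) {a : ℕ → ℕ → ℕ} {α : ℕ → ℕ → ℕ → ℕ → ℕ}
    (ha : ∀ y x r s, s < S → ln S (a y x) r s = α y x r s)
    (hB : ∀ y x r s, y ≤ x → α y x r s ≤ B) {l5 d5 : ℕ} (t : ℕ) (ht : (t + 1) * B < 2 ^ 40)
    (x r s : ℕ) (hx : l5 ≤ x) (hs : s < S) :
    ln S (g4 a (40 * S) l5 d5 t x) r s = J4 α l5 d5 t x r s := by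
  induction t generalizing x r s with
  | zero => rw [g4_zero, ha _ _ _ _ hs, J4]
  | succ t ih =>
    have ht' : (t + 1) * B < 2 ^ 40 := lt_of_le_of_lt (Nat.mul_le_mul_right _ (by omega)) ht
    have key : ∀ r s, s < S → ln S (if t < d5 then a (l5 - (t + 1)) x else 0) r s +
        ln S (if l5 < x then Nat.shiftRight (g4 a (40 * S) l5 d5 t (x - 1)) (40 * S) else 0) r s =
        J4 α l5 d5 (t + 1) x r s := fun r s hs => by
      rw [J4]
      congr 1
      · split_ifs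
        · exact ha _ _ _ _ hs
        · exact ln_zero _ _
      · split_ifs with h
        · rw [ln_shr1, ih ht' _ _ _ (by omega) hs]
        · exact ln_zero _ _
    rw [g4_succ, ln_add hS, key r s hs]
    intro r s hs
    rw [key r s hs]
    exact lt_of_le_of_lt (J4_le hB _ _ _ _ hx) ht

/-- the main loop -/
noncomputable def loop (g : ℕ → ℕ → ℕ) (V : ℕ → ℕ) (M s1 q x k : ℕ) : ℕ → ℕ → ℕ → ℕ :=
  @Nat.rec (fun _ => ℕ → ℕ → ℕ → ℕ) plB (plS g V M s1 q x) k

theorem loop_zero (g : ℕ → ℕ → ℕ) (V : ℕ → ℕ) (M s1 q x x3 x2 acc : ℕ) :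
    loop g V M s1 q x 0 x3 x2 acc = acc := mod0 _

theorem loop_succ (g : ℕ → ℕ → ℕ) (V : ℕ → ℕ) (M s1 q x m x3 x2 acc y3 y2 : ℕ)
    (h3 : y3 = g (q - m) x + Nat.shiftLeft (Nat.land x3 M) s1)
    (h2 : y2 = Nat.land (y3 + Nat.shiftLeft x2 40) (V m)) :
    loop g V M s1 q x (m + 1) x3 x2 acc = loop g V M s1 q x m y3 y2 (y2 + acc) := by
  subst h2 h3
  rfl

theorem vm'_eq (sh c m : ℕ) : vm' sh c m = vm sh (c - m) := mod0 _

theorem loop_sound {S R B q c x : ℕ} (hS : c / 2 + 2 ≤ S) (hR : c / 3 + 1 ≤ R)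
    (hq : (q + 4).choose 4 * B < 2 ^ 40) {g : ℕ → ℕ → ℕ} {G : ℕ → ℕ → ℕ → ℕ}
    (hg : ∀ t r s, t ≤ q → s < S → ln S (g t x) r s = G t r s)
    (hB : ∀ t r s, G t r s ≤ (t + 1) * B)
    (hG : ∀ t r s, c + t < 2 * s + 3 * r + q → G t r s = 0) (k T x3 x2 acc : ℕ)
    (hT : T + k = q + 1)
    (h3 : ∀ r s, s < S → P3 G T r s ≤ ln S x3 r s ∧ ln S x3 r s ≤ (T + 1).choose 2 * B)
    (h2 : ∀ r s, s < S → (2 * s + 3 * r + k ≤ c → P2 G T r s ≤ ln S x2 r s) ∧
      ln S x2 r s ≤ (T + 2).choose 3 * B ∧ (c < 2 * s + 3 * r → ln S x2 r s = 0))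
    (hA : ∀ r s, s < S → PA G q c T r s ≤ ln S acc r s ∧
      ln S acc r s ≤ (T + 3).choose 4 * B ∧ (c < 2 * s + 3 * r → ln S acc r s = 0))
    (r s : ℕ) (hs : s < S) :
    PA G q c (q + 1) r s ≤ ln S (loop g (vm' (40 * S) c)
      (rep (40 * S) (msk (40 * S) - msk 40) R) (40 * S - 40) q x k x3 x2 acc) r s ∧
    ln S (loop g (vm' (40 * S) c) (rep (40 * S) (msk (40 * S) - msk 40) R) (40 * S - 40) q x k
      x3 x2 acc) r s ≤ (q + 4).choose 4 * B ∧
    (c < 2 * s + 3 * r → ln S (loop g (vm' (40 * S) c) (rep (40 * S) (msk (40 * S) - msk 40) R)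
      (40 * S - 40) q x k x3 x2 acc) r s = 0) := by
  have hS0 : 0 < S := by omega
  induction k generalizing T x3 x2 acc with
  | zero =>
    rw [loop_zero]
    rw [add_zero] at hT
    subst hT
    exact hA r s hs
  | succ m ih =>
    have hTq : T ≤ q := by omega
    have e : q - m = T := by omega
    have c2 : (T + 1 + 1).choose 2 * B = (T + 1) * B + (T + 1).choose 2 * B := by
      rw [Nat.choose_succ_succ' (T + 1) 1, Nat.choose_one_right, add_mul]
    have c3 : (T + 1 + 2).choose 3 * B = (T + 1 + 1).choose 2 * B + (T + 2).choose 3 * B := by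
      rw [← add_mul, ← Nat.choose_succ_succ' (T + 2) 2]
    have c4 : (T + 1 + 3).choose 4 * B = (T + 1 + 2).choose 3 * B + (T + 3).choose 4 * B := by
      rw [← add_mul, ← Nat.choose_succ_succ' (T + 3) 3]
    have c5 : (T + 1 + 3).choose 4 * B < 2 ^ 40 :=
      lt_of_le_of_lt (Nat.mul_le_mul_right _ (Nat.choose_le_choose 4 (by omega))) hq
    obtain ⟨y3, hy3⟩ : ∃ y, y = g (q - m) x + Nat.shiftLeft
      (Nat.land x3 (rep (40 * S) (msk (40 * S) - msk 40) R)) (40 * S - 40) := ⟨_, rfl⟩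
    obtain ⟨y2, hy2⟩ : ∃ y, y = Nat.land (y3 + Nat.shiftLeft x2 40) (vm' (40 * S) c m) := ⟨_, rfl⟩
    rw [loop_succ _ _ _ _ _ _ _ _ _ _ _ _ hy3 hy2]
    rw [e] at hy3
    rw [vm'_eq] at hy2
    have hup : ∀ r s, s < S → (if 1 ≤ r ∧ r ≤ R ∧ s + 1 < S then ln S x3 (r - 1) (s + 1) else 0) ≤
        (T + 1).choose 2 * B := fun r s _ => by
      split_ifs with h
      · exact (h3 _ _ h.2.2).2
      · exact Nat.zero_le _
    have e3 : ∀ r s, s < S → ln S y3 r s = G T r s +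
        if 1 ≤ r ∧ r ≤ R ∧ s + 1 < S then ln S x3 (r - 1) (s + 1) else 0 := fun r s hs => by
      rw [hy3, ln_add hS0, hg _ _ _ hTq hs, ln_up hS0 _ _ _ _ hs]
      intro r s hs
      rw [hg _ _ _ hTq hs, ln_up hS0 _ _ _ _ hs]
      have := hB T r s
      have := hup r s hs
      omega
    have h3' : ∀ r s, s < S → P3 G (T + 1) r s ≤ ln S y3 r s ∧
        ln S y3 r s ≤ (T + 1 + 1).choose 2 * B := fun r s hs => by
      rw [e3 r s hs, c2]
      refine ⟨?_, add_le_add (hB T r s) (hup r s hs)⟩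
      rw [P3]
      refine add_le_add le_rfl ?_
      split_ifs with h4 h5
      · exact (h3 _ _ h5.2.2).1
      · exact (P3_zero hG _ _ _ (by omega)).le
      · exact Nat.zero_le _
      · exact le_rfl
    have hlast : ∀ r, ln S x2 r (S - 1) = 0 := fun r => (h2 r _ (by omega)).2.2 (by omega)
    have hsh : ∀ r s, s < S → (if 1 ≤ s then ln S x2 r (s - 1) else 0) ≤ (T + 2).choose 3 * B :=
      fun r s hs => by
        split_ifs with h
        · exact (h2 _ _ (by omega)).2.1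
        · exact Nat.zero_le _
    have e2 : ∀ r s, s < S → ln S y2 r s = if 2 * s + 3 * r ≤ c - m then
        ln S y3 r s + if 1 ≤ s then ln S x2 r (s - 1) else 0 else 0 := fun r s hs => by
      rw [hy2, ln_land_vm _ _ (by omega) _ _ hs, ln_add hS0, ln_shl1 hS0 _ hlast]
      intro r s hs
      rw [ln_shl1 hS0 _ hlast]
      have := (h3' r s hs).2
      have := hsh r s hs
      omega
    have h2' : ∀ r s, s < S → (2 * s + 3 * r + m ≤ c → P2 G (T + 1) r s ≤ ln S y2 r s) ∧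
        ln S y2 r s ≤ (T + 1 + 2).choose 3 * B ∧ (c < 2 * s + 3 * r → ln S y2 r s = 0) :=
      fun r s hs => by
        rw [e2 r s hs]
        refine ⟨fun h => ?_, ?_, fun h => if_neg (by omega)⟩
        · rw [if_pos (by omega), P2]
          refine add_le_add (h3' r s hs).1 ?_
          split_ifs with h4
          · exact (h2 _ _ (by omega)).1 (by omega)
          · exact le_rfl
        · rw [c3]
          by_cases h : 2 * s + 3 * r ≤ c - m
          · rw [if_pos h]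
            exact add_le_add (h3' r s hs).2 (hsh r s hs)
          · rw [if_neg h]
            exact Nat.zero_le _
    refine ih (T + 1) y3 y2 (y2 + acc) (by omega) h3' h2' fun r s hs => ?_
    rw [ln_add hS0, c4]
    · refine ⟨?_, add_le_add (h2' r s hs).2.1 (hA r s hs).2.1, fun h => ?_⟩
      · rw [PA]
        refine add_le_add ?_ (hA r s hs).1
        split_ifs with h4
        · exact (h2' r s hs).1 (by omega)
        · exact Nat.zero_le _
      · rw [(h2' r s hs).2.2 h, (hA r s hs).2.2 h]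
    · intro r s hs
      have := (h2' r s hs).2.1
      have := (hA r s hs).2.1
      omega

theorem pieri_eq (a : ℕ → ℕ → ℕ) (sh s1 M q n l6 l5 l4 : ℕ) : pieri a sh s1 M q n l6 l5 l4 =
    if 4 * l4 + l5 + l6 ≤ n ∧ l6 ≤ q then
      loop (g4 a sh l5 (l5 - l6)) (vm' sh (n - (4 * l4 + l5 + l6))) M s1 (q - l6) l4
        (min (q - l6) (n - (4 * l4 + l5 + l6)) + 1) 0 0 0 else 0 := by
  unfold pieri
  rw [brec_ite, ← mn_eq]
  exact if_congr (by rw [Bool.and_eq_true, Nat.ble_eq, Nat.ble_eq]; rfl) rfl rfl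

theorem pieri_sound {S R D q n B : ℕ} {A : MvPolynomial (Fin 6) ℤ} (hA : AntiSym A)
    (hn : D + q = n) (hS : n / 2 + 2 ≤ S) (hR : n / 3 + 1 ≤ R) (a : ℕ → ℕ → ℕ)
    (ha : ∀ y x r s, y ≤ x → s < S → ln S (a y x) r s ≤ B ∧
      (D < 2 * s + 3 * r + 4 * x + y → ln S (a y x) r s = 0) ∧
      (2 * s + 3 * r + 4 * x + y ≤ D → coeff (lam D 0 y x r s + rho 6) A ≤ ln S (a y x) r s))
    (h5 : ∀ l : Fin 6 →₀ ℕ, Antitone l → l.degree = D → l 5 ≠ 0 → coeff (l + rho 6) A ≤ 0)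
    (hq : (q + 4).choose 4 * B < 2 ^ 40) {l6 l5 l4 : ℕ} (h65 : l6 ≤ l5) (h54 : l5 ≤ l4)
    (r s : ℕ) (hs : s < S) (v : ℕ)
    (hv : v = pieri a (40 * S) (40 * S - 40) (rep (40 * S) (msk (40 * S) - msk 40) R) q n
      l6 l5 l4) :
    ln S v r s ≤ (q + 4).choose 4 * B ∧
      (n < 2 * s + 3 * r + 4 * l4 + l5 + l6 → ln S v r s = 0) ∧
      (2 * s + 3 * r + 4 * l4 + l5 + l6 ≤ n →
        coeff (lam n l6 l5 l4 r s + rho 6) (A * HH 6 q) ≤ ln S v r s) := by
  let α : ℕ → ℕ → ℕ → ℕ → ℕ := fun y x r s => if s < S then ln S (a y x) r s else 0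
  have hα : ∀ y x r s, s < S → ln S (a y x) r s = α y x r s := fun y x r s hs => (if_pos hs).symm
  have hB : ∀ y x r s, y ≤ x → α y x r s ≤ B := fun y x r s h => by
    by_cases hs : s < S
    · exact hα y x r s hs ▸ (ha y x r s h hs).1
    · exact (if_neg hs).le.trans (Nat.zero_le _)
  have hz : ∀ y x r s, y ≤ x → D < 2 * s + 3 * r + 4 * x + y → α y x r s = 0 :=
    fun y x r s h h' => by
      by_cases hs : s < S
      · exact hα y x r s hs ▸ (ha y x r s h hs).2.1 h'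
      · exact if_neg hs
  have hc := fun hval => coeff_le_PA hA hn α (fun y x r s h h' => by
    have hs : s < S := by omega
    exact hα y x r s hs ▸ (ha y x r s h hs).2.2 h') h5 h65 h54 (r := r) (s := s) hval
  rw [hv, pieri_eq]
  by_cases h : 4 * l4 + l5 + l6 ≤ n ∧ l6 ≤ q
  swap
  · rw [if_neg h, ln_zero]
    refine ⟨Nat.zero_le _, fun _ => rfl, fun h1 => ?_⟩
    have := hc h1
    rwa [if_neg (by omega)] at this
  rw [if_pos h]
  have hmono : (q - l6 + 4).choose 4 * B ≤ (q + 4).choose 4 * B :=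
    Nat.mul_le_mul_right _ (Nat.choose_le_choose 4 (by omega))
  have hG : ∀ t r s, n - (4 * l4 + l5 + l6) + t < 2 * s + 3 * r + (q - l6) →
      J4 α l5 (l5 - l6) t l4 r s = 0 := fun t r s h1 =>
    J4_zero hz (by omega) _ _ _ _ h54 (by omega)
  have hlin : ∀ t, t ≤ q - l6 → (t + 1) * B < 2 ^ 40 := fun t ht => by
    refine lt_of_le_of_lt (Nat.mul_le_mul_right _ ?_) hq
    have e1 := Nat.choose_succ_succ' (q + 3) 3
    have e2 := Nat.choose_succ_succ' (q + 2) 2
    have e3 := Nat.choose_succ_succ' (q + 1) 1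
    rw [Nat.choose_one_right] at e3
    simp only [add_assoc, Nat.reduceAdd] at e1 e2 e3
    omega
  have key := loop_sound (S := S) (R := R) (B := B) (q := q - l6) (c := n - (4 * l4 + l5 + l6))
    (x := l4) (by omega) (by omega) (lt_of_le_of_lt hmono hq) (g := g4 a (40 * S) l5 (l5 - l6))
    (G := fun t => J4 α l5 (l5 - l6) t l4)
    (fun t r s ht hs => ln_g4 (by omega) hα hB t (hlin t ht) _ _ _ h54 hs)
    (fun t r s => J4_le hB _ _ _ _ h54) hG (min (q - l6) (n - (4 * l4 + l5 + l6)) + 1)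
    (q - l6 - min (q - l6) (n - (4 * l4 + l5 + l6))) 0 0 0 (by omega)
    (fun r s _ => by
      rw [ln_zero]
      refine ⟨?_, Nat.zero_le _⟩
      by_cases h1 : q - l6 ≤ n - (4 * l4 + l5 + l6)
      · rw [min_eq_left h1, Nat.sub_self]
        exact le_rfl
      · exact (P3_zero hG _ _ _ (by omega)).le)
    (fun r s _ => by
      rw [ln_zero]
      refine ⟨fun h1 => ?_, Nat.zero_le _, fun _ => rfl⟩
      rw [min_eq_left (by omega), Nat.sub_self]
      exact le_rfl)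
    (fun r s _ => by
      rw [ln_zero]
      refine ⟨?_, Nat.zero_le _, fun _ => rfl⟩
      rw [PA_eq]
      refine (Finset.sum_eq_zero fun t ht => if_neg ?_).le
      have := Finset.mem_range.1 ht
      omega) r s hs
  refine ⟨key.2.1.trans hmono, fun h1 => key.2.2 (by omega), fun h1 => ?_⟩
  have := hc h1
  rw [if_pos h.2] at this
  exact this.trans (Nat.cast_le.2 key.1)

theorem c4_eq (q : ℕ) : c4 q = (q + 4).choose 4 := by
  rw [Nat.choose_eq_descFactorial_div_factorial, c4]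
  congr 1
  simp only [Nat.descFactorial_succ, Nat.descFactorial_zero]
  have e1 : q + 4 - 3 = q + 1 := rfl
  have e2 : q + 4 - 2 = q + 2 := rfl
  have e3 : q + 4 - 1 = q + 3 := rfl
  rw [e1, e2, e3, Nat.sub_zero]
  ring

theorem a4_eq (sh : ℕ) (f : Dat) (y x : ℕ) :
    a4 sh f y x = if y = 0 then vec sh (get3 f 0 0 x) else 0 := by
  unfold a4
  rw [brec_ite]
  exact if_congr Nat.beq_eq.to_iff rfl rfl

end K

theorem coeff_four_eq_zero (b : ℕ) (l : Fin 6 →₀ ℕ) (hl : Antitone l) (h : l 4 ≠ 0) :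
    coeff (l + rho 6) (vand 6 * GG 6 b 4) = 0 := by
  rw [← mult_eq_coeff b 4 l hl, mult_eq_zero b 4 l 4 le_rfl h, Nat.cast_zero]

theorem coeff_five_eq_zero (b : ℕ) (l : Fin 6 →₀ ℕ) (hl : Antitone l) (h : l 5 ≠ 0) :
    coeff (l + rho 6) (vand 6 * GG 6 b 4 * HH 6 b) = 0 := by
  have hβ := strictAnti_add_rho hl
  obtain ⟨Z, hZ, hmem⟩ := pieri_six (vand_antiSym.mul_isSymmetric (GG_isSymmetric b 4)) b hβ
  rw [hZ]
  refine Finset.sum_eq_zero fun z hz => ?_
  have h1 := hmem z hz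
  have h2 : StrictAnti z := by
    refine Fin.strictAnti_iff_succ_lt.2 fun i => ?_
    fin_cases i
    · change z 1 < z 0
      omega
    · change z 2 < z 1
      omega
    · change z 3 < z 2
      omega
    · change z 4 < z 3
      omega
    · change z 5 < z 4
      omega
  have h3 := rho_le_of_strictAnti z h2
  have h4 : ∀ i, (z - rho 6) i = z i - (5 - i) := fun i => rfl
  have h5 : (l + rho 6) 5 = l 5 := rfl
  rw [← tsub_add_cancel_of_le h3]
  refine coeff_four_eq_zero b _ (Fin.antitone_iff_succ_le.2 fun i => ?_) ?_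
  · have h6 := Fin.strictAnti_iff_succ_lt.1 h2 i
    have h7 := i.2
    rw [h4, h4, Fin.val_succ, Fin.val_castSucc]
    omega
  · change z 4 - 1 ≠ 0
    omega

theorem u4_sound (b X : ℕ) (f : K.Dat) (hf : Good b 4 f) (hfull : K.fullChk 4 (4 * b) X f = true)
    (hX : K.c4 b * K.c4 b * X < 2 ^ 40) (l6 l5 l4 : ℕ) (h65 : l6 ≤ l5) (h54 : l5 ≤ l4) :
    UB b (K.u4 (40 * (3 * b + 2)) (40 * (3 * b + 2) - 40)
      (K.rep (40 * (3 * b + 2)) (K.msk (40 * (3 * b + 2)) - K.msk 40) (2 * b + 1))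
      b (5 * b) (6 * b) f l6 l5 l4) l6 l5 l4 := by
  rw [K.c4_eq, mul_assoc] at hX
  have hA0 : AntiSym (vand 6 * GG 6 b 4) := vand_antiSym.mul_isSymmetric (GG_isSymmetric b 4)
  have hA1 : AntiSym (vand 6 * GG 6 b 4 * HH 6 b) := hA0.mul_isSymmetric (hsymm_isSymmetric _ _ _)
  have hpos : 0 < (b + 4).choose 4 := Nat.choose_pos (by omega)
  have h1 := fun y x r s (hyx : y ≤ x) (hs : s < 3 * b + 2) => K.pieri_sound (S := 3 * b + 2)
    (R := 2 * b + 1) (D := 4 * b) (q := b) (n := 5 * b) (B := X) hA0 (by omega) (by omega)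
    (by omega) (K.a4 (40 * (3 * b + 2)) f) (fun y x r s hyx hs => by
      rw [K.a4_eq]
      split_ifs with hy
      · subst hy
        rw [K.ln_vec_good hf (by omega) 0 0 x r s hs]
        simp only [mul_zero, add_zero]
        by_cases hv : 2 * s + 3 * r + 4 * x ≤ 4 * b
        · have h2 := lam_antitone (4 * b) 0 0 x r s le_rfl hyx hv
          have h3 := full_le b 4 X f hf hfull _ h2 (degree_lam (4 * b) 0 0 x r s hv)
          rw [if_pos ⟨full_row b 4 X f hfull 0 0 x r (Or.inl rfl) (Or.inl rfl) (Or.inr le_rfl)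
            (by omega), hv⟩, min_eq_left (h3.1.trans h3.2.le)]
          exact ⟨h3.1, fun h => absurd hv (not_le.2 h), fun _ => (mult_eq_coeff b 4 _ h2).ge⟩
        · rw [if_neg fun h => hv h.2]
          exact ⟨Nat.zero_le _, fun _ => rfl, fun h => absurd h hv⟩
      · rw [K.ln_zero]
        exact ⟨Nat.zero_le _, fun _ => rfl, fun h => (coeff_four_eq_zero b _
          (lam_antitone _ _ _ _ _ _ (Nat.zero_le _) hyx h) hy).le⟩)
    (fun l hl _ h => (coeff_four_eq_zero b l hl fun h4 => h (by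
      have : l 5 ≤ l 4 := hl (by decide)
      omega)).le)
    (lt_of_le_of_lt (Nat.le_mul_of_pos_left _ hpos) hX) (Nat.zero_le y) hyx r s hs _ rfl
  intro r s hs
  have h2 := K.pieri_sound (S := 3 * b + 2) (R := 2 * b + 1) (D := 5 * b) (q := b) (n := 6 * b)
    hA1 (by omega) (by omega) (by omega) _ h1
    (fun l hl _ h => (coeff_five_eq_zero b l hl h).le) hX h65 h54 r s hs _ rfl
  rw [K.dg40_eq]
  refine ⟨fun h => ?_, h2.2.1⟩
  have h3 := mult_le_coeff b 4 2 _ (lam_antitone _ _ _ _ _ _ h65 h54 h)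
  rw [pow_two, ← mul_assoc] at h3
  exact_mod_cast h3.trans (h2.2.2 h)

end Vale.Agent.P181
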