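import Mathlib
import Vale.Agent.P181.PieriSound
import Vale.Agent.P181.PLane

/-!
Soundness of the final comparison.
-/

namespace Vale.Agent.P181

open MvPolynomial

namespace K

theorem brec_eq {α : Type} (x y : α) (c : Bool) :
    @Bool.rec (fun _ => α) x y c = if c = true then y else x := by
  cases c <;> rfl

theorem ub_eq (sh R U : ℕ) (rows : List ℕ) : ub sh R U rows =
    if rows = [] then U else if R ≤ rows.length then vec sh rows else
      vec sh rows + Nat.shiftLeft (Nat.shiftRight U (sh * rows.length)) (sh * rows.length) := by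
  unfold ub
  rw [brec_eq, brec_eq]
  simp only [isNil_iff, mod0, len_eq, Nat.ble_eq, Nat.add_eq, Nat.mul_eq]

theorem ub_sound {b U d6 d5 d4 : ℕ} {c1 : Dat} (hc : Good b 6 c1)
    (hU : UB b U d6 (d5 + d6) (d4 + (d5 + d6))) (R : ℕ)
    (hR : 6 * b < 3 * R + 4 * d4 + 5 * d5 + 6 * d6) (r s : ℕ) (hs : s < 3 * b + 2) :
    (2 * s + 3 * r + 4 * d4 + 5 * d5 + 6 * d6 ≤ 6 * b →
      min (mult b 6 (lam (6 * b) d6 (d5 + d6) (d4 + (d5 + d6)) r s)) 549755813887 ≤
        ln (3 * b + 2) (ub (40 * (3 * b + 2)) R U (get3 c1 d6 d5 d4)) r s) ∧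
    (6 * b < 2 * s + 3 * r + 4 * d4 + 5 * d5 + 6 * d6 →
      ln (3 * b + 2) (ub (40 * (3 * b + 2)) R U (get3 c1 d6 d5 d4)) r s = 0) := by
  have hv := ln_vec_good (S := 3 * b + 2) hc (by omega) d6 d5 d4
  have hU' := hU r s hs
  rw [dg40_eq, ← ln] at hU'
  rw [ub_eq]
  split_ifs with h1 h2
  · exact ⟨fun h => (min_le_left _ _).trans (hU'.1 (by omega)), fun h => hU'.2 (by omega)⟩
  · rw [hv r s hs]
    exact ⟨fun h => by rw [if_pos ⟨by omega, h⟩], fun h => by rw [if_neg (by omega)]⟩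
  · rw [ln_add (by omega), hv r s hs, ln_shl _ _ _ _ hs, ln_shr]
    · by_cases h3 : r < (get3 c1 d6 d5 d4).length
      · rw [if_neg (not_le.2 h3), add_zero]
        exact ⟨fun h => by rw [if_pos ⟨h3, h⟩], fun h => by rw [if_neg (by omega)]⟩
      · rw [if_neg fun h => h3 h.1, if_pos (not_lt.1 h3), zero_add,
          Nat.sub_add_cancel (not_lt.1 h3)]
        exact ⟨fun h => (min_le_left _ _).trans (hU'.1 (by omega)), fun h => hU'.2 (by omega)⟩
    · intro r s hs
      rw [hv r s hs, ln_shl _ _ _ _ hs]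
      by_cases h3 : r < (get3 c1 d6 d5 d4).length
      · rw [if_neg (not_le.2 h3), add_zero, ← hv r s hs]
        exact ln_lt _ _ _
      · rw [if_neg fun h => h3 h.1, if_pos (not_lt.1 h3), zero_add]
        exact ln_lt _ _ _

theorem lt_of_land_eq_zero {x : ℕ} (hx : x < 2 ^ 40) (h : Nat.land x 824633720832 = 0) :
    x < 2 ^ 38 := by
  refine Nat.lt_pow_two_of_testBit x fun i hi => ?_
  by_cases h40 : 40 ≤ i
  · exact Nat.testBit_lt_two_pow (lt_of_lt_of_le hx (Nat.pow_le_pow_right (by norm_num) h40))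
  · have h1 := congrArg (fun z => Nat.testBit z i) h
    simp only [Nat.land_eq, Nat.testBit_and, Nat.zero_testBit] at h1
    have h2 : Nat.testBit 824633720832 i = true := by
      have : i = 38 ∨ i = 39 := by omega
      rcases this with rfl | rfl <;> decide
    simpa [h2] using h1

theorem fld_eq (h i : ℕ) : fld h i = h / 2 ^ i % 256 := by
  simp [fld, Nat.shiftRight_eq_div_pow, mod_eq]

theorem bytes (x : ℕ) :
    x % 4294967296 = fld x 0 + 256 * fld x 8 + 65536 * fld x 16 + 16777216 * fld x 24 := by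
  have h1 := Nat.mod_pow_succ (x := x) (b := 256) (k := 0)
  have h2 := Nat.mod_pow_succ (x := x) (b := 256) (k := 1)
  have h3 := Nat.mod_pow_succ (x := x) (b := 256) (k := 2)
  have h4 := Nat.mod_pow_succ (x := x) (b := 256) (k := 3)
  simp only [fld_eq]
  norm_num [Nat.mod_one] at h1 h2 h3 h4 ⊢
  rw [h4, h3, h2]

theorem bytes_add {b d6 d5 d4 b0 a6 a5 a4 b1 m6 m5 m4 : ℕ} (hb : b ≤ 24)
    (hd : 4 * d4 + 5 * d5 + 6 * d6 ≤ 6 * b)
    (hle : b1 + 256 * m6 + 65536 * m5 + 16777216 * m4 ≤ b + 256 * d6 + 65536 * d5 + 16777216 * d4)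
    (h : b + 256 * d6 + 65536 * d5 + 16777216 * d4 - (b1 + 256 * m6 + 65536 * m5 + 16777216 * m4) =
      b0 + 256 * a6 + 65536 * a5 + 16777216 * a4) (h0 : b0 ≤ 100) (h1 : b1 ≤ 100)
    (ha : 5 * a5 + 6 * a6 ≤ b0 * 6) (hm : 5 * m5 + 6 * m6 ≤ b1 * 6) :
    b0 + b1 = b ∧ a6 + m6 = d6 ∧ a5 + m5 = d5 ∧ a4 + m4 = d4 := by
  have e : b + 256 * (d6 + 256 * (d5 + 256 * d4)) =
      b0 + b1 + 256 * (a6 + m6 + 256 * (a5 + m5 + 256 * (a4 + m4))) := by omega
  have key : ∀ x y x' y' : ℕ, x < 256 → x' < 256 → x + 256 * y = x' + 256 * y' →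
      x' = x ∧ y = y' := by
    intro x y x' y' h1 h2 h3
    omega
  obtain ⟨e1, e⟩ := key _ _ _ _ (by omega) (by omega) e
  obtain ⟨e2, e⟩ := key _ _ _ _ (by omega) (by omega) e
  obtain ⟨e3, e⟩ := key _ _ _ _ (by omega) (by omega) e
  exact ⟨e1, e2, e3, e.symm⟩

theorem muok_iff (Src : List (List Dat)) (h : ℕ) : muok Src h = true ↔ fld h 0 ≤ 100 ∧
    0 < dg40 (nth 0 (get3 (nth [] (nth [] Src 0) (fld h 0)) (fld h 8) (fld h 16) (fld h 24))
      (fld h 32)) (fld h 40) := by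
  simp only [muok, frc_eq, Bool.and_eq_true, Nat.ble_eq, Nat.blt_eq]

theorem svm_eq (Src : List (List Dat)) (sh k : ℕ) : svm Src sh k = if fld k 0 ≤ 100 then
    vec sh (get3 (nth [] (nth [] Src (Nat.shiftRight k 32)) (fld k 0)) (fld k 8) (fld k 16)
      (fld k 24)) else 0 := by
  simp only [svm, sv, mod0, frc_eq, brec_eq, Nat.ble_eq]

theorem lam_add {n n' a6 a5 a4 r s m6 m5 m4 r' s' : ℕ}
    (h : 2 * s + 3 * r + 4 * a4 + 5 * a5 + 6 * a6 ≤ n)
    (h' : 2 * s' + 3 * r' + 4 * m4 + 5 * m5 + 6 * m6 ≤ n') :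
    lam n a6 (a5 + a6) (a4 + (a5 + a6)) r s + lam n' m6 (m5 + m6) (m4 + (m5 + m6)) r' s' =
      lam (n + n') (a6 + m6) (a5 + m5 + (a6 + m6)) (a4 + m4 + (a5 + m5 + (a6 + m6)))
        (r + r') (s + s') := by
  ext i
  fin_cases i <;> simp [lam] <;> omega

theorem lane_unique {S s r s' r' : ℕ} (hs : s < S) (hs' : s' < S) (h : s' + S * r' = s + S * r) :
    s' = s ∧ r' = r := by
  have es : s' = s := by
    have := congrArg (· % S) h
    simpa [Nat.mod_eq_of_lt hs', Nat.mod_eq_of_lt hs] using this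
  rw [es] at h
  exact ⟨es, Nat.eq_of_mul_eq_mul_left (by omega) (Nat.add_left_cancel h)⟩

theorem shift_sound {b0 b1 a6 a5 a4 m6 m5 m4 m3 m2 : ℕ} {dat : Dat} (hg : Good 6 b0 dat)
    (hval : 2 * m2 + 3 * m3 + 4 * m4 + 5 * m5 + 6 * m6 ≤ b1 * 6)
    (hne : mult 6 b1 (lam (b1 * 6) m6 (m5 + m6) (m4 + (m5 + m6)) m3 m2) ≠ 0) {S : ℕ}
    (hS : S = 3 * (b0 + b1) + 2) (r s : ℕ) (hs : s < S) :
    ln S (Nat.shiftLeft (vec (40 * S) (get3 dat a6 a5 a4)) (40 * (m2 + S * m3))) r s ≤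
      min (mult 6 (b0 + b1) (lam (6 * (b0 + b1)) (a6 + m6) (a5 + m5 + (a6 + m6))
        (a4 + m4 + (a5 + m5 + (a6 + m6))) r s)) 549755813887 := by
  have hS0 : 0 < S := by omega
  rw [ln, dgw_shiftLeft]
  split_ifs with h1
  swap
  · exact Nat.zero_le _
  rw [dgw_eq_ln hS0, ln_vec_good hg (by omega) _ _ _ _ _ (Nat.mod_lt _ hS0)]
  have hdm := Nat.mod_add_div (s + S * r - (m2 + S * m3)) S
  generalize (s + S * r - (m2 + S * m3)) / S = r' at hdm ⊢
  generalize (s + S * r - (m2 + S * m3)) % S = s' at hdm ⊢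
  split_ifs with h3
  swap
  · exact Nat.zero_le _
  have h4 := h3.2
  obtain ⟨es, er⟩ := lane_unique (s' := s' + m2) (r' := r' + m3) (r := r) hs (by omega)
    (by rw [mul_add]; omega)
  refine min_le_min_right _ ?_
  have := mult_le_mult_add 6 b0 b1 (lam (b0 * 6) a6 (a5 + a6) (a4 + (a5 + a6)) r' s') _ hne
  rwa [lam_add h4 hval, es, er, ← add_mul, mul_comm (b0 + b1) 6] at this

theorem code_mod {b d6 d5 d4 x id : ℕ} (hb : b ≤ 24) (hd : 4 * d4 + 5 * d5 + 6 * d6 ≤ 6 * b) :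
    (b + 256 * d6 + 65536 * d5 + 16777216 * d4 - x + id * 4294967296) % 4294967296 =
      b + 256 * d6 + 65536 * d5 + 16777216 * d4 - x := by
  rw [Nat.add_mul_mod_self_right]
  exact Nat.mod_eq_of_lt (by omega)

theorem muok_spec {Src : List (List Dat)} (hS : ∀ id p, Good 6 p (nth [] (nth [] Src id) p))
    {h : ℕ} (hm : muok Src h = true) : fld h 0 ≤ 100 ∧
      2 * fld h 40 + 3 * fld h 32 + 4 * fld h 24 + 5 * fld h 16 + 6 * fld h 8 ≤ fld h 0 * 6 ∧
      mult 6 (fld h 0) (lam (fld h 0 * 6) (fld h 8) (fld h 16 + fld h 8)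
        (fld h 24 + (fld h 16 + fld h 8)) (fld h 32) (fld h 40)) ≠ 0 := by
  obtain ⟨hb1, hpos⟩ := (muok_iff Src h).1 hm
  generalize fld h 0 = b1 at *
  generalize fld h 8 = m6 at *
  generalize fld h 16 = m5 at *
  generalize fld h 24 = m4 at *
  generalize fld h 32 = m3 at *
  generalize fld h 40 = m2 at *
  have hlen : m3 < (get3 (nth [] (nth [] Src 0) b1) m6 m5 m4).length := by
    by_contra hc
    rw [nth_of_le _ (not_lt.1 hc), dg40_zero] at hpos
    exact lt_irrefl _ hpos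
  rw [((hS 0 b1) _ _ _ _ hlen).2] at hpos
  split_ifs at hpos with hval
  · exact ⟨hb1, hval, (lt_of_lt_of_le hpos (min_le_left _ _)).ne'⟩
  · exact absurd hpos (lt_irrefl _)

theorem muoff_eq (S h : ℕ) : muoff (40 * S) h = 40 * (fld h 40 + S * fld h 32) := by
  rw [mul_add, ← mul_assoc]
  rfl

/-- one hint: the shifted source vector has small lanes, which are lower bounds -/
theorem hint_sound {Src : List (List Dat)} (hS : ∀ id p, Good 6 p (nth [] (nth [] Src id) p))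
    {b d6 d5 d4 h : ℕ} (hb : b ≤ 24) (hd : 4 * d4 + 5 * d5 + 6 * d6 ≤ 6 * b)
    (hm : muok Src h = true)
    (hle : h % 4294967296 ≤ b + 256 * d6 + 65536 * d5 + 16777216 * d4) (k : ℕ)
    (hk : k % 4294967296 = b + 256 * d6 + 65536 * d5 + 16777216 * d4 - h % 4294967296) (r s : ℕ)
    (hs : s < 3 * b + 2) :
    ln (3 * b + 2) (Nat.shiftLeft (svm Src (40 * (3 * b + 2)) k)
      (muoff (40 * (3 * b + 2)) h)) r s ≤
      min (mult 6 b (lam (6 * b) d6 (d5 + d6) (d4 + (d5 + d6)) r s)) 549755813887 := by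
  have hz : ∀ o, ln (3 * b + 2) (Nat.shiftLeft 0 o) r s = 0 := fun o => by
    rw [Nat.shiftLeft_eq', Nat.zero_shiftLeft, ln_zero]
  rw [svm_eq, muoff_eq]
  obtain ⟨hb1, hval, hne⟩ := muok_spec hS hm
  rw [bytes k, bytes h] at hk
  rw [bytes h] at hle
  generalize fld h 0 = b1 at *
  generalize fld h 8 = m6 at *
  generalize fld h 16 = m5 at *
  generalize fld h 24 = m4 at *
  generalize fld h 32 = m3 at *
  generalize fld h 40 = m2 at *
  generalize fld k 0 = b0 at *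
  generalize fld k 8 = a6 at *
  generalize fld k 16 = a5 at *
  generalize fld k 24 = a4 at *
  have hg := hS (Nat.shiftRight k 32) b0
  generalize nth [] (nth [] Src (Nat.shiftRight k 32)) b0 = dat at *
  split_ifs with h2
  swap
  · rw [hz]; exact Nat.zero_le _
  by_cases hnil : get3 dat a6 a5 a4 = []
  · rw [hnil]
    exact (hz _).le.trans (Nat.zero_le _)
  have hsrc := (hg _ _ _ 0 (List.length_pos_iff.2 hnil)).1
  obtain ⟨rfl, rfl, rfl, rfl⟩ := bytes_add hb hd hle hk.symm h2 hb1 (by clear hk hle; omega)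
    (by clear hk hle; omega)
  exact shift_sound hg hval hne rfl r s hs

theorem frc_eq' {α : Type} (n : ℕ) (f : ℕ → α) : frc n f = f n := by
  rw [frc_eq]

theorem hstep_eq (Src : List (List Dat)) (sh tc HU h : ℕ) (t : List ℕ) (acc : ℕ) :
    hstep Src sh tc HU h t acc = if muok Src h = true ∧ h % 4294967296 ≤ tc then
      Nat.lor (Nat.shiftLeft (svm Src sh (tc - h % 4294967296 + Nat.shiftRight h 48 * 4294967296))
        (muoff sh h) + HU) acc else acc := by
  unfold hstep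
  rw [brec_eq, frc_eq', mod_eq, Nat.add_eq, Nat.add_eq, Nat.mul_eq, Nat.sub_eq]
  exact if_congr (by rw [Bool.and_eq_true, Nat.ble_eq]) rfl rfl

theorem cmp1_sound {Src : List (List Dat)} (hS : ∀ id p, Good 6 p (nth [] (nth [] Src id) p))
    {b d6 d5 d4 : ℕ} (hb : b ≤ 24) (hd : 4 * d4 + 5 * d5 + 6 * d6 ≤ 6 * b) {R V : ℕ}
    (hV : ∀ r s, s < 3 * b + 2 → R ≤ r → ln (3 * b + 2) V r s = 0) {hs : List ℕ}
    (h : cmp1 Src (40 * (3 * b + 2)) (b + 256 * d6 + 65536 * d5 + 16777216 * d4)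
      ((3 * b + 2) * R) V hs = true) {r s : ℕ} (hr : r < R) (hs' : s < 3 * b + 2) :
    ln (3 * b + 2) V r s < 2 ^ 38 ∧
      ln (3 * b + 2) V r s ≤ mult 6 b (lam (6 * b) d6 (d5 + d6) (d4 + (d5 + d6)) r s) := by
  simp only [cmp1, cmp2, Bool.and_eq_true, Nat.beq_eq, Nat.sub_eq] at h
  obtain ⟨h1, h2⟩ := h
  have hrep : ∀ x, x < 2 ^ 40 → ∀ r s, s < 3 * b + 2 →
      ln (3 * b + 2) (rep 40 x ((3 * b + 2) * R)) r s = if r < R then x else 0 := by
    intro x hx r s hs
    rw [ln, dgw_rep _ _ _ (by norm_num) hx]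
    by_cases h3 : r < R
    · have : (3 * b + 2) * (r + 1) ≤ (3 * b + 2) * R := Nat.mul_le_mul_left _ h3
      rw [if_pos h3, if_pos (by rw [mul_add] at this; omega)]
    · have : (3 * b + 2) * R ≤ (3 * b + 2) * r := Nat.mul_le_mul_left _ (not_lt.1 h3)
      rw [if_neg h3, if_neg (by omega)]
  have hsmall : ∀ r s, s < 3 * b + 2 → ln (3 * b + 2) V r s < 2 ^ 38 := by
    intro r s hs
    by_cases h3 : r < R
    · have h4 := congrArg (fun z => ln (3 * b + 2) z r s) h1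
      simp only [ln_land, ln_zero] at h4
      rw [hrep _ (by norm_num) r s hs, if_pos h3] at h4
      exact lt_of_land_eq_zero (ln_lt _ _ _) h4
    · rw [hV r s hs (not_lt.1 h3)]
      norm_num
  have hHU : ∀ r s, s < 3 * b + 2 →
      ln (3 * b + 2) (rep 40 549755813888 ((3 * b + 2) * R) - V) r s =
        (if r < R then 549755813888 else 0) - ln (3 * b + 2) V r s := by
    intro r s hs
    rw [← hrep _ (by norm_num) r s hs]
    refine dgw_sub 40 (by norm_num) _ _ (fun i => ?_) _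
    have hi := Nat.mod_lt i (show 0 < 3 * b + 2 by omega)
    rw [dgw_eq_ln (S := 3 * b + 2) (by omega), dgw_eq_ln (S := 3 * b + 2) (by omega),
      hrep _ (by norm_num) _ _ hi]
    split_ifs with h3
    · have := hsmall (i / (3 * b + 2)) _ hi
      omega
    · exact (hV _ _ hi (not_lt.1 h3)).le
  refine ⟨hsmall r s hs', ?_⟩
  obtain ⟨HU, hHUd⟩ : ∃ x, x = rep 40 549755813888 ((3 * b + 2) * R) - V := ⟨_, rfl⟩
  rw [← hHUd] at h2 hHU
  have hbit : ∀ x, x < 2 ^ 40 → x.testBit 39 = true → 549755813888 ≤ x := fun x _ hx => by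
    have := Nat.ge_two_pow_of_testBit hx
    omega
  have key : ∀ hs : List ℕ, (ln (3 * b + 2) (@List.rec ℕ (fun _ => ℕ) HU (hstep Src
      (40 * (3 * b + 2)) (b + 256 * d6 + 65536 * d5 + 16777216 * d4) HU) hs) r s).testBit 39 =
      true → ln (3 * b + 2) V r s ≤ mult 6 b (lam (6 * b) d6 (d5 + d6) (d4 + (d5 + d6)) r s) := by
    intro hs
    induction hs with
    | nil =>
      intro h3
      have h4 := hbit _ (ln_lt _ _ _) h3
      change _ ≤ ln (3 * b + 2) HU r s at h4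
      rw [hHU r s hs', if_pos hr] at h4
      have := hsmall r s hs'
      omega
    | cons x t ih =>
      intro h3
      change (ln (3 * b + 2) (hstep _ _ _ _ x t _) r s).testBit 39 = true at h3
      rw [hstep_eq] at h3
      split_ifs at h3 with h4
      swap
      · exact ih h3
      rw [ln, dgw_lor, Nat.lor_eq, Nat.testBit_or, Bool.or_eq_true] at h3
      rcases h3 with h3 | h3
      swap
      · exact ih h3
      have h5 := hint_sound hS hb hd h4.1 h4.2 _ (code_mod (id := Nat.shiftRight x 48) hb hd)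
      have h6 := hbit _ (dgw_lt _ _ _) h3
      rw [← ln, ln_add (by omega), hHU r s hs', if_pos hr] at h6
      · have h7 := (h5 r s hs').trans (min_le_left _ _)
        have := hsmall r s hs'
        omega
      · intro r s hs
        have h7 := (h5 r s hs).trans (min_le_right _ _)
        rw [hHU r s hs]
        split_ifs <;> omega
  refine key hs ?_
  have h4 := congrArg (fun z => (ln (3 * b + 2) z r s).testBit 39) h2
  simp only [ln_land] at h4
  rw [hrep _ (by norm_num) r s hs', if_pos hr, Nat.land_eq, Nat.testBit_and] at h4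
  have h5 : Nat.testBit 549755813888 39 = true := by decide
  simpa [h5] using h4

end K

theorem chkLev_sound (Src : List (List K.Dat))
    (hS : ∀ id p, Good 6 p (K.nth [] (K.nth [] Src id) p)) (b X : ℕ) (hb : b ≤ 24) (f c1 : K.Dat)
    (hf : Good b 4 f) (hfull : K.fullChk 4 (4 * b) X f = true)
    (hX : K.c4 b * K.c4 b * X < 2 ^ 40) (hc : Good b 6 c1) (lo : ℕ) (hints : K.Dat)
    (h : K.chkLev Src b f c1 lo hints = true) (l : Fin 6 →₀ ℕ) (hl : Antitone l)
    (hd : l.degree = 6 * b) (h1 : lo ≤ l 5) (h2 : l 5 < lo + hints.length) :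
    mult b 6 l ≤ mult 6 b l := by
  obtain ⟨el, hval⟩ := eq_lam l hl
  have h54 : l 5 ≤ l 4 := hl (by decide)
  have h43 : l 4 ≤ l 3 := hl (by decide)
  rw [hd] at el hval
  obtain ⟨d6, hd6⟩ : ∃ x, x = l 5 := ⟨_, rfl⟩
  obtain ⟨d5, hd5⟩ := Nat.exists_eq_add_of_le' h54
  obtain ⟨d4, hd4⟩ := Nat.exists_eq_add_of_le' h43
  obtain ⟨r, hr⟩ : ∃ x, x = l 2 - l 3 := ⟨_, rfl⟩
  obtain ⟨s, hs⟩ : ∃ x, x = l 1 - l 2 := ⟨_, rfl⟩
  rw [← hr, ← hs, hd4, hd5, ← hd6] at el hval
  rw [← hd6] at h1 h2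
  rw [el]
  simp only [K.chkLev, K.frc_eq, Nat.add_eq, Nat.mul_eq, Nat.sub_eq] at h
  obtain ⟨i, rfl⟩ := Nat.exists_eq_add_of_le h1
  have h3 := K.allL_nth h [] (i := i) (by omega)
  simp only [K.chk6, Bool.and_eq_true, Nat.blt_eq, Nat.add_eq, Nat.mul_eq, K.len_eq] at h3
  have h4 := K.allL_nth h3.2 [] (i := d5) (by omega)
  simp only [Bool.and_eq_true, Nat.blt_eq, zero_add] at h4
  have h5 := K.allL_nth h4.2 [] (i := d4) (by omega)
  simp only [K.chkIdx, K.frc_eq, K.brec_eq, Nat.ble_eq, Nat.add_eq, Nat.mul_eq, Nat.sub_eq,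
    K.div_eq, zero_add] at h5
  rw [if_pos (by omega)] at h5
  have hU := u4_sound b X f hf hfull hX (lo + i) (d5 + (lo + i)) (d4 + (d5 + (lo + i)))
    (by omega) (by omega)
  have h6 := K.ub_sound hc hU
    ((6 * b - (4 * (d4 + (d5 + (lo + i))) + (d5 + (lo + i)) + (lo + i))) / 3 + 1) (by omega)
  have h7 := K.cmp1_sound hS hb (by omega) (fun r s hs hr => (h6 r s hs).2 (by omega)) h5
    (r := r) (s := s) (by omega) (by omega)
  have h8 := (h6 r s (by omega)).1 (by omega)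
  omega

end Vale.Agent.P181
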