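/-!
The computational engine: Kronecker-packed plethysm tables, written with recursors so that the
kernel evaluates (and memoizes) them efficiently.
-/

namespace Vale.Agent.P181.K

noncomputable section

/-- evaluate a number before passing it on -/
def frc {α : Type} (n : Nat) (f : Nat → α) : α :=
  @Nat.rec (fun _ => α) (f 0) (fun m _ => f m) (Nat.add n 1)

def pw (n : Nat) : Nat := Nat.shiftLeft 1 n

def msk (n : Nat) : Nat := Nat.sub (pw n) 1

def stepH2 (a : Nat) (_ : Nat) (ih : Nat) : Nat := Nat.add 1 (Nat.shiftLeft ih a)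

def stepH3 (a c : Nat) (i : Nat) (ih : Nat) : Nat :=
  frc (Nat.add i 1) fun i1 =>
    Nat.add (@Nat.rec (fun _ => Nat) 1 (stepH2 a) i1) (Nat.shiftLeft ih c)

/-- truncated complete homogeneous constant -/
def hc (w S k i kb : Nat) : Nat :=
  frc (Nat.mul w k) fun a => frc (Nat.mul a S) fun c =>
    Nat.land (@Nat.rec (fun _ => Nat) 1 (stepH3 a c) i) (msk kb)

abbrev Tab := Nat → Nat → Nat → Nat × Nat

abbrev Get := Nat → Nat → Nat → Nat

/-- table access with reflection -/
def get (T : Tab) (D l i j : Nat) : Nat :=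
  @Bool.rec (fun _ => Nat) 0
    (@Bool.rec (fun _ => Nat)
      (@Bool.rec (fun _ => Nat)
        (@Bool.rec (fun _ => Nat)
          (@Bool.rec (fun _ => Nat) (T i j l).1 0 (Nat.beq j l))
          (@Bool.rec (fun _ => Nat)
            (@Bool.rec (fun _ => Nat) (T i l j).2 0 (Nat.beq i l))
            (T l i j).1 (Nat.blt i l))
          (Nat.blt j l))
        0 (Nat.beq i j))
      (@Bool.rec (fun _ => Nat)
        (@Bool.rec (fun _ => Nat) (T j i l).2 0 (Nat.beq i l))
        (@Bool.rec (fun _ => Nat)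
          (@Bool.rec (fun _ => Nat) (T j l i).1 0 (Nat.beq j l))
          (T l j i).2 (Nat.blt j l))
        (Nat.blt i l))
      (Nat.blt i j))
    (Nat.ble (Nat.add (Nat.add i j) l) D)

def add0 (x y : Nat) : Nat :=
  @Bool.rec (fun _ => Nat) (@Bool.rec (fun _ => Nat) (Nat.add x y) (Nat.mod y 0) (Nat.beq x 0))
    (Nat.mod x 0) (Nat.beq y 0)

/-- a finite sum over pairs, with a flag telling that it is not empty -/
structure C where
  run : (Nat → Nat → Nat) → Nat
  ne : Bool

def C.nil : C := ⟨fun _ => 0, false⟩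

def C.one (a b : Nat) : C := ⟨fun o => Nat.mod (o a b) 0, true⟩

def C.cons (a b : Nat) (x : C) : C :=
  @C.rec (fun _ => C) (fun v e => @Bool.rec (fun _ => C) (C.one a b)
    ⟨fun o => Nat.mod (add0 (o a b) (v o)) 0, true⟩ e) x

def dgS (k i t : Nat) (ih : Nat → C) (j : Nat) : C :=
  @Bool.rec (fun _ => C)
    (@Bool.rec (fun _ => C) C.nil (frc (Nat.sub j k) ih) (Nat.ble k j))
    (frc (Nat.sub i (Nat.mul k (Nat.add t 1))) fun a =>
      @Bool.rec (fun _ => C) (C.one a j) (C.cons a j (frc (Nat.sub j k) ih)) (Nat.ble k j))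
    (Nat.ble (Nat.mul k (Nat.add t 1)) i)

/-- the pairs `(i - k (t - u), j - k u)` -/
def dg (k t i j : Nat) : C := @Nat.rec (fun _ => Nat → C) (C.one i) (dgS k i) t j

def dlS (k t : Nat) (ih : Nat → C) (l : Nat) : C :=
  frc (Nat.add t 1) fun t1 =>
    @Bool.rec (fun _ => C) (C.one t1 l) (C.cons t1 l (frc (Nat.sub l k) ih)) (Nat.ble k l)

/-- the pairs `(t - u, l - k u)` -/
def dl (k t l : Nat) : C := @Nat.rec (fun _ => Nat → C) (C.one 0) (dlS k) t l

def o456 (G : Get) (k i j t l : Nat) : Nat := (dg k t i j).1 (G l)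

def stT (E : Nat → Nat → Nat) (k l t c acc : Nat) : Nat :=
  @Bool.rec (fun _ => Nat) (Nat.add (Nat.mul c ((dl k t l).1 E)) acc) (Nat.mod acc 0)
    (Nat.beq ((dl k t l).1 E) 0)

/-- a fold over pairs -/
structure F (α : Type) where
  run : (Nat → α → Nat → Nat) → Nat → Nat

def F.cons {α : Type} (a : Nat) (b : α) (x : F α) : F α :=
  @F.rec α (fun _ => F α) (fun v => ⟨fun f z => f a b (v f z)⟩) x

def F.nil {α : Type} : F α := ⟨fun _ z => Nat.mod z 0⟩

def hlS (w S q k kb hi u : Nat) (ih : F Nat) : F Nat :=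
  frc (Nat.sub hi u) fun t => frc (Nat.sub q t) fun m => F.cons t (hc w S k m kb) ih

/-- the pairs `(t, hc (q - t))` for `lo ≤ t ≤ hi` -/
def hl (w S q kb s k hi : Nat) : F Nat :=
  @Nat.rec (fun _ => F Nat) F.nil (hlS w S q k kb hi)
    (Nat.sub (Nat.add hi 1) (Nat.div (Nat.add (Nat.sub (Nat.mul k q) s) (Nat.sub k 1)) k))

def mn (a b : Nat) : Nat := Nat.sub a (Nat.sub a b)

def lev2 (H : Nat → Nat → F Nat) (i j l k : Nat) (G : Get) (acc hi : Nat) : Nat :=
  (H k hi).1 (stT (o456 G k i j) k l) acc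

def stepLev (H : Nat → Nat → F Nat) (q i j l k : Nat) (G : Get) (acc : Nat) : Nat :=
  frc (mn q (Nat.add (Nat.add (Nat.div i k) (Nat.div j k)) (Nat.div l k))) (lev2 H i j l k G acc)

def lvS (G : Get) (_ : List Get) (ih : Nat → F Get → F Get) (k : Nat) (x : F Get) : F Get :=
  frc (Nat.add k 1) fun k1 => ih k1 (F.cons k G x)

/-- the lower tables with their distances -/
def lv (L : List Get) : F Get :=
  @List.rec Get (fun _ => Nat → F Get → F Get) (fun _ x => x) lvS L 1 F.nil

/-- search for the correction making the division exact -/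
def srch (p a u : Nat) : Nat :=
  @Nat.rec (fun _ => Nat) 0
    (fun c ih => @Bool.rec (fun _ => Nat) ih c (Nat.beq (Nat.mod (Nat.add a (Nat.mul c u)) p) 0)) p

def ng (kb v : Nat) : Nat := @Bool.rec (fun _ => Nat) (Nat.sub (pw kb) v) 0 (Nat.beq v 0)

def pr (kb v : Nat) : Nat × Nat := (Nat.mod v 0, Nat.mod (ng kb v) 0)

def divp (p kb r : Nat) : Nat × Nat :=
  frc (Nat.mod r p) fun a => frc (Nat.mod (pw kb) p) fun u => frc (srch p a u) fun c =>
    pr kb (Nat.div (add0 r (Nat.mul c (pw kb))) p)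

/-- the table of level `p` from the list of the lower tables -/
def tab (w S q : Nat) (K : Nat → Nat) (L : F Get) (p : Nat) (i j l : Nat) : Nat × Nat :=
  frc (Nat.add (Nat.add i j) l) fun σ => frc (Nat.add (K σ) 128) fun kb0 =>
    frc (Nat.sub (Nat.add kb0 5) (Nat.mul 5 p)) fun kb =>
      frc (Nat.sub (Nat.add (Nat.mul p q) 15) σ) fun s =>
        divp p kb (Nat.land (L.1 (stepLev (hl w S q kb0 s) q i j l) 0) (msk kb))

/-- coefficients of `(1 - y) (x - y) (z - y)` -/
def qq (x z : Int) (n : Nat) : Int :=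
  @Nat.rec (fun _ => Int) (x * z) (fun n _ => @Nat.rec (fun _ => Int) (-(x + z + x * z))
    (fun n _ => @Nat.rec (fun _ => Int) (1 + x + z)
      (fun n _ => @Nat.rec (fun _ => Int) (-1) (fun _ _ => 0) n) n) n) n

def qs (x z : Int) (d n : Nat) : Int :=
  @Bool.rec (fun _ => Int) 0 (qq x z (Nat.sub n d)) (Nat.ble d n)

def vnd (x z : Int) (i j l : Nat) : Int :=
  (1 - x) * (1 - z) * (x - z) *
    (qs x z 2 i * qs x z 1 j * qs x z 0 l - qs x z 2 i * qs x z 0 j * qs x z 1 l
      - qs x z 1 i * qs x z 2 j * qs x z 0 l + qs x z 1 i * qs x z 0 j * qs x z 2 l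
      + qs x z 0 i * qs x z 2 j * qs x z 1 l - qs x z 0 i * qs x z 1 j * qs x z 2 l)

def tab0 (w S : Nat) (K : Nat → Nat) (i j l : Nat) : Nat × Nat :=
  frc (Nat.add (Nat.add i j) l) fun σ => frc (Nat.add (K σ) 128) fun kb =>
    pr kb (Int.toNat (vnd (Int.ofNat (pw w)) (Int.ofNat (pw (Nat.mul w S))) i j l
        % Int.ofNat (pw kb)))

def stepL (w S q : Nat) (K : Nat → Nat) (p : Nat) (ih : List Get) : List Get :=
  frc (Nat.add p 1) fun p1 => frc (Nat.add (Nat.mul p1 q) 15) fun D =>
    List.cons (get (tab w S q K (lv ih) p1) D) ih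

/-- pass the table of level `p` to `f` -/
def withLev {α : Type} (w S q : Nat) (K : Nat → Nat) (p : Nat) (f : Get → α) : α :=
  @List.rec Get (fun _ => α) (f (get (tab0 w S K) 15)) (fun T _ _ => f T)
    (@Nat.rec (fun _ => List Get) [get (tab0 w S K) 15] (stepL w S q K) p)

/-- assemble a number from its digits -/
def asm (W : Nat) (f : Nat → Nat) (n : Nat) : Nat :=
  @Nat.rec (fun _ => Nat) 0 (fun i acc => Nat.add acc (Nat.shiftLeft (f i) (Nat.mul W i))) n

/-- the digit `x` repeated `n` times -/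
def rep (w x n : Nat) : Nat := Nat.mul x (Nat.div (msk (Nat.mul w n)) (msk w))

def bias (w kb : Nat) : Nat := rep w (pw (Nat.sub w 1)) (Nat.div kb w)

/-- the biased digit vector -/
def dec (w : Nat) (K : Nat → Nat) (T : Get) (i j l : Nat) : Nat :=
  frc (K (Nat.add (Nat.add i j) l)) fun kb => Nat.land (Nat.add (T l i j) (bias w kb)) (msk kb)

/-- lane `s` of a biased row, capped at `2 ^ 39 - 1` -/
def lane (w row : Nat) (s : Nat) : Nat :=
  mn (Nat.sub (Nat.land (Nat.shiftRight row (Nat.mul w s)) (msk w)) (pw (Nat.sub w 1))) 549755813887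

/-- compact row `r` of the decoded vector `D` whose index has first entry `i` -/
def crow (w S D i c : Nat) (r : Nat) : Nat :=
  frc (Nat.add (Nat.div (Nat.sub c (Nat.mul 3 r)) 2) 1) fun len =>
    asm 40 (lane w (Nat.land (Nat.shiftRight D
      (Nat.mul w (Nat.add (Nat.mul (Nat.add S 1) (Nat.add (Nat.add i 1) r)) 1)))
      (msk (Nat.mul w len)))) len

/-- `f i x` holds for all the entries `x` of the list, `i` being the position counted from `n` -/
def allL {α : Type} (f : Nat → α → Bool) (L : List α) (n : Nat) : Bool :=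
  @List.rec α (fun _ => Nat → Bool) (fun _ => true)
    (fun x _ ih i => @Bool.rec (fun _ => Bool) false (frc (Nat.add i 1) ih) (f i x)) L n

abbrev Dat := List (List (List (List Nat)))

def chkRows (w S : Nat) (K : Nat → Nat) (T : Get) (n d6 d5 d4 : Nat) (rows : List Nat) : Bool :=
  frc (Nat.add (Nat.add d5 d6) 1) fun j => frc (Nat.add (Nat.add d4 j) 1) fun i =>
    frc (Nat.add (Nat.add (Nat.mul 4 d4) (Nat.mul 5 d5)) (Nat.mul 6 d6)) fun e =>
      frc (Nat.sub n e) fun c =>
        allL (fun r row => and (and (Nat.ble (Nat.add e (Nat.mul 3 r)) n)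
          (Nat.ble (Nat.mul (Nat.mul w S) (Nat.add (Nat.add i 2) r)) (K (Nat.add (Nat.add i j) d6))))
          (Nat.beq row (crow w S (dec w K T i j d6) i c r))) rows 0

/-- the literal table agrees with the computed one -/
def chkDat (w S q : Nat) (K : Nat → Nat) (p : Nat) (dat : Dat) : Bool :=
  withLev w S q K p fun T => frc (Nat.mul p q) fun n =>
    allL (fun d6 x => allL (fun d5 y => allL (fun d4 rows =>
      chkRows w S K T n d6 d5 d4 rows) y 0) x 0) dat 0

def tl {α : Type} (_ : Nat) (L : List α) : List α :=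
  @List.rec α (fun _ => List α) [] (fun _ t _ => t) L

/-- entry `i` of a list, with default `d` -/
def nth {α : Type} (d : α) (L : List α) (i : Nat) : α :=
  @List.rec α (fun _ => α) d (fun x _ _ => x) (@Nat.rec (fun _ => List α) L tl i)

/-- the truncation lengths, from a list of numbers of rows -/
def Kl (c : Nat) (R : List Nat) (s : Nat) : Nat := Nat.mul c (nth 0 R s)

/-- all the literal tables, the one in position `p` being for level `p` -/
def chkDats (w S q : Nat) (R : List Nat) (dats : List Dat) : Bool :=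
  frc (Nat.mul w S) fun c => allL (chkDat w S q (Kl c R)) dats 0

end

end Vale.Agent.P181.K
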