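import Mathlib
import Vale.Agent.P181.Chain
import Vale.Agent.P181.CmpSound
import Vale.Agent.P181.D.C4
import Vale.Agent.P181.D.L22
import Vale.Agent.P181.D.L23

/-!
The multiplicity inequalities for `a = 6` and `7 ≤ b ≤ 24`.
-/

namespace Vale.Agent.P181

open K

theorem bnd_base {q : ℕ} {B : List ℕ} (h : nth 0 B 0 = 1) : ∀ p ≤ 0, Bnd q p (nth 0 B p) := by
  intro p hp
  obtain rfl : p = 0 := by omega
  rw [h]
  exact bnd_zero q

theorem r0_sound : (∀ p, Good 6 p (nth [] r0 p)) ∧ ∀ p ≤ 12, Bnd 6 p (nth 0 bb p) := by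
  have h := chain_sound _ _ _ _ _ _ _ (bnd_base rfl) r0A r0B
  have hl : r0.length = 13 := rfl
  exact ⟨h.1, fun p hp => h.2 p (by omega)⟩

theorem src_good : ∀ id p, Good 6 p (nth [] (nth [] src id) p) := by
  intro id p
  match id with
  | 0 => exact r0_sound.1 p
  | 1 => exact (chain_sound _ _ _ _ _ _ _ r0_sound.2 t1A t1B).1 p
  | 2 => exact (chain_sound _ _ _ _ _ _ _ r0_sound.2 t2A t2B).1 p
  | 3 => exact (chain_sound _ _ _ _ _ _ _ r0_sound.2 t3A t3B).1 p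
  | 4 => exact (chain_sound _ _ _ _ _ _ _ r0_sound.2 t4A t4B).1 p
  | n + 5 =>
    have h : nth [] src (n + 5) = [] := by
      rw [nth_eq]
      exact List.getD_eq_default _ _ (by change 5 ≤ _; omega)
    rw [h, nth_eq]
    exact good_nil _ _

/-- the inequality for the shapes whose last row lies in an interval -/
def Rng (b lo hi : ℕ) : Prop :=
  ∀ l : Fin 6 →₀ ℕ, Antitone l → l.degree = 6 * b → lo ≤ l 5 → l 5 < hi → mult b 6 l ≤ mult 6 b l

theorem Rng.trans {b x y z : ℕ} (h₁ : Rng b x y) (h₂ : Rng b y z) : Rng b x z := by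
  intro l hl hd h1 h2
  rcases lt_or_ge (l 5) y with h | h
  · exact h₁ l hl hd h1 h
  · exact h₂ l hl hd h h2

theorem Rng.all {b : ℕ} (h : Rng b 0 (b + 1)) (l : Fin 6 →₀ ℕ) (hl : Antitone l)
    (hd : l.degree = 6 * b) : mult b 6 l ≤ mult 6 b l := by
  refine h l hl hd (Nat.zero_le _) ?_
  have h1 := (eq_lam l hl).2
  have h2 : l 5 ≤ l 4 := hl (by decide)
  have h3 : l 4 ≤ l 3 := hl (by decide)
  omega

theorem rng_of_chk {b wf Sf wc Sc n4 X : ℕ} {Rf Rc B : List ℕ} {f c : List Dat} (hb : b ≤ 24)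
    (h0 : nth 0 B 0 = 1) (hl : f.length = 5) (hn : n4 = 4 * b)
    (hX : c4 b * c4 b * X < 2 ^ 40)
    (fA : chkDats wf Sf b Rf f = true) (fB : chkB wf Sf b 0 Rf B f = true)
    (fC : fullChk 4 n4 X (nth [] f 4) = true)
    (cA : chkDats wc Sc b Rc c = true) (cB : chkB wc Sc b 4 Rc B c = true)
    {lo hi : ℕ} {hints : Dat} (hh : lo + hints.length = hi)
    (h : chkLev src b (nth [] f 4) (nth [] c 6) lo hints = true) : Rng b lo hi := by
  subst hn hh
  have hf := chain_sound _ _ _ _ _ _ _ (bnd_base h0) fA fB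
  have hc := chain_sound _ _ _ _ _ _ _ (fun p hp => hf.2 p (by omega)) cA cB
  exact fun l hl hd h1 h2 =>
    chkLev_sound src src_good b X hb _ _ (hf.1 4) fC hX (hc.1 6) lo hints h l hl hd h1 h2

theorem rng7 : Rng 7 0 (7 + 1) :=
  have h := @rng_of_chk 7 _ _ _ _ _ _ _ _ _ _ _ (by norm_num) rfl rfl (by norm_num) (by norm_num [c4])
    f7A f7B f7C c7A c7B
  h (hi := 8) rfl h7_0A

theorem rng8 : Rng 8 0 (8 + 1) :=
  have h := @rng_of_chk 8 _ _ _ _ _ _ _ _ _ _ _ (by norm_num) rfl rfl (by norm_num) (by norm_num [c4])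
    f8A f8B f8C c8A c8B
  h (hi := 9) rfl h8_0A

theorem rng9 : Rng 9 0 (9 + 1) :=
  have h := @rng_of_chk 9 _ _ _ _ _ _ _ _ _ _ _ (by norm_num) rfl rfl (by norm_num) (by norm_num [c4])
    f9A f9B f9C c9A c9B
  h (hi := 10) rfl h9_0A

theorem rng10 : Rng 10 0 (10 + 1) :=
  have h := @rng_of_chk 10 _ _ _ _ _ _ _ _ _ _ _ (by norm_num) rfl rfl (by norm_num) (by norm_num [c4])
    f10A f10B f10C c10A c10B
  h (hi := 11) rfl h10_0A

theorem rng11 : Rng 11 0 (11 + 1) :=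
  have h := @rng_of_chk 11 _ _ _ _ _ _ _ _ _ _ _ (by norm_num) rfl rfl (by norm_num) (by norm_num [c4])
    f11A f11B f11C c11A c11B
  h (hi := 12) rfl h11_0A

theorem rng12 : Rng 12 0 (12 + 1) :=
  have h := @rng_of_chk 12 _ _ _ _ _ _ _ _ _ _ _ (by norm_num) rfl rfl (by norm_num) (by norm_num [c4])
    f12A f12B f12C c12A c12B
  h (hi := 13) rfl h12_0A

theorem rng13 : Rng 13 0 (13 + 1) :=
  have h := @rng_of_chk 13 _ _ _ _ _ _ _ _ _ _ _ (by norm_num) rfl rfl (by norm_num) (by norm_num [c4])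
    f13A f13B f13C c13A c13B
  h (hi := 14) rfl h13_0A

theorem rng14 : Rng 14 0 (14 + 1) :=
  have h := @rng_of_chk 14 _ _ _ _ _ _ _ _ _ _ _ (by norm_num) rfl rfl (by norm_num) (by norm_num [c4])
    f14A f14B f14C c14A c14B
  h (hi := 15) rfl h14_0A

theorem rng15 : Rng 15 0 (15 + 1) :=
  have h := @rng_of_chk 15 _ _ _ _ _ _ _ _ _ _ _ (by norm_num) rfl rfl (by norm_num) (by norm_num [c4])
    f15A f15B f15C c15A c15B
  h (hi := 16) rfl h15_0A

theorem rng16 : Rng 16 0 (16 + 1) :=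
  have h := @rng_of_chk 16 _ _ _ _ _ _ _ _ _ _ _ (by norm_num) rfl rfl (by norm_num) (by norm_num [c4])
    f16A f16B f16C c16A c16B
  h (hi := 17) rfl h16_0A

theorem rng17 : Rng 17 0 (17 + 1) :=
  have h := @rng_of_chk 17 _ _ _ _ _ _ _ _ _ _ _ (by norm_num) rfl rfl (by norm_num) (by norm_num [c4])
    f17A f17B f17C c17A c17B
  h (hi := 18) rfl h17_0A

theorem rng18 : Rng 18 0 (18 + 1) :=
  have h := @rng_of_chk 18 _ _ _ _ _ _ _ _ _ _ _ (by norm_num) rfl rfl (by norm_num) (by norm_num [c4])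
    f18A f18B f18C c18A c18B
  h (hi := 19) rfl h18_0A

theorem rng19 : Rng 19 0 (19 + 1) :=
  have h := @rng_of_chk 19 _ _ _ _ _ _ _ _ _ _ _ (by norm_num) rfl rfl (by norm_num) (by norm_num [c4])
    f19A f19B f19C c19A c19B
  h (hi := 20) rfl h19_0A

theorem rng20 : Rng 20 0 (20 + 1) :=
  have h := @rng_of_chk 20 _ _ _ _ _ _ _ _ _ _ _ (by norm_num) rfl rfl (by norm_num) (by norm_num [c4])
    f20A f20B f20C c20A c20B
  Rng.trans (h (hi := 3) rfl h20_0A) (h (hi := 21) rfl h20_3A)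

theorem rng21 : Rng 21 0 (21 + 1) :=
  have h := @rng_of_chk 21 _ _ _ _ _ _ _ _ _ _ _ (by norm_num) rfl rfl (by norm_num) (by norm_num [c4])
    f21A f21B f21C c21A c21B
  Rng.trans (h (hi := 3) rfl h21_0A) (h (hi := 22) rfl h21_3A)

theorem rng22 : Rng 22 0 (22 + 1) :=
  have h := @rng_of_chk 22 _ _ _ _ _ _ _ _ _ _ _ (by norm_num) rfl rfl (by norm_num) (by norm_num [c4])
    f22A f22B f22C c22A c22B
  Rng.trans (h (hi := 2) rfl h22_0A) (Rng.trans (h (hi := 5) rfl h22_2A) (h (hi := 23) rfl h22_5A))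

theorem rng23 : Rng 23 0 (23 + 1) :=
  have h := @rng_of_chk 23 _ _ _ _ _ _ _ _ _ _ _ (by norm_num) rfl rfl (by norm_num) (by norm_num [c4])
    f23A f23B f23C c23A c23B
  Rng.trans (h (hi := 2) rfl h23_0A) (Rng.trans (h (hi := 5) rfl h23_2A) (h (hi := 24) rfl h23_5A))

theorem rng24 : Rng 24 0 (24 + 1) :=
  have h := @rng_of_chk 24 _ _ _ _ _ _ _ _ _ _ _ (by norm_num) rfl rfl (by norm_num) (by norm_num [c4])
    f24A f24B f24C c24A c24B
  Rng.trans (h (hi := 2) rfl h24_0A) (Rng.trans (h (hi := 4) rfl h24_2A) (Rng.trans (h (hi := 7) rfl h24_4A) (h (hi := 25) rfl h24_7A)))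

theorem mult_le_six (b : ℕ) (h1 : 7 ≤ b) (h2 : b ≤ 24) (l : Fin 6 →₀ ℕ) (hl : Antitone l)
    (hd : l.degree = 6 * b) : mult b 6 l ≤ mult 6 b l := by
  refine Rng.all ?_ l hl hd
  interval_cases b
  exacts [rng7, rng8, rng9, rng10, rng11, rng12, rng13, rng14, rng15, rng16, rng17, rng18, rng19, rng20, rng21, rng22, rng23, rng24]

end Vale.Agent.P181
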