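import Mathlib
import Vale.Agent.P181.Canon
import Vale.Agent.P181.Bridge
import Vale.Agent.P181.Six

/-!
The sixth case of Foulkes' conjecture.
-/

namespace Vale.Agent.P181

open TensorProduct

theorem psi_equivariant {α β : Type} [Fintype α] [DecidableEq α] [Fintype β] [DecidableEq β]
    {V : Type*} [AddCommGroup V] [Module ℂ V]
    (ρ₁ : Representation ℂ (V ≃ₗ[ℂ] V) (Sym[ℂ] α (Sym[ℂ] β V)))
    (ρ₂ : Representation ℂ (V ≃ₗ[ℂ] V) (Sym[ℂ] β (Sym[ℂ] α V)))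
    (h₁ : ∀ g w, ρ₁ g (tt α β V w) = tt α β V fun p => g (w p))
    (h₂ : ∀ g w, ρ₂ g (tt β α V w) = tt β α V fun p => g (w p))
    (Ψ : Sym[ℂ] α (Sym[ℂ] β V) →ₗ[ℂ] Sym[ℂ] β (Sym[ℂ] α V))
    (hΨ : ∀ w, Ψ (tt α β V w) = ∑ σ : α → Equiv.Perm β, tt β α V fun p => w (p.2, σ p.2 p.1))
    (g : V ≃ₗ[ℂ] V) (x : Sym[ℂ] α (Sym[ℂ] β V)) : Ψ (ρ₁ g x) = ρ₂ g (Ψ x) := by
  have : Ψ ∘ₗ ρ₁ g = ρ₂ g ∘ₗ Ψ := tt_ext fun w => by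
    simp only [LinearMap.comp_apply, h₁, hΨ, map_sum, h₂]
  exact congrArg (fun f => f x) this

theorem foulkes_six (b : ℕ) (hb : 6 ≤ b)
    (V : Type*) [AddCommGroup V] [Module ℂ V] [FiniteDimensional ℂ V]
    (ρ₁ : Representation ℂ (V ≃ₗ[ℂ] V) (Sym[ℂ] (Fin 6) (Sym[ℂ] (Fin b) V)))
    (ρ₂ : Representation ℂ (V ≃ₗ[ℂ] V) (Sym[ℂ] (Fin b) (Sym[ℂ] (Fin 6) V)))
    (h₁ : ∀ g w, ρ₁ g (tt (Fin 6) (Fin b) V w) = tt (Fin 6) (Fin b) V fun p => g (w p))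
    (h₂ : ∀ g w, ρ₂ g (tt (Fin b) (Fin 6) V w) = tt (Fin b) (Fin 6) V fun p => g (w p)) :
    ∃ Φ : Sym[ℂ] (Fin 6) (Sym[ℂ] (Fin b) V) →ₗ[ℂ] Sym[ℂ] (Fin b) (Sym[ℂ] (Fin 6) V),
      Function.Injective Φ ∧ ∀ g x, Φ (ρ₁ g x) = ρ₂ g (Φ x) := by
  rcases le_or_gt b 24 with h | h
  · refine exists_inj_of_hw_le 6 b (hw_le_of_mult_le b fun l hl hd => ?_) V ρ₁ ρ₂ h₁ h₂
    rcases hb.eq_or_lt with rfl | hb'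
    · exact le_rfl
    · exact mult_le_six b hb' h l hl hd
  · obtain ⟨Ψ, hΨ⟩ := exists_psi (α := Fin 6) (β := Fin b) (V := V)
    exact ⟨Ψ, psi_injective (span_col 6 b (by norm_num; omega)) Ψ hΨ,
      psi_equivariant ρ₁ ρ₂ h₁ h₂ Ψ hΨ⟩

end Vale.Agent.P181
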